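import Vale.Agent.P085.Word

/-! Cayley transforms and the deterministic estimate. -/

namespace Vale.Agent.P085

open scoped ComplexConjugate InnerProductSpace BigOperators
open Filter Topology Finset Function

variable {A : Type*} [CStarAlgebra A]

/-- inverse of `1 - S/2` -/
noncomputable def res (S : A) : A := ∑' n, ((1 / 2 : ℝ) • S) ^ n

/-- Cayley transform -/
noncomputable def cay (S : A) : A := (1 + (1 / 2 : ℝ) • S) * res S

lemma norm_half_le {S : A} (h : ‖S‖ ≤ 1) : ‖(1 / 2 : ℝ) • S‖ ≤ 1 / 2 := by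
  rw [norm_smul]; norm_num; linarith

lemma mul_res {S : A} (h : ‖S‖ ≤ 1) : (1 - (1 / 2 : ℝ) • S) * res S = 1 :=
  mul_neg_geom_series _ ((norm_half_le h).trans_lt (by norm_num))

lemma res_mul {S : A} (h : ‖S‖ ≤ 1) : res S * (1 - (1 / 2 : ℝ) • S) = 1 :=
  geom_series_mul_neg _ ((norm_half_le h).trans_lt (by norm_num))

lemma cay_sub_one {S : A} (h : ‖S‖ ≤ 1) : cay S - 1 = S * res S := by
  rw [cay, ← mul_res h, ← sub_mul, mul_res h]
  congr 1; module

lemma cay_eq {S : A} (h : ‖S‖ ≤ 1) : cay S = 1 + S + S * res S * (1 / 2 : ℝ) • S := by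
  have h1 := cay_sub_one h
  have h2 := congrArg (S * ·) (res_mul h)
  simp only [mul_sub, mul_one, ← mul_assoc] at h2
  linear_combination (norm := abel_nf) h1 + h2

lemma cay_unitary {S : A} (h : ‖S‖ ≤ 1) (hs : star S = -S) : cay S ∈ unitary A := by
  have h1 : star (res S) * (1 + (1 / 2 : ℝ) • S) = 1 := by
    simpa [hs] using congrArg star (mul_res h)
  have h2 : (1 + (1 / 2 : ℝ) • S) * star (res S) = 1 := by
    simpa [hs] using congrArg star (res_mul h)
  have h3 : (1 - (1 / 2 : ℝ) • S) * (1 + (1 / 2 : ℝ) • S) =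
      (1 + (1 / 2 : ℝ) • S) * (1 - (1 / 2 : ℝ) • S) := by
    generalize (1 / 2 : ℝ) • S = T
    noncomm_ring
  have h4 : star (cay S) = star (res S) * (1 - (1 / 2 : ℝ) • S) := by
    simp [cay, hs, sub_eq_add_neg]
  have h5 : cay S = res S * (1 + (1 / 2 : ℝ) • S) := by
    calc cay S = res S * (1 - (1 / 2 : ℝ) • S) * cay S := by rw [res_mul h, one_mul]
      _ = _ := by rw [cay, mul_assoc, ← mul_assoc (1 - _), h3, mul_assoc, mul_res h, mul_one]
  have h6 : star (cay S) = (1 - (1 / 2 : ℝ) • S) * star (res S) := by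
    rw [h5]; simp [hs, sub_eq_add_neg]
  constructor
  · rw [h4, cay, mul_assoc, ← mul_assoc (1 - _), h3, mul_assoc, mul_res h, mul_one, h1]
  · rw [h6, h5, mul_assoc, ← mul_assoc (1 + _), ← h3, mul_assoc, h2, mul_one, res_mul h]

lemma norm_conj_le {u S : A} (hu : u ∈ unitary A) : ‖u * S * star u‖ = ‖S‖ := by
  rw [CStarRing.norm_mul_mem_unitary _ (Unitary.star_mem hu), CStarRing.norm_mem_unitary_mul _ hu]

lemma cay_conj {u S : A} (hu : u ∈ unitary A) (h : ‖S‖ ≤ 1) :
    u * cay S * star u = cay (u * S * star u) := by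
  have h' : ‖u * S * star u‖ ≤ 1 := (norm_conj_le hu).trans_le h
  have e : ∀ a c : A, u * a * star u * (u * c * star u) = u * (a * c) * star u := fun a c => by
    rw [show u * a * star u * (u * c * star u) = u * a * (star u * u) * c * star u by noncomm_ring,
      hu.1]; noncomm_ring
  have h1 : 1 - (1 / 2 : ℝ) • (u * S * star u) = u * (1 - (1 / 2 : ℝ) • S) * star u := by
    simp [mul_sub, sub_mul, hu.2]
  have h2 : 1 + (1 / 2 : ℝ) • (u * S * star u) = u * (1 + (1 / 2 : ℝ) • S) * star u := by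
    simp [mul_add, add_mul, hu.2]
  have h3 : res (u * S * star u) = u * res S * star u := by
    refine left_inv_eq_right_inv (res_mul h') ?_
    rw [h1, e, mul_res h, mul_one, hu.2]
  rw [cay, cay, h2, h3, e]

variable [TrA A]

lemma norm_res {S : A} (h : ‖S‖ ≤ 1) : ‖res S‖ ≤ 2 := by
  have h1 : res S = 1 + (1 / 2 : ℝ) • S * res S := by
    rw [← mul_res h, sub_mul, one_mul, sub_add_cancel]
  have h2 := (norm_add_le _ _).trans' (congrArg norm h1).le
  nlinarith [norm_mul_le ((1 / 2 : ℝ) • S) (res S), norm_half_le h, norm_one_le' (A := A),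
    norm_nonneg (res S)]

lemma norm_cay_sub {S : A} (h : ‖S‖ ≤ 1) (N : ℕ) :
    ‖cay S - (1 + (1 / 2 : ℝ) • S) * ∑ n ∈ range N, ((1 / 2 : ℝ) • S) ^ n‖ ≤ 4 * (1 / 2) ^ N := by
  have h1 : res S - ∑ n ∈ range N, ((1 / 2 : ℝ) • S) ^ n = res S * ((1 / 2 : ℝ) • S) ^ N := by
    rw [← one_mul (∑ n ∈ range N, _), ← res_mul h, mul_assoc, mul_neg_geom_sum, mul_sub]
    simp
  have := nontrivial_of_tr (A := A)
  rw [cay, ← mul_sub, h1]
  have h2 : ‖1 + (1 / 2 : ℝ) • S‖ ≤ 2 := by
    linarith [norm_add_le 1 ((1 / 2 : ℝ) • S), norm_half_le h, norm_one_le' (A := A)]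
  calc _ ≤ 2 * (2 * (1 / 2) ^ N) := (norm_mul_le _ _).trans (mul_le_mul h2 ((norm_mul_le _ _).trans
        (mul_le_mul (norm_res h) ((norm_pow_le _ _).trans (pow_le_pow_left₀ (norm_nonneg _)
          (norm_half_le h) N)) (norm_nonneg _) zero_le_two)) (norm_nonneg _) zero_le_two)
    _ = _ := by ring

/-- ordered product of Cayley transforms -/
noncomputable def WW (S : ℕ → A) : ℕ → A
  | 0 => 1
  | k + 1 => WW S k * cay (S k)

omit [TrA A] in
lemma WW_unitary {S : ℕ → A} (h : ∀ k, ‖S k‖ ≤ 1) (hs : ∀ k, star (S k) = -S k) (k : ℕ) :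
    WW S k ∈ unitary A := by
  induction k with
  | zero => exact one_mem _
  | succ k ih => exact mul_mem ih (cay_unitary (h k) (hs k))

lemma tele {S N : ℕ → A} {K Y : A} {L : ℕ} {σ : ℝ} (h : ∀ k, ‖S k‖ ≤ 1)
    (hs : ∀ k, star (S k) = -S k) (hσ : ∀ k, n2 (S k) ^ 2 ≤ σ)
    (hN : ∀ k < L, S k = (1 / L : ℝ) • (K + N k)) (hY : ‖Y‖ ≤ 1) {m : ℕ} (hm : m ≤ L) :
    ‖tr (Y * WW S m) - tr Y - (1 / L : ℝ) * ∑ k ∈ range m, tr (Y * WW S k * K)‖ ≤
      ∑ k ∈ range m, ‖tr (Y * WW S k * N k)‖ + m * σ := by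
  induction m with
  | zero => simp [WW]
  | succ m ih =>
    have hL : (1 : ℝ) ≤ L := by exact_mod_cast (by omega : 1 ≤ L)
    have e : tr (Y * WW S (m + 1)) - tr Y - (1 / L : ℝ) * ∑ k ∈ range (m + 1), tr (Y * WW S k * K) =
        (tr (Y * WW S m) - tr Y - (1 / L : ℝ) * ∑ k ∈ range m, tr (Y * WW S k * K)) +
        ((1 / L : ℝ) * tr (Y * WW S m * N m) +
          tr (Y * WW S m * S m * res (S m) * (1 / 2 : ℝ) • S m)) := by
      have : tr (Y * WW S m * S m) =
          (1 / L : ℝ) * (tr (Y * WW S m * K) + tr (Y * WW S m * N m)) := by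
        rw [hN m (by omega), mul_smul_comm, tr_rsmul, mul_add, map_add]
      rw [WW, cay_eq (h m), ← mul_assoc, mul_add, mul_add, map_add, map_add, this, sum_range_succ]
      simp only [mul_one, mul_assoc]
      ring
    have h1 : ‖((1 / L : ℝ) : ℂ) * tr (Y * WW S m * N m)‖ ≤ ‖tr (Y * WW S m * N m)‖ := by
      rw [norm_mul, Complex.norm_real, Real.norm_of_nonneg (by positivity)]
      exact mul_le_of_le_one_left (norm_nonneg _) (by rw [div_le_one (by linarith)]; exact hL)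
    have h2 : ‖tr (Y * WW S m * S m * res (S m) * (1 / 2 : ℝ) • S m)‖ ≤ σ := by
      refine (cs _ _).trans (le_trans ?_ (hσ m))
      have a1 := n2_mul_le' (Y * WW S m * S m) (res (S m))
      have a2 := n2_mul_le_of_left (norm_mul_le_one hY (norm_unitary_le (WW_unitary h hs m))) (S m)
      have a3 : n2 (Y * WW S m * S m * res (S m)) ≤ n2 (S m) * 2 :=
        a1.trans (mul_le_mul a2 (norm_res (h m)) (norm_nonneg _) (n2_nonneg _))
      rw [n2_rsmul, abs_of_pos (by norm_num)]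
      nlinarith [n2_nonneg (S m)]
    rw [e, sum_range_succ, Nat.cast_succ]
    linarith [norm_add_le_of_le (ih (by omega)) (norm_add_le_of_le h1 h2)]

lemma drift {S N : ℕ → A} {K y : A} {L : ℕ} (hL : 0 < L) {σ δ X : ℝ} (h : ∀ k, ‖S k‖ ≤ 1)
    (hs : ∀ k, star (S k) = -S k) (hσ : ∀ k, n2 (S k) ^ 2 ≤ σ)
    (hN : ∀ k < L, S k = (1 / L : ℝ) • (K + N k)) (hy : ‖y‖ ≤ 1) (hK : ‖K‖ ≤ δ)
    (hX : ∑ k ∈ range L, ‖tr (1 * WW S k * N k)‖ ≤ X) :
    (tr y).re + (tr (y * K)).re - δ * √(2 * (δ + X + L * σ)) -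
      ∑ k ∈ range L, ‖tr (y * WW S k * N k)‖ - L * σ ≤ (tr (y * WW S L)).re := by
  have hL' : (0 : ℝ) < L := by exact_mod_cast hL
  have hσ0 : 0 ≤ σ := (sq_nonneg _).trans (hσ 0)
  have hδ : 0 ≤ δ := (norm_nonneg _).trans hK
  have hW := fun k => norm_unitary_le (WW_unitary h hs k)
  have h1 : ∀ m ≤ L, n2 (WW S m - 1) ≤ √(2 * (δ + X + L * σ)) := fun m hm => by
    refine Real.le_sqrt_of_sq_le ?_
    have a1 := tele h hs hσ hN norm_one_le' hm
    have a2 : ‖((1 / L : ℝ) : ℂ) * ∑ k ∈ range m, tr (1 * WW S k * K)‖ ≤ δ := by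
      rw [norm_mul, Complex.norm_real, Real.norm_of_nonneg (by positivity), one_div,
        inv_mul_le_iff₀ hL']
      refine (norm_sum_le _ _).trans ((sum_le_card_nsmul _ _ δ fun k _ => ?_).trans ?_)
      · rw [one_mul]
        exact (norm_tr_le _).trans ((norm_mul_le _ _).trans
          ((mul_le_of_le_one_left (norm_nonneg _) (hW k)).trans hK))
      · rw [card_range, nsmul_eq_mul]; gcongr
    have a3 : ∑ k ∈ range m, ‖tr (1 * WW S k * N k)‖ ≤ X :=
      (sum_le_sum_of_subset_of_nonneg (range_mono hm) fun _ _ _ => norm_nonneg _).trans hX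
    have a4 : (m : ℝ) * σ ≤ L * σ := by gcongr
    have a5 := (abs_le.1 ((Complex.abs_re_le_norm _).trans a1)).1
    have a6 := (abs_le.1 ((Complex.abs_re_le_norm _).trans a2)).1
    have a7 : n2 (WW S m) = 1 := by simpa using n2_mul_unitary (WW_unitary h hs m) 1
    rw [n2_sub_comm, n2_sub_sq, a7]
    simp only [Complex.sub_re, tr_one, Complex.one_re, one_mul, n2_one, star_one] at *
    linarith
  have h2 := (abs_le.1 ((Complex.abs_re_le_norm _).trans (tele h hs hσ hN hy le_rfl))).1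
  have h3 : ∀ k ∈ range L, (tr (y * K)).re - δ * √(2 * (δ + X + L * σ)) ≤
      (tr (y * WW S k * K)).re := fun k hk => by
    have : tr (y * WW S k * K) = tr (y * K) + tr (K * y * (WW S k - 1)) := by
      rw [tr_cyc, mul_sub, map_sub, mul_one, tr_comm y]; ring
    rw [this, Complex.add_re]
    have a1 := (abs_le.1 ((Complex.abs_re_le_norm _).trans (cs (K * y) (WW S k - 1)))).1
    have a2 : n2 (K * y) ≤ δ := (n2_le_norm _).trans ((norm_mul_le _ _).trans
      ((mul_le_of_le_one_right (norm_nonneg _) hy).trans hK))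
    linarith [mul_le_mul a2 (h1 k (mem_range.1 hk).le) (n2_nonneg _) hδ]
  have h4 := card_nsmul_le_sum _ _ _ h3
  rw [card_range, nsmul_eq_mul, ← le_div_iff₀' hL', div_eq_inv_mul, ← one_div] at h4
  simp only [Complex.sub_re, Complex.re_ofReal_mul, Complex.re_sum] at h2
  linarith

omit [TrA A] in
lemma GG_mul {x : A} {β : ℕ → A} (hx : x ∈ unitary A) (hβ : Uni β) {S : A} (h : ‖S‖ ≤ 1)
    (k : ℕ) : GG (x * cay S) β k =
      WW (fun j => GG x β (j + 1) * S * star (GG x β (j + 1))) k * GG x β k := by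
  induction k with
  | zero => simp [GG, WW]
  | succ k ih =>
    have hu := GG_unitary hx hβ (k + 1)
    rw [WW, ← cay_conj hu h, mul_assoc, mul_assoc _ (star _), hu.1, mul_one, GG, GG, ih]
    simp only [mul_assoc]

lemma GG_lip {u u' : A} {β : ℕ → A} (hu : u ∈ unitary A) (hu' : u' ∈ unitary A) (hβ : Uni β)
    (k : ℕ) : n2 (GG u β k - GG u' β k) ≤ k * n2 (u - u') := by
  induction k with
  | zero => simp [GG]
  | succ k ih =>
    rw [GG, GG, show GG u β k * β k * u - GG u' β k * β k * u' =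
      (GG u β k - GG u' β k) * (β k * u) + GG u' β k * β k * (u - u') by noncomm_ring]
    refine (n2_add_le _ _).trans ?_
    rw [n2_mul_unitary (mul_mem (hβ k) hu), n2_unitary_mul (mul_mem (GG_unitary hu' hβ k) (hβ k))]
    push_cast
    linarith

end Vale.Agent.P085
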