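import Mathlib

namespace Vale.Agent.P085

open Filter Topology

variable {H : Type*} [NormedAddCommGroup H] [InnerProductSpace ℂ H] [CompleteSpace H]

/-- A set of operators is closed in the weak operator topology. -/
def WOTClosed (S : Set (H →L[ℂ] H)) : Prop :=
  IsClosed (ContinuousLinearMapWOT.ofCLM '' S : Set (H →WOT[ℂ] H))

/-- A faithful normal tracial state. Normal: weak-operator continuous on the unit ball. -/
structure IsFaithfulNormalTrace (M : VonNeumannAlgebra H) (τ : M.toStarSubalgebra →ₗ[ℂ] ℂ) :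
    Prop where
  unital : τ 1 = 1
  positive : ∀ x, 0 ≤ (τ (star x * x)).re ∧ (τ (star x * x)).im = 0
  faithful : ∀ x, τ (star x * x) = 0 → x = 0
  tracial : ∀ x y, τ (x * y) = τ (y * x)
  normal : ∀ (l : Filter M.toStarSubalgebra) (y : M.toStarSubalgebra), (∀ᶠ x in l, ‖x‖ ≤ 1) →
    ‖y‖ ≤ 1 → Tendsto (fun x : M.toStarSubalgebra => ContinuousLinearMapWOT.ofCLM x.1) l
      (𝓝 (ContinuousLinearMapWOT.ofCLM y.1)) → Tendsto τ l (𝓝 (τ y))

/-- A factor of type II_1: trivial centre, infinite-dimensional, with a faithful normal tracial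
state. -/
structure IsII1Factor (M : VonNeumannAlgebra H) : Prop where
  factor : ∀ z ∈ M, (∀ x ∈ M, z * x = x * z) → ∃ c : ℂ, z = c • 1
  infinite : ¬ FiniteDimensional ℂ M.toStarSubalgebra
  trace : ∃ τ : M.toStarSubalgebra →ₗ[ℂ] ℂ, IsFaithfulNormalTrace M τ

end Vale.Agent.P085
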