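import Vale.Agent.P085.Free

/-! Random phases: Efron-Stein bound and graded words. -/

namespace Vale.Agent.P085

open scoped ComplexConjugate InnerProductSpace BigOperators
open Filter Topology Finset Function

lemma efron_stein {ι S : Type*} [Fintype ι] [DecidableEq ι] [Fintype S] [Nonempty S]
    (F : (ι → S) → ℂ) (c : ι → ℝ) (h : ∀ ω i s, ‖F (update ω i s) - F ω‖ ≤ c i)
    (h0 : 𝔼 ω, F ω = 0) : 𝔼 ω, ‖F ω‖ ^ 2 ≤ ∑ i, c i ^ 2 := by
  have key : ∀ T : Finset ι, 𝔼 x : (ι → S) × (ι → S),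
      (conj (F x.1) * (F x.1 - F (T.piecewise x.2 x.1))).re ≤ ∑ i ∈ T, c i ^ 2 := by
    intro T
    induction T using Finset.induction_on with
    | empty => simp
    | insert i T hi ih =>
      let σ : (ι → S) × (ι → S) → (ι → S) × (ι → S) :=
        fun x => (update x.1 i (x.2 i), update x.2 i (x.1 i))
      have hσ : Involutive σ := fun x => by simp [σ]
      have p1 : ∀ x, T.piecewise (σ x).2 (σ x).1 = (insert i T).piecewise x.2 x.1 := fun x => by
        funext j
        by_cases e : j = i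
        · subst e; simp [σ, piecewise, hi]
        · simp [σ, piecewise, e]
      have p2 : ∀ x, (insert i T).piecewise (σ x).2 (σ x).1 = T.piecewise x.2 x.1 := fun x => by
        rw [← p1, hσ]
      let D : (ι → S) × (ι → S) → ℂ :=
        fun x => F (T.piecewise x.2 x.1) - F ((insert i T).piecewise x.2 x.1)
      have e1 : 𝔼 x, (conj (F x.1) * D x).re = 𝔼 x, -(conj (F (σ x).1) * D x).re :=
        (Fintype.expect_equiv hσ.toPerm _ _ fun x => by
          simp only [Involutive.coe_toPerm, D, p1, p2, ← Complex.neg_re]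
          congr 1; ring).symm
      have e2 : 𝔼 x, ((conj (F x.1) * D x).re + -(conj (F (σ x).1) * D x).re) ≤ c i ^ 2 := by
        refine expect_le univ_nonempty fun x _ => ?_
        rw [← sub_eq_add_neg, ← Complex.sub_re, ← sub_mul, ← map_sub]
        refine (Complex.re_le_norm _).trans ?_
        rw [norm_mul, Complex.norm_conj, sq, norm_sub_rev]
        refine mul_le_mul (h _ _ _) ?_ (norm_nonneg _) ((norm_nonneg _).trans (h x.1 i (x.1 i)))
        simp only [D, piecewise_insert]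
        rw [norm_sub_rev]
        exact h _ _ _
      rw [expect_add_distrib, ← e1] at e2
      have e3 : ∀ x : (ι → S) × (ι → S),
          (conj (F x.1) * (F x.1 - F ((insert i T).piecewise x.2 x.1))).re =
          (conj (F x.1) * (F x.1 - F (T.piecewise x.2 x.1))).re + (conj (F x.1) * D x).re :=
        fun x => by rw [← Complex.add_re]; congr 1; simp only [D]; ring
      simp only [e3, expect_add_distrib, sum_insert hi]
      nlinarith [sq_nonneg (c i)]
  have := key univ
  rw [← univ_product_univ, expect_product] at this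
  refine le_of_eq_of_le (expect_congr rfl fun ω _ => ?_) this
  simp only [piecewise_univ, ← Complex.re_expect, ← mul_expect, expect_sub_distrib, h0,
    Fintype.expect_const, sub_zero, Complex.conj_mul']
  norm_cast

variable {A : Type*} [CStarAlgebra A]

/-- cube roots of unity -/
noncomputable def chi : AddChar (ZMod 3) ℂ := ZMod.stdAddChar

lemma chi_eq_one {k : ZMod 3} (h : chi k = 1) : k = 0 :=
  ZMod.injective_stdAddChar (h.trans (AddChar.map_zero_eq_one _).symm)

/-- tuples of unitaries -/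
def Uni (β : ℕ → A) : Prop := ∀ s, β s ∈ unitary A

/-- random phases on the cells of `Q` -/
noncomputable def phs (L : ℕ) (Q : Fam A) (ω : Fin L × Q.ι → ZMod 3) (s : ℕ) : A :=
  if h : s < L then Q.comb fun i => chi (ω (⟨s, h⟩, i)) else 1

lemma uni_phs {L : ℕ} {Q : Fam A} (h : Q.tot = 1) (ω) : Uni (phs L Q ω) := fun s => by
  unfold phs
  split_ifs
  · exact Q.comb_unitary h fun _ => AddChar.norm_apply _ _
  · exact one_mem _

variable [TrA A]

/-- graded words in a tuple of unitaries -/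
structure Gr (d : ℕ → ZMod 3) (f : (ℕ → A) → A) : Prop where
  norm : ∀ β, Uni β → ‖f β‖ ≤ 1
  hom : ∀ β s, f (update β s (chi 1 • β s)) = chi (d s) • f β
  bd : ∃ N : ℝ, 0 ≤ N ∧ ∀ β β', Uni β → Uni β' → ∀ q, IsStarProjection q →
    (∀ s, q * (β s - β' s) = β s - β' s) → ∀ Y, ‖tr ((f β - f β') * Y)‖ ≤ N * ‖Y‖ * (tr q).re

lemma Gr.const {a : A} (ha : ‖a‖ ≤ 1) : Gr 0 fun _ => a :=
  ⟨fun _ _ => ha, by simp, 0, le_rfl, by simp⟩

lemma Gr.coord (s : ℕ) : Gr (Pi.single s 1) fun β : ℕ → A => β s := by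
  refine ⟨fun β h => norm_unitary_le (h s), fun β t => ?_, 2, zero_le_two,
    fun β β' h h' q hq e Y => ?_⟩
  · by_cases e : s = t
    · subst e; simp
    · simp [e, Ne.symm e]
  · rw [← e, mul_assoc]
    refine (norm_tr_proj_mul_le hq _).trans ?_
    gcongr
    · exact tr_proj_nonneg hq
    · refine (norm_mul_le _ _).trans (mul_le_mul_of_nonneg_right ?_ (norm_nonneg _))
      linarith [norm_sub_le (β s) (β' s), norm_unitary_le (h s), norm_unitary_le (h' s)]

lemma Gr.mul {d d' : ℕ → ZMod 3} {f g : (ℕ → A) → A} (hf : Gr d f) (hg : Gr d' g) :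
    Gr (d + d') fun β => f β * g β := by
  obtain ⟨N, hN, h1⟩ := hf.bd
  obtain ⟨N', hN', h2⟩ := hg.bd
  refine ⟨fun β h => norm_mul_le_one (hf.norm β h) (hg.norm β h), fun β s => ?_, N + N',
    by positivity, fun β β' h h' q hq e Y => ?_⟩
  · rw [hf.hom, hg.hom, smul_mul_smul_comm, Pi.add_apply, AddChar.map_add_eq_mul]
  · rw [show (f β * g β - f β' * g β') * Y = (f β - f β') * (g β * Y) + f β' * ((g β - g β') * Y) by
      noncomm_ring, map_add, tr_comm (f β'), mul_assoc]
    refine (norm_add_le _ _).trans ((add_le_add (h1 β β' h h' q hq e _)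
      (h2 β β' h h' q hq e _)).trans ?_)
    have t := tr_proj_nonneg hq
    rw [add_mul, add_mul]
    gcongr
    · exact (norm_mul_le _ _).trans (mul_le_of_le_one_left (norm_nonneg _) (hg.norm β h))
    · exact (norm_mul_le _ _).trans (mul_le_of_le_one_right (norm_nonneg _) (hf.norm β' h'))

lemma Gr.star {d : ℕ → ZMod 3} {f : (ℕ → A) → A} (hf : Gr d f) :
    Gr (-d) fun β => star (f β) := by
  obtain ⟨N, hN, h1⟩ := hf.bd
  refine ⟨fun β h => by simpa using hf.norm β h, fun β s => ?_, N, hN,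
    fun β β' h h' q hq e Y => ?_⟩
  · rw [hf.hom, star_smul, Pi.neg_apply, AddChar.map_neg_eq_conj]; rfl
  · have := h1 β β' h h' q hq e (Star.star Y)
    rwa [← Complex.norm_conj, ← tr_star, star_mul, star_star, tr_comm, star_sub, norm_star] at this

lemma Gr.congr {d d' : ℕ → ZMod 3} {f : (ℕ → A) → A} (hf : Gr d f) (h : d = d') : Gr d' f :=
  h ▸ hf

/-- letters which are almost orthogonal to the cells of `D` -/
def Good (D : Fam A) (L : ℕ) (f : (ℕ → A) → A) : Prop :=
  (∀ β, Uni β → ‖f β‖ ≤ 1) ∧ ∀ η : ℝ, 0 < η → ∃ μ : ℝ, 0 < μ ∧ ∀ Q : Fam A, Q.tot = 1 →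
    Q.Mesh μ → 𝔼 ω, ∑ i, ‖tr (D.q i * f (phs L Q ω))‖ ^ 2 / (tr (D.q i)).re ≤ η

lemma Good.const {D : Fam A} {L : ℕ} {a : A} (ha : ‖a‖ ≤ 1) (h : ∀ i, tr (D.q i * a) = 0) :
    Good D L fun _ => a :=
  ⟨fun _ _ => ha, fun η hη => ⟨1, one_pos, fun _ _ _ => by simp [h, hη.le]⟩⟩

lemma Gr.good {D : Fam A} {L : ℕ} {d : ℕ → ZMod 3} {f : (ℕ → A) → A} (hf : Gr d f) {s : ℕ}
    (hs : s < L) (hd : d s ≠ 0) : Good D L f := by
  obtain ⟨N, hN, h1⟩ := hf.bd
  refine ⟨hf.norm, fun η hη => ?_⟩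
  set C := ∑ i, (L * N ^ 2) / (tr (D.q i)).re with hC
  have hC0 : 0 ≤ C := sum_nonneg fun i _ => div_nonneg (by positivity) (tr_proj_nonneg (D.proj i))
  refine ⟨η / (C + 1), by positivity, fun Q hQ hm => ?_⟩
  have key : ∀ Y : A, ‖Y‖ ≤ 1 → 𝔼 ω, ‖tr (Y * f (phs L Q ω))‖ ^ 2 ≤ L * N ^ 2 * (η / (C + 1)) := by
    intro Y hY
    refine (efron_stein (fun ω => tr (Y * f (phs L Q ω))) (fun x => N * (tr (Q.q x.2)).re)
      (fun ω x k => ?_) ?_).trans ?_
    · rw [← map_sub, ← mul_sub, tr_comm]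
      refine (h1 _ _ (uni_phs hQ _) (uni_phs hQ _) _ (Q.proj x.2) (fun t => ?_) Y).trans ?_
      · unfold phs
        split_ifs with ht
        · by_cases e : (⟨t, ht⟩ : Fin L) = x.1
          · have : (fun i => chi (update ω x k (⟨t, ht⟩, i))) =
                update (fun i => chi (ω (⟨t, ht⟩, i))) x.2 (chi k) := by
              funext i
              by_cases e' : i = x.2
              · simp [e, e']
              · simp [e', Prod.ext_iff]
            rw [this, Q.comb_update, mul_smul_comm, Q.q_q]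
          · simp [e, Prod.ext_iff]
        · simp
      · gcongr
        · exact tr_proj_nonneg (Q.proj _)
        · exact mul_le_of_le_one_right hN hY
    · let τ : (Fin L × Q.ι → ZMod 3) := fun x => if x.1 = ⟨s, hs⟩ then 1 else 0
      have e1 : ∀ ω, phs L Q (ω + τ) = update (phs L Q ω) s (chi 1 • phs L Q ω s) := fun ω => by
        funext t
        by_cases e : t = s
        · subst e
          simp [phs, hs, τ, AddChar.map_add_eq_mul, Fam.comb, smul_sum, smul_smul, mul_comm]
        · simp [phs, e, τ]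
      have e2 := Fintype.expect_equiv (Equiv.addRight τ)
        (fun ω => tr (Y * f (phs L Q (ω + τ)))) (fun ω => tr (Y * f (phs L Q ω))) fun _ => rfl
      simp only [e1, hf.hom, mul_smul_comm, map_smul, smul_eq_mul, ← mul_expect] at e2
      by_contra h
      exact hd (chi_eq_one (mul_right_cancel₀ h (e2.trans (one_mul _).symm)))
    · rw [Fintype.sum_prod_type]
      simp only [sum_const, card_univ, Fintype.card_fin, nsmul_eq_mul, mul_pow, ← mul_sum, mul_assoc]
      gcongr
      calc _ ≤ ∑ i, η / (C + 1) * (tr (Q.q i)).re := sum_le_sum fun i _ => by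
            rw [sq]; exact mul_le_mul_of_nonneg_right (hm i) (tr_proj_nonneg (Q.proj i))
        _ ≤ _ := by rw [← mul_sum]; exact mul_le_of_le_one_right (by positivity) Q.sum_tr_le
  simp only [expect_sum_comm, ← expect_div]
  calc _ ≤ ∑ i, (L * N ^ 2) / (tr (D.q i)).re * (η / (C + 1)) := sum_le_sum fun i _ => by
        rw [div_mul_eq_mul_div]
        exact div_le_div_of_nonneg_right (key _ (D.norm_q i)) (tr_proj_nonneg (D.proj i))
    _ ≤ η := by
        rw [← sum_mul, ← hC, mul_div_assoc', div_le_iff₀ (by positivity)]; nlinarith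

variable [Fac A]

lemma exists_cfg (D D' : Fam A) (hD : D.tot = 1) (hD' : D'.tot = 1) (L : ℕ)
    (F : Finset ((ℕ → A) → A)) (n : ℕ) {ε : ℝ} (hε : 0 < ε) :
    ∃ (Q Q' : Fam A) (ω : Q.ι → Bool) (ω' : Fin L × Q'.ι → ZMod 3),
      Q.tot = 1 ∧ Q.Sub D ∧ Q'.tot = 1 ∧ Q'.Sub D' ∧
      ∀ l : List ((ℕ → A) → A), l ≠ [] → l.length ≤ n → (∀ f ∈ l, f ∈ F ∧ Good D L f) →
        ‖tr (wd (Q.sym ω) (l.map fun f => f (phs L Q' ω')))‖ ≤ ε := by
  let J := {f // f ∈ F ∧ Good D L f}
  have : Finite J := (F.finite_toSet.subset fun f hf => hf.1).to_subtype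
  let _ := Fintype.ofFinite J
  obtain ⟨φ, hφ, h⟩ := free_exists (A := A) J n hε
  have h1 : 0 < φ / 2 / (Fintype.card J + 1) := by positivity
  choose μ hμ hμ' using fun j : J => j.2.2.2 _ h1
  obtain ⟨m, hm, hm'⟩ : ∃ m : ℝ, 0 < m ∧ ∀ j, m ≤ μ j := by
    rcases isEmpty_or_nonempty J with hJ | hJ
    · exact ⟨1, one_pos, fun j => isEmptyElim j⟩
    · obtain ⟨j, -, hj⟩ := exists_min_image univ μ univ_nonempty
      exact ⟨μ j, hμ j, fun k => hj k (mem_univ k)⟩
  obtain ⟨Q', q1, q2, q3, -⟩ := exists_fine D' hm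
  obtain ⟨ω', -, hω'⟩ := exists_le_of_expect_le (s := univ) univ_nonempty
    (f := fun ω' => ∑ j : J, ∑ i, ‖tr (D.q i * j.1 (phs L Q' ω'))‖ ^ 2 / (tr (D.q i)).re)
    (a := φ / 2) (by
      rw [expect_sum_comm]
      refine (sum_le_card_nsmul _ _ _ fun j _ => hμ' j Q' (q1.trans hD')
        fun i => (q3 i).trans (hm' j)).trans ?_
      rw [nsmul_eq_mul, card_univ, mul_div_assoc', div_le_iff₀ (by positivity)]; nlinarith)
  have hn : ∀ j : J, ‖j.1 (phs L Q' ω')‖ ≤ 1 := fun j => j.2.2.1 _ (uni_phs (q1.trans hD') _)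
  obtain ⟨Q, r1, r2, r3⟩ := pave_two D (fun j : J => j.1 (phs L Q' ω')) hn (half_pos hφ)
  obtain ⟨ω, hω⟩ := h Q (fun j => j.1 (phs L Q' ω')) fun j => ⟨hn j, (r3 j).trans (by
    have := (single_le_sum (f := fun j : J => ∑ i, ‖tr (D.q i * j.1 (phs L Q' ω'))‖ ^ 2 /
      (tr (D.q i)).re) (fun j _ => sum_nonneg fun i _ => div_nonneg (sq_nonneg _)
        (tr_proj_nonneg (D.proj i))) (mem_univ j)).trans hω'
    linarith)⟩
  refine ⟨Q, Q', ω, ω', r1.trans hD, r2, q1.trans hD', q2, fun l hl hln hF => ?_⟩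
  lift l to List J using hF
  simpa [List.map_map, Function.comp_def] using hω l (by simpa using hl) (by simpa using hln)

end Vale.Agent.P085
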