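import Vale.Agent.P085.Half

/-! Finite orthogonal families of projections. -/

namespace Vale.Agent.P085

open scoped ComplexConjugate InnerProductSpace BigOperators
open Filter Topology Finset

/-- a finite orthogonal family of projections -/
structure Fam (A : Type*) [CStarAlgebra A] where
  ι : Type
  [fin : Fintype ι]
  [dec : DecidableEq ι]
  q : ι → A
  proj : ∀ i, IsStarProjection (q i)
  orth : ∀ i j, i ≠ j → q i * q j = 0

attribute [instance] Fam.fin Fam.dec

variable {A : Type*} [CStarAlgebra A]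

namespace Fam

variable (P Q R : Fam A)

/-- sum of the family -/
noncomputable def tot : A := ∑ i, P.q i

/-- refinement -/
def Sub : Prop := ∀ i, ∃ j, Q.q j * P.q i = P.q i

lemma star_q (i) : star (P.q i) = P.q i := (P.proj i).isSelfAdjoint.star_eq

lemma q_q (i) : P.q i * P.q i = P.q i := (P.proj i).isIdempotentElem.eq

lemma mul_q (i j) : P.q i * P.q j = if i = j then P.q i else 0 := by
  split_ifs with h
  · rw [h, q_q]
  · exact P.orth i j h

lemma norm_q (i) : ‖P.q i‖ ≤ 1 := (P.proj i).norm_le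

lemma tot_mul (i) : P.tot * P.q i = P.q i := by simp [tot, sum_mul, mul_q]

lemma mul_tot (i) : P.q i * P.tot = P.q i := by simp [tot, mul_sum, mul_q]

lemma tot_proj : IsStarProjection P.tot :=
  ⟨by rw [IsIdempotentElem]; nth_rw 2 [tot]; simp only [mul_sum, tot_mul]; rfl,
    by simp [IsSelfAdjoint, tot, star_q]⟩

/-- linear combination of the cells -/
noncomputable def comb (a : P.ι → ℂ) : A := ∑ i, a i • P.q i

lemma q_comb (a) (i) : P.q i * P.comb a = a i • P.q i := by simp [comb, mul_sum, mul_q]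

lemma comb_q (a) (i) : P.comb a * P.q i = a i • P.q i := by simp [comb, sum_mul, mul_q]

lemma comb_mul (a b) : P.comb a * P.comb b = P.comb fun i => a i * b i := by
  nth_rw 2 [comb]
  simp only [mul_sum, mul_smul_comm, comb_q, smul_smul, mul_comm (b _)]; rfl

lemma star_comb (a) : star (P.comb a) = P.comb fun i => conj (a i) := by
  simp [comb, star_q]

lemma comb_one : P.comb (fun _ => 1) = P.tot := by simp [comb, tot]

lemma comb_unitary (h : P.tot = 1) {a : P.ι → ℂ} (ha : ∀ i, ‖a i‖ = 1) : P.comb a ∈ unitary A := by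
  constructor <;>
  simp [star_comb, comb_mul, Complex.conj_mul', Complex.mul_conj', ha, comb_one, h]

lemma norm_comb_le {a : P.ι → ℂ} (ha : ∀ i, ‖a i‖ ≤ 1) : ‖P.comb a‖ ≤ 1 := by
  let _ := CStarAlgebra.spectralOrder A
  have _ := CStarAlgebra.spectralOrderedRing A
  have h : star (P.comb a) * P.comb a ≤ 1 := by
    refine le_trans ?_ P.tot_proj.le_one
    rw [star_comb, comb_mul, ← sub_nonneg, tot, comb, ← sum_sub_distrib]
    refine sum_nonneg fun i _ => ?_
    have : P.q i - (conj (a i) * a i) • P.q i = (1 - ‖a i‖ ^ 2 : ℝ) • P.q i := by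
      rw [Complex.conj_mul', sub_smul, one_smul, ← Complex.coe_smul]; simp
    rw [this]
    exact smul_nonneg (sub_nonneg.2 (pow_le_one₀ (norm_nonneg _) (ha i))) (P.proj i).nonneg
  have := (CStarAlgebra.norm_le_one_iff_of_nonneg _ (star_mul_self_nonneg _)).2 h
  rw [CStarRing.norm_star_mul_self] at this
  nlinarith [norm_nonneg (P.comb a)]

lemma comb_update (a : P.ι → ℂ) (i) (z : ℂ) :
    P.comb (Function.update a i z) - P.comb a = (z - a i) • P.q i := by
  rw [comb, comb, ← sum_sub_distrib, sum_eq_single i (fun j _ h => by simp [h]) (by simp)]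
  simp [sub_smul]

variable {P Q R}

lemma Sub.refl : P.Sub P := fun i => ⟨i, P.q_q i⟩

lemma Sub.trans (h : P.Sub Q) (h' : Q.Sub R) : P.Sub R := fun i => by
  obtain ⟨j, hj⟩ := h i
  obtain ⟨k, hk⟩ := h' j
  exact ⟨k, by rw [← hj, ← mul_assoc, hk]⟩

lemma Sub.commute (h : P.Sub Q) (i j) : Commute (P.q i) (Q.q j) := by
  obtain ⟨k, hk⟩ := h i
  have : IsSelfAdjoint (Q.q j * P.q i) := by
    rw [← hk, ← mul_assoc, mul_q]
    split_ifs with h
    · rw [h, hk]; exact (P.proj i).isSelfAdjoint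
    · simp
  simpa [star_q, Commute, SemiconjBy] using this.star_eq

/-- one projection -/
def single {c : A} (hc : IsStarProjection c) : Fam A :=
  ⟨Unit, fun _ => c, fun _ => hc, fun _ _ h => absurd rfl h⟩

lemma sum_single {M : Type*} [AddCommMonoid M] {c : A} (hc : IsStarProjection c) (f : A → M) :
    ∑ i, f ((single hc).q i) = f c :=
  Fintype.sum_unique (ι := Unit) _

@[simp] lemma tot_single {c : A} (hc : IsStarProjection c) : (single hc).tot = c :=
  sum_single hc id

lemma orth_of_tot (h : P.tot * Q.tot = 0) (i j) : P.q i * Q.q j = 0 := by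
  rw [← mul_tot, ← Q.tot_mul, mul_assoc, ← mul_assoc P.tot, h]; simp

/-- union of two orthogonal families -/
def join (P Q : Fam A) (h : P.tot * Q.tot = 0) : Fam A where
  ι := P.ι ⊕ Q.ι
  q := Sum.elim P.q Q.q
  proj := by rintro (i | i); exacts [P.proj i, Q.proj i]
  orth := by
    rintro (i | i) (j | j) hij
    · exact P.orth i j (by simpa using hij)
    · exact orth_of_tot h i j
    · simpa [star_q] using congrArg star (orth_of_tot h j i)
    · exact Q.orth i j (by simpa using hij)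

lemma sum_join {M : Type*} [AddCommMonoid M] (h : P.tot * Q.tot = 0) (f : A → M) :
    ∑ i, f ((P.join Q h).q i) = ∑ i, f (P.q i) + ∑ i, f (Q.q i) :=
  Fintype.sum_sum_type (α₁ := P.ι) (α₂ := Q.ι) _

@[simp] lemma tot_join (h : P.tot * Q.tot = 0) : (P.join Q h).tot = P.tot + Q.tot :=
  sum_join h id

/-- refine every cell -/
def bind (P : Fam A) (R : P.ι → Fam A) (h : ∀ i, (R i).tot = P.q i) : Fam A where
  ι := Σ i, (R i).ι
  q := fun x => (R x.1).q x.2
  proj := fun x => (R x.1).proj x.2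
  orth := by
    rintro ⟨i, a⟩ ⟨j, b⟩ hij
    by_cases e : i = j
    · subst e; exact (R i).orth a b (by simpa using hij)
    · exact orth_of_tot (by rw [h, h, P.orth i j e]) a b

lemma sum_bind {M : Type*} [AddCommMonoid M] {R : P.ι → Fam A} (h : ∀ i, (R i).tot = P.q i)
    (f : A → M) : ∑ i, f ((P.bind R h).q i) = ∑ i, ∑ a, f ((R i).q a) :=
  Fintype.sum_sigma (α := fun i => (R i).ι) _

@[simp] lemma tot_bind {R : P.ι → Fam A} (h : ∀ i, (R i).tot = P.q i) :
    (P.bind R h).tot = P.tot :=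
  (sum_bind h id).trans (sum_congr rfl fun i _ => h i)

lemma sub_bind {R : P.ι → Fam A} (h : ∀ i, (R i).tot = P.q i) : (P.bind R h).Sub P :=
  fun x => ⟨x.1, h x.1 ▸ (R x.1).tot_mul x.2⟩

variable [TrA A]

/-- all cells have trace at most `μ` -/
def Mesh (P : Fam A) (μ : ℝ) : Prop := ∀ i, (tr (P.q i)).re ≤ μ

lemma sum_tr (P : Fam A) : ∑ i, (tr (P.q i)).re = (tr P.tot).re := by simp [tot]

lemma sum_tr_le (P : Fam A) : ∑ i, (tr (P.q i)).re ≤ 1 := P.sum_tr ▸ tr_proj_le_one P.tot_proj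

lemma sum_left (P : Fam A) (x : A) : ∑ i, n2 (P.q i * x) ^ 2 = n2 (P.tot * x) ^ 2 := by
  have : ∀ p : A, IsStarProjection p → n2 (p * x) ^ 2 = (tr (star x * p * x)).re := fun p hp => by
    rw [n2_sq, star_mul, hp.isSelfAdjoint.star_eq, mul_assoc, ← mul_assoc p, hp.isIdempotentElem.eq,
      mul_assoc]
  rw [this _ P.tot_proj]
  simp [this _ (P.proj _), tot, mul_sum, sum_mul]

lemma sum_right (P : Fam A) (x : A) : ∑ i, n2 (x * P.q i) ^ 2 = n2 (x * P.tot) ^ 2 := by
  have := P.sum_left (star x)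
  rw [← n2_star, star_mul, star_star, P.tot_proj.isSelfAdjoint.star_eq] at this
  rw [← this]
  exact sum_congr rfl fun i _ => by rw [← n2_star, star_mul, star_q]

lemma sum_left_le (P : Fam A) (x : A) : ∑ i, n2 (P.q i * x) ^ 2 ≤ n2 x ^ 2 :=
  P.sum_left x ▸ pow_le_pow_left₀ (n2_nonneg _) (n2_mul_le_of_left P.tot_proj.norm_le x) 2

lemma sum_right_le (P : Fam A) (x : A) : ∑ i, n2 (x * P.q i) ^ 2 ≤ n2 x ^ 2 :=
  P.sum_right x ▸ pow_le_pow_left₀ (n2_nonneg _) (n2_mul_le_of_right P.tot_proj.norm_le x) 2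

/-- squared 2-norm of the pinching -/
noncomputable def pin (P : Fam A) (y : A) : ℝ := ∑ i, n2 (P.q i * y * P.q i) ^ 2

lemma pin_nonneg (P : Fam A) (y : A) : 0 ≤ P.pin y := sum_nonneg fun _ _ => sq_nonneg _

lemma pin_le (P : Fam A) (y : A) : P.pin y ≤ n2 (P.tot * y * P.tot) ^ 2 := by
  refine le_trans (sum_le_sum fun i _ => ?_) (P.sum_left_le (P.tot * y * P.tot))
  refine pow_le_pow_left₀ (n2_nonneg _) ?_ 2
  refine le_trans (le_of_eq ?_) (n2_mul_le_of_right (P.norm_q i) _)
  rw [← mul_assoc, ← mul_assoc, mul_tot, mul_assoc _ P.tot, tot_mul]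

lemma pin_join (h : P.tot * Q.tot = 0) (y : A) : (P.join Q h).pin y = P.pin y + Q.pin y :=
  sum_join h fun q => n2 (q * y * q) ^ 2

lemma pin_bind {R : P.ι → Fam A} (h : ∀ i, (R i).tot = P.q i) (y : A) :
    (P.bind R h).pin y = ∑ i, (R i).pin y :=
  sum_bind h fun q => n2 (q * y * q) ^ 2

lemma pin_bind_le {R : P.ι → Fam A} (h : ∀ i, (R i).tot = P.q i) (y : A) :
    (P.bind R h).pin y ≤ P.pin y :=
  (pin_bind h y).trans_le (sum_le_sum fun i _ => h i ▸ (R i).pin_le y)

@[simp] lemma pin_single {c : A} (hc : IsStarProjection c) (y : A) :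
    (single hc).pin y = n2 (c * y * c) ^ 2 :=
  sum_single hc fun q => n2 (q * y * q) ^ 2

lemma pin_pyth (P : Fam A) (y : A) (l : ℂ) (h : tr (P.tot * y) = 0) :
    P.pin (y + l • 1) = P.pin y + ‖l‖ ^ 2 * (tr P.tot).re := by
  have h1 : ∀ i, n2 (P.q i * (y + l • 1) * P.q i) ^ 2 = n2 (P.q i * y * P.q i) ^ 2 +
      2 * (conj l * tr (P.q i * y)).re + ‖l‖ ^ 2 * (tr (P.q i)).re := fun i => by
    rw [mul_add, add_mul, add_comm (P.q i * y * P.q i), n2_add_sq, mul_smul_comm, mul_one,
      smul_mul_assoc, q_q, n2_smul, mul_pow, n2_proj (P.proj i), star_smul, smul_mul_assoc,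
      map_smul, star_q, ← mul_assoc, ← mul_assoc, q_q, tr_cyc, q_q]
    simp only [RCLike.star_def, smul_eq_mul]
    ring
  simp only [pin, h1, sum_add_distrib, ← mul_sum, ← Complex.re_sum, ← map_sum, ← sum_mul]
  rw [← tot, h]; simp

end Fam

variable [TrA A] [Fac A]

lemma exists_mesh {c : A} (hc : IsStarProjection c) {μ : ℝ} (hμ : 0 < μ) :
    ∃ P : Fam A, P.tot = c ∧ P.Mesh μ := by
  have key : ∀ n : ℕ, ∀ c : A, IsStarProjection c →
      ∃ P : Fam A, P.tot = c ∧ P.Mesh ((tr c).re * (1 / 2) ^ n) := by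
    intro n
    induction n with
    | zero => exact fun c hc => ⟨.single hc, by simp, fun _ => by simp [Fam.single]⟩
    | succ n ih =>
      intro c hc
      obtain ⟨v, hv, hvv, h⟩ := exists_half hc
      obtain ⟨P, hP, hP'⟩ := ih _ hv
      obtain ⟨Q, hQ, hQ'⟩ := ih _ (piso_star hv)
      have ht : (tr (star v * v)).re = (tr c).re / 2 := by
        rw [← h, map_add, tr_comm v]; simp
      rw [tr_comm] at hQ'
      rw [ht] at hP' hQ'
      refine ⟨P.join Q (by rw [hP, hQ, mul_assoc, ← mul_assoc v, hvv]; simp), by simp [hP, hQ, h], ?_⟩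
      rintro (i | i)
      · exact (hP' i).trans_eq (by ring)
      · exact (hQ' i).trans_eq (by ring)
  obtain ⟨n, hn⟩ := exists_pow_lt_of_lt_one hμ (show (1 / 2 : ℝ) < 1 by norm_num)
  obtain ⟨P, hP, h⟩ := key n c hc
  exact ⟨P, hP, fun i => (h i).trans
    ((mul_le_of_le_one_left (by positivity) (tr_proj_le_one hc)).trans hn.le)⟩

lemma exists_fine (P : Fam A) {μ : ℝ} (hμ : 0 < μ) :
    ∃ Q : Fam A, Q.tot = P.tot ∧ Q.Sub P ∧ Q.Mesh μ ∧ ∀ y, Q.pin y ≤ P.pin y := by
  choose R h h' using fun i => exists_mesh (P.proj i) hμ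
  exact ⟨P.bind R h, by simp, Fam.sub_bind h, fun x => h' x.1 x.2, Fam.pin_bind_le h⟩

end Vale.Agent.P085
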