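import Vale.Agent.P085.Pave

/-! Random symmetries on a partition in general position are approximately free. -/

namespace Vale.Agent.P085

open scoped ComplexConjugate InnerProductSpace BigOperators
open Filter Topology Finset

variable {A : Type*} [CStarAlgebra A]

/-- alternating word -/
def wd (b : A) (l : List A) : A := (l.map fun a => b * a).prod

@[simp] lemma wd_nil (b : A) : wd b [] = 1 := rfl
@[simp] lemma wd_cons (b a : A) (l : List A) : wd b (a :: l) = b * a * wd b l := by simp [wd]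

lemma amgm (x y : ℝ) {l : ℝ} (hl : 0 < l) : x * y ≤ x ^ 2 / (2 * l) + l / 2 * y ^ 2 := by
  rw [div_add' _ _ _ (by positivity), le_div_iff₀ (by positivity)]
  nlinarith [sq_nonneg (x - l * y)]

lemma norm_mul_le_one {x y : A} (hx : ‖x‖ ≤ 1) (hy : ‖y‖ ≤ 1) : ‖x * y‖ ≤ 1 :=
  (norm_mul_le _ _).trans (mul_le_one₀ hx (norm_nonneg _) hy)

lemma Fam.sym_sub_flp (Q : Fam A) (ω : Q.ι → Bool) (j) :
    Q.sym ω - Q.sym (flp j ω) = (2 * sg (ω j)) • Q.q j := by
  have := Q.comb_update (fun i => sg (ω i)) j (sg (!ω j))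
  have e : Function.update (fun i => (sg (ω i) : ℂ)) j (sg (!ω j)) = fun i => (sg (flp j ω i) : ℂ) := by
    funext i
    by_cases h : i = j
    · subst h; simp [flp]
    · simp [flp, h]
  rw [e] at this
  rw [← neg_sub, sym, sym, this, ← neg_smul, ← Complex.coe_smul]
  congr 1
  simp; ring

variable [TrA A]

lemma norm_wd_le {b : A} (hb : ‖b‖ ≤ 1) {l : List A} (hl : ∀ x ∈ l, ‖x‖ ≤ 1) : ‖wd b l‖ ≤ 1 := by
  induction l with
  | nil => exact norm_one_le'
  | cons a l ih =>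
    rw [wd_cons]
    exact norm_mul_le_one (norm_mul_le_one hb (hl a (by simp))) (ih fun x hx => hl x (by simp [hx]))

omit [TrA A] in
lemma wd_sub (b b' a : A) (l : List A) :
    wd b (a :: l) - wd b' (a :: l) = (b - b') * (a * wd b l) + b' * a * (wd b l - wd b' l) := by
  simp only [wd_cons]; noncomm_ring

lemma wd_lip {b b' : A} (hb : ‖b‖ ≤ 1) (hb' : ‖b'‖ ≤ 1) {l : List A} (hl : ∀ x ∈ l, ‖x‖ ≤ 1) :
    n2 (wd b l - wd b' l) ≤ l.length * n2 (b - b') := by
  induction l with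
  | nil => simp
  | cons a l ih =>
    have ha := hl a (by simp)
    have hl' : ∀ x ∈ l, ‖x‖ ≤ 1 := fun x hx => hl x (by simp [hx])
    rw [wd_sub]
    refine (n2_add_le _ _).trans ?_
    have h1 := n2_mul_le_of_right (norm_mul_le_one ha (norm_wd_le hb hl')) (b - b')
    have h2 := n2_mul_le_of_left (norm_mul_le_one hb' ha) (wd b l - wd b' l)
    simp only [List.length_cons, Nat.cast_add, Nat.cast_one]
    linarith [ih hl']

lemma wd_tel {b b' q : A} {c : ℝ} (hb : ‖b‖ ≤ 1) (h : b - b' = c • q) (hc : |c| ≤ 2)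
    {l : List A} (hl : ∀ x ∈ l, ‖x‖ ≤ 1) (p : A) : n2 (q * (p * (wd b l - wd b' l))) ≤
      2 * ∑ k ∈ range l.length, n2 (q * (p * wd b' (l.take k)) * q) := by
  induction l generalizing p with
  | nil => simp
  | cons a l ih =>
    have ha := hl a (by simp)
    have hl' : ∀ x ∈ l, ‖x‖ ≤ 1 := fun x hx => hl x (by simp [hx])
    rw [wd_sub, mul_add, mul_add, List.length_cons, sum_range_succ']
    refine (n2_add_le _ _).trans ?_
    have h1 := ih hl' (p * (b' * a))
    have h2 : n2 (q * (p * ((b - b') * (a * wd b l)))) ≤ 2 * n2 (q * p * q) := by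
      rw [h, smul_mul_assoc, mul_smul_comm, mul_smul_comm, n2_rsmul, ← mul_assoc, ← mul_assoc]
      exact mul_le_mul hc (n2_mul_le_of_right (norm_mul_le_one ha (norm_wd_le hb hl')) _)
        (n2_nonneg _) zero_le_two
    simp only [List.take_succ_cons, wd_cons, List.take_zero, wd_nil, mul_one, mul_assoc] at *
    linarith

lemma sum_n2_q (Q : Fam A) : ∑ i, n2 (Q.q i) ^ 2 ≤ 1 := by
  simpa [n2_proj (Q.proj _)] using Q.sum_tr_le

lemma termA (Q : Fam A) {a X : A} (ha : ‖a‖ ≤ 1) (hX : ‖X‖ ≤ 1) (Δ : Q.ι → A) {l : ℝ}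
    (hl : 0 < l) : ∑ j, ∑ i, ‖tr (Q.q i * a * Q.q j * Δ j * Q.q i * X)‖ ≤
      (∑ j, n2 (Q.q j * Δ j) ^ 2) / (2 * l) + l / 2 := by
  have h1 : ∀ j i, ‖tr (Q.q i * a * Q.q j * Δ j * Q.q i * X)‖ ≤
      n2 (Q.q j * Δ j * Q.q i) ^ 2 / (2 * l) + l / 2 * n2 (Q.q i * X * Q.q i * a * Q.q j) ^ 2 :=
    fun j i => by
      refine le_trans (le_of_eq ?_) ((cs _ _).trans (amgm _ _ hl))
      rw [show Q.q j * Δ j * Q.q i * (Q.q i * X * Q.q i * a * Q.q j) =
        Q.q j * Δ j * (Q.q i * Q.q i) * X * (Q.q i * a * Q.q j) by noncomm_ring, tr_comm _ (_ * _ * _),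
        show Q.q i * a * Q.q j * (Q.q j * Δ j * (Q.q i * Q.q i) * X) =
        Q.q i * a * (Q.q j * Q.q j) * Δ j * (Q.q i * Q.q i) * X by noncomm_ring, Q.q_q, Q.q_q]
  refine (sum_le_sum fun j _ => sum_le_sum fun i _ => h1 j i).trans ?_
  simp only [sum_add_distrib, ← sum_div, ← mul_sum]
  gcongr with j
  · exact Q.sum_right_le _
  · refine mul_le_of_le_one_right (by positivity) ?_
    rw [sum_comm]
    refine (sum_le_sum fun i _ => (Q.sum_right_le _).trans ?_).trans (sum_n2_q Q)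
    refine pow_le_pow_left₀ (n2_nonneg _) ?_ 2
    rw [mul_assoc, mul_assoc]
    exact n2_mul_le_of_right (norm_mul_le_one hX (norm_mul_le_one (Q.norm_q i) ha)) _

lemma termB (Q : Fam A) (a : A) {X : Q.ι → A} (hX : ∀ j, ‖X j‖ ≤ 1) (Δ : Q.ι → A) {l k : ℝ}
    (hl : 0 < l) (hk : 0 < k) : ∑ j, ∑ i, ‖tr (Q.q i * a * Q.q j * X j * Q.q i * Δ j)‖ ≤
      (phi Q Q a / (2 * k) + k / 2) / (2 * l) + l / 2 * ∑ j, n2 (Δ j) ^ 2 := by
  have h0 : ∀ j i, n2 (Q.q i * a * Q.q j * X j * Q.q i) ^ 2 ≤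
      n2 (Q.q j * (star a * Q.q i * a) * Q.q j) ^ 2 / (2 * k) +
        k / 2 * n2 (Q.q j * X j * Q.q i) ^ 2 := fun j i => by
    have e : star (Q.q i * a * Q.q j * X j * Q.q i) * (Q.q i * a * Q.q j * X j * Q.q i) =
        star (Q.q j * X j * Q.q i) * ((Q.q j * (star a * Q.q i * a) * Q.q j) *
          (Q.q j * X j * Q.q i)) := by
      simp only [star_mul, Fam.star_q, mul_assoc]
      simp only [← mul_assoc (Q.q _) (Q.q _), Q.q_q]
    rw [n2_sq, e, tr_comm, mul_assoc]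
    refine (Complex.re_le_norm _).trans ((cs _ _).trans (le_trans ?_ (amgm _ _ hk)))
    refine mul_le_mul_of_nonneg_left (n2_mul_le_of_right ?_ _) (n2_nonneg _)
    rw [norm_star]
    exact norm_mul_le_one (norm_mul_le_one (Q.norm_q j) (hX j)) (Q.norm_q i)
  have h1 : ∀ j i, ‖tr (Q.q i * a * Q.q j * X j * Q.q i * Δ j)‖ ≤
      n2 (Q.q i * a * Q.q j * X j * Q.q i) ^ 2 / (2 * l) + l / 2 * n2 (Q.q i * Δ j) ^ 2 :=
    fun j i => by
      refine le_trans (le_of_eq ?_) ((cs _ _).trans (amgm _ _ hl))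
      rw [← mul_assoc, mul_assoc _ (Q.q i) (Q.q i), Q.q_q]
  refine (sum_le_sum fun j _ => sum_le_sum fun i _ => h1 j i).trans ?_
  simp only [sum_add_distrib, ← sum_div, ← mul_sum]
  gcongr with j
  · refine (sum_le_sum fun j _ => sum_le_sum fun i _ => h0 j i).trans ?_
    simp only [sum_add_distrib, ← sum_div, ← mul_sum]
    gcongr
    · rw [sum_comm]; rfl
    · refine mul_le_of_le_one_right (by positivity) ?_
      refine (sum_le_sum fun j _ => (Q.sum_right_le _).trans ?_).trans (sum_n2_q Q)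
      exact pow_le_pow_left₀ (n2_nonneg _) (n2_mul_le_of_right (hX j) _) 2
  · exact Q.sum_left_le _

lemma pin_base (Q : Fam A) (a : A) {l : ℝ} (hl : 0 < l) :
    Q.pin a ≤ phi Q Q a / (2 * l) + l / 2 := by
  have h0 : ∀ i, n2 (Q.q i * a * Q.q i) ^ 2 ≤
      n2 (Q.q i * (star a * Q.q i * a) * Q.q i) ^ 2 / (2 * l) + l / 2 * n2 (Q.q i) ^ 2 := fun i => by
    refine le_trans ?_ ((Complex.re_le_norm _).trans ((cs _ _).trans (amgm _ _ hl)))
    rw [n2_sq]
    simp only [star_mul, Fam.star_q, mul_assoc]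
    simp only [← mul_assoc (Q.q _) (Q.q _), Q.q_q, le_refl]
  refine (sum_le_sum fun i _ => h0 i).trans ?_
  simp only [sum_add_distrib, ← sum_div, ← mul_sum]
  gcongr
  · exact sum_le_sum fun i _ => single_le_sum
      (f := fun j => n2 (Q.q j * (star a * Q.q i * a) * Q.q j) ^ 2) (fun _ _ => sq_nonneg _)
      (mem_univ i)
  · exact mul_le_of_le_one_right (by positivity) (sum_n2_q Q)

lemma free_pin (n : ℕ) : ∀ η : ℝ, 0 < η → ∃ φ : ℝ, 0 < φ ∧ ∀ (Q : Fam A) (a : A) (l : List A),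
    l.length ≤ n → (∀ x ∈ a :: l, ‖x‖ ≤ 1 ∧ phi Q Q x ≤ φ) →
      𝔼 ω, Q.pin (a * wd (Q.sym ω) l) ≤ η := by
  have base : ∀ η : ℝ, 0 < η → ∀ (Q : Fam A) (a : A), phi Q Q a ≤ η ^ 2 →
      𝔼 ω, Q.pin (a * wd (Q.sym ω) []) ≤ η := fun η hη Q a h => by
    simp only [wd_nil, mul_one, Fintype.expect_const]
    refine (pin_base Q a hη).trans ?_
    have : phi Q Q a / (2 * η) ≤ η / 2 := by rw [div_le_iff₀ (by positivity)]; nlinarith
    linarith
  induction n with
  | zero =>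
    refine fun η hη => ⟨η ^ 2, by positivity, fun Q a l hl h => ?_⟩
    obtain rfl : l = [] := by simpa using hl
    exact base η hη Q a (h a (by simp)).2
  | succ n ih =>
    intro η hη
    obtain ⟨lam, hlam, hlam'⟩ : ∃ lam : ℝ, 0 < lam ∧ lam * (1 + 4 * (n + 1) ^ 2) = η :=
      ⟨η / (1 + 4 * (n + 1) ^ 2), by positivity, by field_simp⟩
    obtain ⟨η', hη', hη''⟩ : ∃ η' : ℝ, 0 < η' ∧ η' * (4 * n ^ 2 + 1) = lam * η :=
      ⟨lam * η / (4 * n ^ 2 + 1), by positivity, by field_simp⟩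
    obtain ⟨φ, hφ, hφ'⟩ := ih η' hη'
    refine ⟨min φ (min (η ^ 2) (4 * lam ^ 2 * η ^ 2)), by positivity, fun Q a l hl h => ?_⟩
    have hm := fun x hx => le_min_iff.1 (h x hx).2
    rcases l with _ | ⟨a₂, l⟩
    · exact base η hη Q a (le_min_iff.1 (hm a (by simp)).2).1
    have ha : ‖a‖ ≤ 1 := (h a (by simp)).1
    have ha₂ : ‖a₂‖ ≤ 1 := (h a₂ (by simp)).1
    have hl1 : ∀ x ∈ l, ‖x‖ ≤ 1 := fun x hx => (h x (by simp [hx])).1
    have hl2 : ∀ x ∈ a₂ :: l, ‖x‖ ≤ 1 := fun x hx => (h x (List.mem_cons_of_mem _ hx)).1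
    have hln : (l.length : ℝ) ≤ n := by exact_mod_cast (by simpa using hl : l.length ≤ n)
    let R : Q.ι → A → A → Q.ι → ℂ := fun j β β' i =>
      tr (Q.q i * a * Q.q j * (a₂ * wd β l) * Q.q i * star (a * wd β' (a₂ :: l)))
    have e1 : ∀ ω, Q.pin (a * wd (Q.sym ω) (a₂ :: l)) =
        ∑ j, sg (ω j) * ∑ i, (R j (Q.sym ω) (Q.sym ω) i).re := fun ω => by
      simp only [mul_sum]
      rw [sum_comm]
      refine sum_congr rfl fun i _ => ?_
      generalize hX : star (a * wd (Q.sym ω) (a₂ :: l)) = X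
      simp only [R, hX]
      rw [← n2_star, n2_sq, star_star]
      simp only [star_mul (_ * _) (Q.q i), star_mul (Q.q i), hX, Fam.star_q]
      rw [show Q.q i * (a * wd (Q.sym ω) (a₂ :: l)) * Q.q i * (Q.q i * (X * Q.q i)) =
        Q.q i * (a * wd (Q.sym ω) (a₂ :: l)) * (Q.q i * Q.q i) * X * Q.q i by noncomm_ring,
        tr_comm _ (Q.q i), Q.q_q, ← mul_assoc, ← mul_assoc, ← mul_assoc, Q.q_q, wd_cons]
      generalize wd (Q.sym ω) l = Y
      simp [Fam.sym, Fam.comb, mul_sum, sum_mul, mul_assoc]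
    have e2 : 2 * 𝔼 ω, Q.pin (a * wd (Q.sym ω) (a₂ :: l)) = 𝔼 ω, ∑ j, sg (ω j) *
        ∑ i, ((R j (Q.sym ω) (Q.sym ω) i).re - (R j (Q.sym (flp j ω)) (Q.sym (flp j ω)) i).re) := by
      simp only [e1, expect_sum_comm, sum_sub_distrib, mul_sub, expect_sub_distrib, two_mul]
      rw [sub_eq_add_neg, ← sum_neg_distrib]
      congr 1
      refine sum_congr rfl fun j _ => ?_
      rw [← expect_flp j, ← expect_neg_distrib]
      simp [flp]
    have e3 : ∀ ω, ∑ j, sg (ω j) * ∑ i, ((R j (Q.sym ω) (Q.sym ω) i).re -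
        (R j (Q.sym (flp j ω)) (Q.sym (flp j ω)) i).re) ≤
        (∑ j, 4 * n * ∑ k ∈ range l.length,
          n2 (Q.q j * (a₂ * wd (Q.sym (flp j ω)) (l.take k)) * Q.q j) ^ 2) / (2 * lam) + 3 / 2 * η := by
      intro ω
      have hA := termA Q ha (X := star (a * wd (Q.sym ω) (a₂ :: l)))
        (by rw [norm_star]; exact norm_mul_le_one ha (norm_wd_le (Q.norm_sym ω) hl2))
        (fun j => a₂ * (wd (Q.sym ω) l - wd (Q.sym (flp j ω)) l)) hlam
      have hB := termB Q a (X := fun j => a₂ * wd (Q.sym (flp j ω)) l)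
        (fun j => norm_mul_le_one ha₂ (norm_wd_le (Q.norm_sym _) hl1))
        (fun j => star (a * (wd (Q.sym ω) (a₂ :: l) - wd (Q.sym (flp j ω)) (a₂ :: l)))) hlam
        (k := 2 * lam * η) (by positivity)
      have h1 : ∀ j, n2 (Q.q j * (a₂ * (wd (Q.sym ω) l - wd (Q.sym (flp j ω)) l))) ^ 2 ≤
          4 * n * ∑ k ∈ range l.length,
            n2 (Q.q j * (a₂ * wd (Q.sym (flp j ω)) (l.take k)) * Q.q j) ^ 2 := fun j => by
        refine (pow_le_pow_left₀ (n2_nonneg _) (wd_tel (Q.norm_sym ω) (Q.sym_sub_flp ω j)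
          (by simp [abs_mul]) hl1 a₂) 2).trans ?_
        rw [mul_pow, mul_assoc]
        refine mul_le_mul (by norm_num) (sq_sum_le_card_mul_sum_sq.trans ?_) (sq_nonneg _)
          (by norm_num)
        rw [card_range]
        gcongr
      have h2 : ∑ j, n2 (star (a * (wd (Q.sym ω) (a₂ :: l) - wd (Q.sym (flp j ω)) (a₂ :: l)))) ^ 2
          ≤ 4 * (n + 1) ^ 2 := by
        calc _ ≤ ∑ j, 4 * (n + 1) ^ 2 * n2 (Q.q j) ^ 2 := sum_le_sum fun j _ => by
              rw [n2_star]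
              refine (pow_le_pow_left₀ (n2_nonneg _) ((n2_mul_le_of_left ha _).trans
                (wd_lip (Q.norm_sym _) (Q.norm_sym _) hl2)) 2).trans ?_
              rw [Q.sym_sub_flp, n2_rsmul]
              simp only [List.length_cons, Nat.cast_add, Nat.cast_one, abs_mul, abs_two, abs_sg,
                mul_one, mul_pow]
              nlinarith [sq_nonneg (n2 (Q.q j)), mul_le_mul_of_nonneg_right
                (pow_le_pow_left₀ (by positivity) (add_le_add_left hln 1) 2) (sq_nonneg (n2 (Q.q j)))]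
          _ ≤ _ := by rw [← mul_sum]; exact mul_le_of_le_one_right (by positivity) (sum_n2_q Q)
      have h3 : (phi Q Q a / (2 * (2 * lam * η)) + 2 * lam * η / 2) / (2 * lam) ≤ η := by
        have := (le_min_iff.1 (hm a (by simp)).2).2
        have h4 : phi Q Q a / (2 * (2 * lam * η)) ≤ lam * η := by
          rw [div_le_iff₀ (by positivity)]; nlinarith
        rw [div_le_iff₀ (by positivity)]; nlinarith
      have h4 := div_le_div_of_nonneg_right (sum_le_sum fun j (_ : j ∈ univ) => h1 j)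
        (show 0 ≤ 2 * lam by positivity)
      refine le_trans (sum_le_sum fun j _ => ?_) (sum_add_distrib.trans_le
        ((add_le_add hA hB).trans ?_))
      · refine (le_abs_self _).trans ?_
        rw [abs_mul, abs_sg, one_mul, ← sum_add_distrib]
        refine (abs_sum_le_sum_abs _ _).trans (sum_le_sum fun i _ => ?_)
        rw [← Complex.sub_re]
        refine (Complex.abs_re_le_norm _).trans (le_trans (le_of_eq ?_) (norm_add_le _ _))
        simp only [R, ← map_add, ← map_sub, mul_sub, star_sub, sub_mul]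
        congr 2
        abel
      · nlinarith [mul_le_mul_of_nonneg_left h2 (show 0 ≤ lam / 2 by positivity)]
    have e4 : 𝔼 ω, ∑ j, 4 * n * ∑ k ∈ range l.length,
        n2 (Q.q j * (a₂ * wd (Q.sym (flp j ω)) (l.take k)) * Q.q j) ^ 2 ≤ 4 * n * (n * η') := by
      have : ∀ j k, 𝔼 ω, n2 (Q.q j * (a₂ * wd (Q.sym (flp j ω)) (l.take k)) * Q.q j) ^ 2 =
          𝔼 ω, n2 (Q.q j * (a₂ * wd (Q.sym ω) (l.take k)) * Q.q j) ^ 2 := fun j k =>
        expect_flp j fun ω => n2 (Q.q j * (a₂ * wd (Q.sym ω) (l.take k)) * Q.q j) ^ 2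
      simp only [expect_sum_comm, ← mul_expect, this, ← mul_sum]
      rw [sum_comm]
      simp only [← expect_sum_comm]
      rw [expect_sum_comm]
      gcongr
      refine (sum_le_card_nsmul _ _ η' fun k _ => hφ' Q a₂ (l.take k)
        ((List.length_take_le' _ _).trans (by simpa using hl)) fun x hx => ?_).trans ?_
      · have hx' : x ∈ a :: a₂ :: l := by
          rcases List.mem_cons.1 hx with rfl | hx
          · simp
          · simp [List.mem_of_mem_take hx]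
        exact ⟨(h x hx').1, (hm x hx').1⟩
      · simp only [card_range, nsmul_eq_mul]; gcongr
    have e5 := expect_le_expect fun ω (_ : ω ∈ univ) => e3 ω
    rw [← e2, expect_add_distrib, ← expect_div, Fintype.expect_const] at e5
    have e6 : 4 * n * (n * η') / (2 * lam) ≤ η / 2 := by
      rw [div_le_iff₀ (by positivity)]; nlinarith
    linarith [div_le_div_of_nonneg_right e4 (show 0 ≤ 2 * lam by positivity)]

lemma tr_sym_le (Q : Fam A) (ω) (X : A) {l : ℝ} (hl : 0 < l) :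
    ‖tr (Q.sym ω * X)‖ ≤ Q.pin X / (2 * l) + l / 2 := by
  have h0 : ∀ i, ‖(sg (ω i) : ℂ) * tr (Q.q i * X)‖ ≤
      n2 (Q.q i * X * Q.q i) ^ 2 / (2 * l) + l / 2 * n2 (Q.q i) ^ 2 := fun i => by
    refine le_trans (le_of_eq ?_) ((cs _ _).trans (amgm _ _ hl))
    rw [mul_assoc _ (Q.q i), Q.q_q, tr_cyc, Q.q_q]; simp
  simp only [Fam.sym, Fam.comb, sum_mul, map_sum, smul_mul_assoc, map_smul, smul_eq_mul]
  refine (norm_sum_le _ _).trans ((sum_le_sum fun i _ => h0 i).trans ?_)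
  simp only [sum_add_distrib, ← sum_div, ← mul_sum]
  gcongr
  · rfl
  · exact mul_le_of_le_one_right (by positivity) (sum_n2_q Q)

lemma free_exists (J : Type*) [Finite J] (n : ℕ) {ε : ℝ} (hε : 0 < ε) :
    ∃ φ : ℝ, 0 < φ ∧ ∀ (Q : Fam A) (a : J → A), (∀ j, ‖a j‖ ≤ 1 ∧ phi Q Q (a j) ≤ φ) →
      ∃ ω, ∀ l : List J, l ≠ [] → l.length ≤ n → ‖tr (wd (Q.sym ω) (l.map a))‖ ≤ ε := by
  classical
  let T := (Set.toFinite (Set.univ : Set J)).prod (List.finite_length_le J n) |>.toFinset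
  obtain ⟨φ, hφ, h⟩ := free_pin (A := A) n (ε ^ 2 / (T.card + 1)) (by positivity)
  refine ⟨φ, hφ, fun Q a ha => ?_⟩
  obtain ⟨ω, -, hω⟩ := exists_le_of_expect_le (s := univ) univ_nonempty
    (f := fun ω => ∑ x ∈ T, Q.pin (a x.1 * wd (Q.sym ω) (x.2.map a))) (a := ε ^ 2) (by
    rw [expect_sum_comm]
    refine (sum_le_card_nsmul _ _ _ fun x hx => h Q _ _ (by simpa [T] using hx) ?_).trans ?_
    · simpa using ⟨ha _, fun j _ => ha j⟩
    · rw [nsmul_eq_mul, mul_div_assoc', div_le_iff₀ (by positivity)]; nlinarith)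
  refine ⟨ω, fun l hl hn => ?_⟩
  obtain ⟨j, l, rfl⟩ := List.exists_cons_of_ne_nil hl
  rw [List.map_cons, wd_cons, mul_assoc]
  refine (tr_sym_le Q ω _ hε).trans ?_
  have := (single_le_sum (f := fun x : J × List J => Q.pin (a x.1 * wd (Q.sym ω) (x.2.map a)))
    (fun _ _ => Q.pin_nonneg _) (show (j, l) ∈ T by simp [T]; simp at hn; omega)).trans hω
  have h2 : Q.pin (a j * wd (Q.sym ω) (l.map a)) / (2 * ε) ≤ ε / 2 := by
    rw [div_le_iff₀ (by positivity)]; nlinarith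
  linarith

end Vale.Agent.P085
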