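import Vale.Agent.P085.Step

/-! Three generators. -/

namespace Vale.Agent.P085

open scoped ComplexConjugate InnerProductSpace BigOperators
open Filter Topology Finset Function

variable {A : Type*} [CStarAlgebra A]

lemma sign_mem {P : Subalgebra ℂ A} (hP : IsClosed (P : Set A)) {s r : A} (hs : s * s = 1)
    (hs1 : ‖s‖ ≤ 1) (hc : Commute s r) (hr : ‖r‖ ≤ 1 / 2) (h : s + r ∈ P) : s ∈ P := by
  have key : ∀ n : ℕ, ∃ r, Commute s r ∧ ‖r‖ ≤ 1 / 2 * (7 / 8) ^ n ∧ s + r ∈ P := by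
    intro n
    induction n with
    | zero => exact ⟨r, hc, by simpa using hr, h⟩
    | succ n ih =>
      obtain ⟨r, hc, hr, h⟩ := ih
      refine ⟨-((3 / 2 : ℝ) • (s * (r * r)) + (1 / 2 : ℝ) • (r * (r * r))), ?_, ?_, ?_⟩
      · exact ((((Commute.refl s).mul_right (hc.mul_right hc)).smul_right _).add_right
          ((hc.mul_right (hc.mul_right hc)).smul_right _)).neg_right
      · have h1 : ‖r‖ ≤ 1 / 2 := hr.trans
          (mul_le_of_le_one_right (by norm_num) (pow_le_one₀ (by norm_num) (by norm_num)))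
        have h2 : ‖r * r‖ ≤ 1 / 2 * ‖r‖ :=
          (norm_mul_le _ _).trans (mul_le_mul_of_nonneg_right h1 (norm_nonneg _))
        have h3 := (norm_mul_le _ _).trans (mul_le_mul hs1 h2 (norm_nonneg _) zero_le_one)
        have h4 := (norm_mul_le _ _).trans (mul_le_mul h1 h2 (norm_nonneg _) (by norm_num))
        rw [norm_neg]
        refine (norm_add_le _ _).trans ?_
        rw [norm_smul, norm_smul, pow_succ, Real.norm_of_nonneg (by norm_num),
          Real.norm_of_nonneg (by norm_num)]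
        linarith
      · convert sub_mem (rsmul_mem h (3 / 2)) (rsmul_mem (mul_mem h (mul_mem h h)) (1 / 2)) using 1
        have e1 : ∀ y, r * (s * y) = s * (r * y) := fun y => by rw [← mul_assoc, ← hc.eq, mul_assoc]
        have e2 : ∀ y, s * (s * y) = y := fun y => by rw [← mul_assoc, hs, one_mul]
        simp only [mul_add, add_mul, ← hc.eq, e1, e2, hs, mul_one]
        module
  choose r _ h2 h3 using key
  refine hP.mem_of_tendsto (b := atTop) (f := fun n => s + r n) ?_ (.of_forall h3)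
  simpa using (tendsto_const_nhds (x := s)).add (squeeze_zero_norm h2 (by
    simpa only [mul_zero] using (tendsto_pow_atTop_nhds_zero_of_lt_one (r := (7 / 8 : ℝ)) (by norm_num)
      (by norm_num)).const_mul (1 / 2)))

variable [TrA A]

lemma rickart {S : Set A} (hS : S.Countable) (hp : ∀ p ∈ S, IsStarProjection p)
    (hc : ∀ p ∈ S, ∀ q ∈ S, Commute p q) : ∃ a : A, IsSelfAdjoint a ∧ ‖a‖ ≤ 2 ∧
      ∀ P : Subalgebra ℂ A, IsClosed (P : Set A) → a ∈ P → ∀ p ∈ S, p ∈ P := by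
  obtain ⟨p, hp'⟩ := (hS.insert 0).exists_eq_range (Set.insert_nonempty _ _)
  have h0 : ∀ n, p n = 0 ∨ p n ∈ S := fun n => (hp' ▸ Set.mem_range_self n : p n ∈ insert 0 S)
  have h1 : ∀ n, IsStarProjection (p n) := fun n => (h0 n).elim (fun h => h ▸ .zero A) (hp _)
  have h2 : ∀ n m, Commute (p n) (p m) := fun n m => (h0 n).elim (fun h => h ▸ .zero_left _)
    fun h => (h0 m).elim (fun h => h ▸ .zero_right _) (hc _ h _)
  set s := fun n => (2 : ℝ) • p n - 1 with hsd
  have s1 : ∀ n, IsSelfAdjoint (s n) := fun n => by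
    simp [IsSelfAdjoint, hsd, (h1 n).isSelfAdjoint.star_eq]
  have s2 : ∀ n, s n * s n = 1 := fun n => by
    simp only [hsd, mul_sub, sub_mul, smul_mul_assoc, mul_smul_comm, (h1 n).isIdempotentElem.eq,
      mul_one, one_mul]
    module
  have s3 : ∀ n, ‖s n‖ ≤ 1 := fun n =>
    norm_unitary_le ⟨by rw [(s1 n).star_eq, s2], by rw [(s1 n).star_eq, s2]⟩
  have s4 : ∀ n m, Commute (s n) (s m) := fun n m =>
    ((((h2 n m).smul_right _).sub_right (.one_right _)).smul_left _).sub_left (.one_left _)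
  have b1 : ∀ k n, ‖(1 / 4 : ℝ) ^ n • s (n + k)‖ ≤ (1 / 2) ^ n := fun k n => by
    rw [norm_smul, Real.norm_of_nonneg (by positivity)]
    exact (mul_le_of_le_one_right (by positivity) (s3 _)).trans
      (pow_le_pow_left₀ (by norm_num) (by norm_num) n)
  have b2 := fun k => Summable.of_norm_bounded summable_geometric_two (b1 k)
  set T := fun k => ∑' n, (1 / 4 : ℝ) ^ n • s (n + k) with hT
  have t1 : ∀ k, ‖T k‖ ≤ 2 := fun k => tsum_of_norm_bounded hasSum_geometric_two (b1 k)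
  have t2 : ∀ k, T k = s k + (1 / 4 : ℝ) • T (k + 1) := fun k => by
    rw [hT]
    simp only
    rw [(b2 k).tsum_eq_zero_add, ← (b2 (k + 1)).tsum_const_smul]
    simp only [pow_zero, one_smul, zero_add, smul_smul, pow_succ', add_assoc, add_comm 1 k]
  refine ⟨T 0, ?_, t1 0, fun P hP h q hq => ?_⟩
  · simp [IsSelfAdjoint, hT, tsum_star, (s1 _).star_eq]
  have t3 : ∀ k, T k ∈ P → s k ∈ P := fun k h => sign_mem hP (s2 k) (s3 k)
    ((Commute.tsum_right _ fun n => (s4 _ _).smul_right _).smul_right _)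
    (by rw [norm_smul]; norm_num; linarith [t1 (k + 1)]) (t2 k ▸ h)
  have t4 : ∀ k, T k ∈ P := fun k => by
    induction k with
    | zero => exact h
    | succ k ih =>
      convert rsmul_mem (sub_mem ih (t3 k ih)) 4 using 1
      rw [t2 k]; module
  obtain ⟨n, rfl⟩ : q ∈ Set.range p := hp' ▸ Set.mem_insert_of_mem _ hq
  convert rsmul_mem (add_mem (t3 n (t4 n)) (one_mem P)) (1 / 2) using 1
  rw [hsd]; module

variable [Fac A]

lemma mem_of_sa {P : StarSubalgebra ℂ A} (hP : CClosed (P : Set A))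
    (h : ∀ z : A, IsSelfAdjoint z → ‖z‖ ≤ 1 → z ≠ 0 → ∃ w ∈ P, ‖w‖ ≤ 1 ∧ 0 < (tr (z * w)).re)
    {y : A} (hy : IsSelfAdjoint y) (hy1 : ‖y‖ ≤ 1) : y ∈ P := by
  let _ := CStarAlgebra.spectralOrder A
  have _ := CStarAlgebra.spectralOrderedRing A
  have _ := hP.isClosed
  have hK : Convex ℝ {p | p ∈ P ∧ ‖p‖ ≤ 2} :=
    (P.toSubalgebra.toSubmodule.restrictScalars ℝ).convex.inter (t := {p | ‖p‖ ≤ 2})
      (by simpa [Metric.closedBall] using convex_closedBall (0 : A) 2)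
  obtain ⟨p, hp, hmin⟩ := exists_nearest ⟨0, by simp⟩ hK (fun x z hx hz =>
    ⟨hP x z (fun n => (hx n).1) hz, hz.norm_le fun n => (hx n).2⟩) (fun x hx => hx.2) y
  have hps : IsSelfAdjoint p := nearest_unique hK hp ⟨star_mem hp.1, by simpa using hp.2⟩ hmin
    (by rw [← n2_star (y - p), star_sub, hy.star_eq])
  have hp1 : ‖p‖ ≤ 1 := by
    let f : ℝ → ℝ := fun t => max (-1) (min 1 t)
    let g : ℝ → ℝ := fun t => max (t - 1) 0
    let g' : ℝ → ℝ := fun t => max (-1 - t) 0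
    have n1 : ‖cfc f p‖ ≤ 1 := norm_cfc_le zero_le_one fun t _ =>
      abs_le.2 ⟨le_max_left _ _, max_le (by norm_num) (min_le_left _ _)⟩
    have e1 : y - p = y - cfc f p - (cfc g p - cfc g' p) := by
      rw [sub_sub, ← cfc_sub .., ← cfc_add ..]
      nth_rw 1 [← cfc_id' ℝ p]
      congr 2; funext t; simp only [f, g, g', max_def, min_def]; split_ifs <;> linarith
    have e2 : cfc f p * cfc g p = cfc g p := by
      rw [← cfc_mul ..]
      congr 1; funext t; simp only [f, g, max_def, min_def]; split_ifs <;> nlinarith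
    have e3 : cfc f p * cfc g' p = -cfc g' p := by
      rw [← cfc_mul .., ← cfc_neg]
      congr 1; funext t; simp only [f, g', max_def, min_def]; split_ifs <;> nlinarith
    have p1 := tr_mul_nonneg (sub_nonneg.2 (hy.le_algebraMap_norm_self.trans
      (b := algebraMap ℝ A ‖y‖) (c := 1) (by
        rw [← map_one (algebraMap ℝ A)]; exact algebraMap_mono _ hy1)))
      (cfc_nonneg (f := g) (a := p) fun t _ => le_max_right _ _)
    have p2 := tr_mul_nonneg (sub_nonneg.2 (hy.neg.le_algebraMap_norm_self.trans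
      (b := algebraMap ℝ A ‖-y‖) (c := 1) (by
        rw [← map_one (algebraMap ℝ A)]; exact algebraMap_mono _ (by simpa using hy1))))
      (cfc_nonneg (f := g') (a := p) fun t _ => le_max_right _ _)
    refine nearest_unique hK hp ⟨cfc_mem f hp.1, n1.trans one_le_two⟩ hmin
      (le_of_sq_le_sq ?_ (n2_nonneg _)) ▸ n1
    rw [e1, n2_sub_sq _ (_ - _), star_sub, hy.star_eq, (IsSelfAdjoint.cfc).star_eq]
    simp only [mul_sub, sub_mul, e2, e3, map_sub, map_neg, Complex.sub_re, Complex.neg_re, one_mul,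
      neg_mul] at p1 p2 ⊢
    nlinarith [sq_nonneg (n2 (cfc g p - cfc g' p))]
  by_contra hyP
  obtain ⟨w, hw, hw1, hw2⟩ := h ((1 / 2 : ℝ) • (y - p)) ((IsSelfAdjoint.all _).smul (hy.sub hps))
    (by rw [norm_smul]; norm_num; linarith [norm_sub_le y p])
    (smul_ne_zero (by norm_num) (sub_ne_zero.2 fun e => hyP (e ▸ hp.1)))
  rw [smul_mul_assoc, tr_rsmul, Complex.re_ofReal_mul] at hw2
  set c := (tr ((y - p) * w)).re with hc
  have hc0 : 0 < min c 1 := lt_min (by linarith) one_pos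
  have := pow_le_pow_left₀ (n2_nonneg _) (hmin (p + min c 1 • w)
    ⟨add_mem hp.1 (rsmul_mem (P := P.toSubalgebra) hw _), (norm_add_le _ _).trans (by
      rw [norm_smul, Real.norm_of_nonneg hc0.le]
      linarith [mul_le_one₀ (min_le_right c 1) (norm_nonneg w) hw1])⟩) 2
  rw [← sub_sub, n2_sub_sq _ (_ • _), (hy.sub hps).star_eq, mul_smul_comm, tr_rsmul,
    Complex.re_ofReal_mul, ← hc, n2_rsmul, abs_of_pos hc0, mul_pow] at this
  have h2 := pow_le_one₀ (n := 2) (n2_nonneg w) ((n2_le_norm w).trans hw1)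
  nlinarith [min_le_left c 1, mul_le_of_le_one_right (sq_nonneg (min c 1)) h2]

omit [TrA A] [Fac A] in
lemma mem_of_sa' {P : StarSubalgebra ℂ A} (h : ∀ y : A, IsSelfAdjoint y → ‖y‖ ≤ 1 → y ∈ P)
    (y : A) : y ∈ P := by
  have : ∀ y : A, IsSelfAdjoint y → y ∈ P := fun y hy => by
    have h0 : 0 < ‖y‖ + 1 := by positivity
    have := rsmul_mem (P := P.toSubalgebra) (h ((‖y‖ + 1)⁻¹ • y) ((IsSelfAdjoint.all _).smul hy) (by
      rw [norm_smul, Real.norm_of_nonneg (by positivity)]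
      exact inv_mul_le_one_of_le₀ (by linarith) h0.le)) (‖y‖ + 1)
    rwa [smul_inv_smul₀ h0.ne'] at this
  rw [← realPart_add_I_smul_imaginaryPart y]
  exact add_mem (this _ (realPart y).2) (P.smul_mem (this _ (imaginaryPart y).2) _)

/-- state of the recursion -/
structure St (A : Type*) [CStarAlgebra A] where
  u : A
  D : Fam A
  D' : Fam A
  r : ℝ
  hu : u ∈ unitary A
  hD : D.tot = 1
  hD' : D'.tot = 1
  hr : 0 < r

omit [Fac A] in
lemma rickart_fam {D : ℕ → Fam A} (h : ∀ n, (D (n + 1)).Sub (D n)) :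
    ∃ a : A, IsSelfAdjoint a ∧ ‖a‖ ≤ 2 ∧
      ∀ P : Subalgebra ℂ A, IsClosed (P : Set A) → a ∈ P → ∀ n i, (D n).q i ∈ P := by
  have h1 : ∀ n m, n ≤ m → (D m).Sub (D n) := fun n m hm => by
    induction hm with
    | refl => exact .refl
    | step _ ih => exact (h _).trans ih
  obtain ⟨a, a1, a2, a3⟩ := rickart (S := ⋃ n, Set.range (D n).q)
    (Set.countable_iUnion fun n => Set.countable_range _)
    (by simp only [Set.mem_iUnion]; rintro _ ⟨n, i, rfl⟩; exact (D n).proj i) (by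
      simp only [Set.mem_iUnion]
      rintro _ ⟨n, i, rfl⟩ _ ⟨m, j, rfl⟩
      rcases le_total n m with h | h
      exacts [((h1 _ _ h).commute _ _).symm, (h1 _ _ h).commute _ _])
  exact ⟨a, a1, a2, fun P hP ha n i => a3 P hP ha _ (Set.mem_iUnion.2 ⟨n, i, rfl⟩)⟩

theorem gen_three [TopologicalSpace.SeparableSpace (L2 A)] :
    ∃ a a' u : A, IsSelfAdjoint a ∧ ‖a‖ ≤ 2 ∧ IsSelfAdjoint a' ∧ ‖a'‖ ≤ 2 ∧
      ∀ P : StarSubalgebra ℂ A, CClosed (P : Set A) → a ∈ P → a' ∈ P → u ∈ P → ∀ y, y ∈ P := by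
  have := UniformSpace.secondCountable_of_separable (L2 A)
  let B := {z : L2 A // IsSelfAdjoint (toL2.symm z) ∧ ‖toL2.symm z‖ ≤ 1}
  have : Nonempty B := ⟨⟨0, by simp⟩⟩
  let d := TopologicalSpace.denseSeq B
  have key : ∀ (n : ℕ) (s : St A), ∃ t : St A, t.D.Sub s.D ∧ t.D'.Sub s.D' ∧
      n2 (t.u - s.u) ≤ s.r / 2 ∧ t.r ≤ s.r / 2 ∧ ∀ u' ∈ unitary A, n2 (u' - t.u) ≤ t.r →
        ∀ P : Subalgebra ℂ A, (∀ i, t.D.q i ∈ P) → (∀ i, t.D'.q i ∈ P) → u' ∈ P →
          ∃ w ∈ P, ‖w‖ ≤ 1 ∧ ‖(d n.unpair.1).1‖ ^ 6 / 500 - s.r / 2 ≤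
            (tr (toL2.symm (d n.unpair.1).1 * w)).re := fun n s => by
    obtain ⟨u, hu, Q, Q', h1, h2, h3, h4, h5, r, hr, h6⟩ :=
      step s.hu (d n.unpair.1).2.1 (d n.unpair.1).2.2 s.hD s.hD' (half_pos s.hr)
    exact ⟨⟨u, Q, Q', min r (s.r / 2), hu, h1, h3, lt_min hr (half_pos s.hr)⟩, h2, h4, h5,
      min_le_right _ _, fun u' hu' h => h6 u' hu' (h.trans (min_le_left _ _))⟩
  choose f h1 h2 h3 h4 h5 using key
  let s : ℕ → St A := Nat.rec ⟨1, .single (.one A), .single (.one A), 1, one_mem _, by simp,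
    by simp, one_pos⟩ f
  have hs : ∀ n, s (n + 1) = f n (s n) := fun _ => rfl
  have m1 : ∀ n m, n ≤ m → n2 ((s m).u - (s n).u) + (s m).r ≤ (s n).r := fun n m hm => by
    induction hm with
    | refl => simp
    | @step m _ ih =>
      rw [Nat.succ_eq_add_one, hs]
      linarith [n2_triangle (f m (s m)).u (s m).u (s n).u, h3 m (s m), h4 m (s m)]
  have m2 : Tendsto (fun n => (s n).r) atTop (𝓝 0) := by
    refine squeeze_zero (fun n => (s n).hr.le) (fun n => ?_)
      (tendsto_pow_atTop_nhds_zero_of_lt_one (r := (1 / 2 : ℝ)) (by norm_num) (by norm_num))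
    induction n with
    | zero => exact le_rfl
    | succ n ih => rw [hs, pow_succ]; linarith [h4 n (s n)]
  obtain ⟨u, -, hu⟩ := exists_conv (x := fun n => (s n).u) (fun n => norm_unitary_le (s n).hu)
    fun ε hε => by
      obtain ⟨N, hN⟩ := (m2.eventually (gt_mem_nhds (half_pos hε))).exists
      refine ⟨N, fun m hm n hn => ?_⟩
      linarith [n2_triangle (s m).u (s N).u (s n).u, n2_sub_comm (s N).u (s n).u, m1 N m hm,
        m1 N n hn, (s m).hr, (s n).hr]
  have hu1 : u ∈ unitary A := ⟨(hu.star.mul hu).eq (.const 1) fun n => (s n).hu.1,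
    (hu.mul hu.star).eq (.const 1) fun n => (s n).hu.2⟩
  have hu2 : ∀ n, n2 (u - (s n).u) ≤ (s n).r := fun n => le_of_tendsto (hu.sub (.const _)).n2
    ((eventually_ge_atTop n).mono fun m hm => by linarith [m1 n m hm, (s m).hr])
  obtain ⟨a, a1, a2, a3⟩ := rickart_fam (D := fun n => (s n).D) fun n => h1 n (s n)
  obtain ⟨a', b1, b2, b3⟩ := rickart_fam (D := fun n => (s n).D') fun n => h2 n (s n)
  refine ⟨a, a', u, a1, a2, b1, b2, fun P hP c1 c2 c3 => mem_of_sa' fun y =>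
    mem_of_sa hP fun z hz hz1 hz0 => ?_⟩
  obtain ⟨k, hk⟩ := (TopologicalSpace.denseRange_denseSeq B).exists_mem_open
    (s := {y | 0 < ‖y.1‖ ^ 6 / 500 - ‖y.1 - toL2 z‖}) (isOpen_lt (by fun_prop) (by fun_prop))
    ⟨⟨toL2 z, hz, hz1⟩, by simpa [n2] using pow_pos (n2_pos hz0) 6⟩
  obtain ⟨m, hm⟩ := (m2.eventually (gt_mem_nhds hk)).exists
  obtain ⟨w, w1, w2, w3⟩ := h5 (Nat.pair k m) (s _) u hu1 (hu2 (_ + 1)) P.toSubalgebra
    (a3 _ hP.isClosed c1 (_ + 1)) (b3 _ hP.isClosed c2 (_ + 1)) c3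
  refine ⟨w, w1, w2, ?_⟩
  rw [Nat.unpair_pair] at w3
  have c4 := (abs_le.1 ((Complex.abs_re_le_norm _).trans ((cs (toL2.symm (d k).1 - z) w).trans
    (mul_le_of_le_one_right (n2_nonneg _) ((n2_le_norm w).trans w2))))).2
  rw [sub_mul, map_sub, Complex.sub_re] at c4
  change _ ≤ ‖(d k).1 - toL2 z‖ at c4
  linarith [m1 m _ (Nat.right_le_pair k m), n2_nonneg ((s (Nat.pair k m)).u - (s m).u),
    (s (Nat.pair k m)).hr]

end Vale.Agent.P085
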