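import Vale.Agent.P085.Spec

/-! No minimal projections, partial isometries, halving. -/

namespace Vale.Agent.P085

open scoped ComplexConjugate InnerProductSpace ComplexStarModule
open Filter Topology

variable {A : Type*} [CStarAlgebra A] [TrA A] [Fac A]

lemma exists_subproj {c : A} (hc : IsStarProjection c) (h0 : c ≠ 0) :
    ∃ e, IsStarProjection e ∧ c * e = e ∧ e ≠ 0 ∧ e ≠ c := by
  by_contra hne
  push Not at hne
  have hcc := hc.isIdempotentElem.eq
  have hcs := hc.isSelfAdjoint.star_eq
  have ht := tr_proj_pos hc h0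
  have ht' : tr c ≠ 0 := fun h => by simp [h] at ht
  have hsc : ∀ x, c * x * c = (tr (c * x * c) / tr c) • c := fun x => by
    have h1 : c * (c * x * c - (tr (c * x * c) / tr c) • c) =
        c * x * c - (tr (c * x * c) / tr c) • c := by simp [mul_sub, ← mul_assoc, hcc]
    have h2 : (c * x * c - (tr (c * x * c) / tr c) • c) * c =
        c * x * c - (tr (c * x * c) / tr c) • c := by simp [sub_mul, mul_assoc, hcc]
    have := rho_lemma hc h1 h2 (by simp [div_mul_cancel₀ _ ht']) (ρ := 0) fun e he hce => by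
      by_cases h : e = 0
      · simp [h]
      · rw [hne e he hce h, h1, h2]; simp
    exact sub_eq_zero.1 (n2_eq_zero.1 (le_antisymm (by simpa using this) (n2_nonneg _)))
  have key : ∀ (n : ℕ) (ξ : Fin n → A), (∀ i, ξ i * c = ξ i) →
      (∀ i j, star (ξ i) * ξ j = if i = j then c else 0) →
      ∀ i, star (ξ i) * ∑ j, ξ j * star (ξ j) = star (ξ i) := fun n ξ h1 h2 i => by
    have h3 : c * star (ξ i) = star (ξ i) := by simpa [hcs] using congrArg star (h1 i)
    simp [Finset.mul_sum, ← mul_assoc, h2, h3]
  have main : ∀ n : ℕ, ∃ ξ : Fin n → A, (∀ i, ξ i * c = ξ i) ∧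
      ∀ i j, star (ξ i) * ξ j = if i = j then c else 0 := by
    intro n
    induction n with
    | zero => exact ⟨fun _ => 0, by simp⟩
    | succ n ih =>
      obtain ⟨ξ, h1, h2⟩ := ih
      set p := ∑ j, ξ j * star (ξ j) with hp
      have : ∃ x, (1 - p) * x * c ≠ 0 := by
        by_contra h
        push Not at h
        have hp1 : p = 1 := (sub_eq_zero.1 ((prime h).resolve_right h0)).symm
        refine Fac.infdim (A := A) ?_
        refine Module.Finite.of_surjective (Fintype.linearCombination ℂ
          fun q : Fin n × Fin n => ξ q.1 * star (ξ q.2)) fun x => ?_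
        refine ⟨fun q => tr (c * (star (ξ q.1) * x * ξ q.2) * c) / tr c, ?_⟩
        rw [Fintype.linearCombination_apply, Fintype.sum_prod_type]
        conv_rhs => rw [← one_mul x, ← mul_one (1 * x), ← hp1, hp, Finset.sum_mul, Finset.sum_mul]
        refine Finset.sum_congr rfl fun i _ => ?_
        rw [Finset.mul_sum]
        refine Finset.sum_congr rfl fun j _ => ?_
        have h3 : c * star (ξ j) = star (ξ j) := by simpa [hcs] using congrArg star (h1 j)
        calc _ = ξ i * ((tr (c * (star (ξ i) * x * ξ j) * c) / tr c) • c) * star (ξ j) := by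
              simp [h1]
          _ = (ξ i * c) * star (ξ i) * x * (ξ j * (c * star (ξ j))) := by
              rw [← hsc]; noncomm_ring
          _ = _ := by rw [h1, h3]
      obtain ⟨x, hx⟩ := this
      set a := (1 - p) * x * c with ha
      have hac : a * c = a := by rw [ha, mul_assoc, hcc]
      have haa : star a * a = ((n2 a ^ 2 / (tr c).re : ℝ) : ℂ) • c := by
        have e1 : c * (star a * a) * c = star a * a := by
          rw [mul_assoc c, mul_assoc, hac, ← mul_assoc, ← hcs, ← star_mul, hac]
        rw [← e1, hsc, e1, tr_star_mul_self, tr_eq_re_of_sa hc.isSelfAdjoint]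
        simp
      have hia : ∀ i, star (ξ i) * a = 0 := fun i => by
        rw [ha, ← mul_assoc, ← mul_assoc, mul_sub, key n ξ h1 h2]; simp
      have hpos : 0 < n2 a ^ 2 / (tr c).re := div_pos (pow_pos (n2_pos hx) 2) ht
      refine ⟨Fin.cons ((√(n2 a ^ 2 / (tr c).re))⁻¹ • a) ξ, fun i => ?_, fun i j => ?_⟩
      · refine Fin.cases ?_ (fun i => ?_) i <;> simp [hac, h1]
      · refine Fin.cases ?_ (fun i => ?_) i <;> refine Fin.cases ?_ (fun j => ?_) j
        · simp only [Fin.cons_zero, star_smul, star_trivial, smul_mul_assoc, mul_smul_comm, haa,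
            if_true, Complex.coe_smul, smul_smul]
          rw [← mul_assoc, ← mul_inv, Real.mul_self_sqrt hpos.le, inv_mul_cancel₀ hpos.ne',
            one_smul]
        · have := congrArg star (hia j)
          simp only [star_mul, star_star, star_zero] at this
          simp [this, (Fin.succ_ne_zero j).symm]
        · simp [hia]
        · simp [h2]
  obtain ⟨n, hn⟩ := exists_nat_gt (1 / (tr c).re)
  obtain ⟨ξ, h1, h2⟩ := main n
  have hp : IsStarProjection (∑ j, ξ j * star (ξ j)) := ⟨by
    rw [IsIdempotentElem, Finset.sum_mul]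
    exact Finset.sum_congr rfl fun i _ => by rw [mul_assoc, key n ξ h1 h2],
    by simp [IsSelfAdjoint, star_sum]⟩
  have := tr_proj_le_one hp
  simp only [map_sum, tr_comm (ξ _), h2, if_true, Finset.sum_const, Finset.card_univ,
    Fintype.card_fin, nsmul_eq_mul, Complex.mul_re, Complex.natCast_re, Complex.natCast_im,
    zero_mul, sub_zero] at this
  rw [div_lt_iff₀ ht] at hn
  linarith

lemma exists_piso {f g : A} (hf : IsStarProjection f) (hg : IsStarProjection g) (hf0 : f ≠ 0)
    (hg0 : g ≠ 0) : ∃ v : A, v ≠ 0 ∧ IsStarProjection (star v * v) ∧ f * v = v ∧ v * g = v := by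
  let _ := CStarAlgebra.spectralOrder A
  have _ := CStarAlgebra.spectralOrderedRing A
  obtain ⟨a, hx, hfa, hag⟩ : ∃ a, a ≠ 0 ∧ f * a = a ∧ a * g = a := by
    by_contra h
    push Not at h
    refine (prime (a := f) (b := g) fun x => ?_).elim hf0 hg0
    by_contra hx
    exact h _ hx (by simp [← mul_assoc, hf.isIdempotentElem.eq])
      (by simp [mul_assoc, hg.isIdempotentElem.eq])
  have hga : g * star a = star a := by simpa [hg.isSelfAdjoint.star_eq] using congrArg star hag
  obtain ⟨b, hb⟩ : ∃ b, b = star a * a := ⟨_, rfl⟩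
  have hb0 : 0 ≤ b := hb ▸ star_mul_self_nonneg a
  have hbs := hb0.isSelfAdjoint
  have hbg : Commute b g := by
    rw [Commute, SemiconjBy, hb, mul_assoc, hag, ← mul_assoc g, hga]
  have hbn : 0 < ‖b‖ := by rw [hb, CStarRing.norm_star_mul_self]; simpa using hx
  obtain ⟨ε, hε⟩ : ∃ ε, ε = ‖b‖ / 2 := ⟨_, rfl⟩
  have hε0 : 0 < ε := by rw [hε]; positivity
  have hk : IsSelfAdjoint (b - algebraMap ℝ A ε) := by cfc_tac
  obtain ⟨e, he, e1, e2, e3⟩ := exists_spec hk
  have he0 : e ≠ 0 := by
    rintro rfl
    rw [zero_mul, eq_comm, CFC.posPart_eq_zero_iff _ hk, sub_nonpos,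
      ← CStarAlgebra.norm_le_iff_le_algebraMap _ hε0.le hb0] at e1
    linarith
  let φ : ℝ → ℝ := fun t => (√(max t ε))⁻¹
  have hm : ∀ t : ℝ, 0 < max t ε := fun t => lt_max_of_lt_right hε0
  have hφ : Continuous φ := Continuous.inv₀ (by fun_prop) fun t => (Real.sqrt_pos.2 (hm t)).ne'
  have hT : IsSelfAdjoint (cfc φ b) := cfc_predicate _ _
  have hTb : cfc φ b * b * cfc φ b = 1 - ε⁻¹ • (b - algebraMap ℝ A ε)⁻ := by
    have c1 : Continuous fun t => φ t * t := hφ.mul continuous_id
    have h1 : (b - algebraMap ℝ A ε)⁻ = cfc (fun t : ℝ => max (ε - t) 0) b := by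
      have h0 : b - algebraMap ℝ A ε = cfc (fun t : ℝ => t - ε) b := by
        rw [cfc_sub _ _ b, cfc_id' ℝ b, cfc_const ε b]
      rw [CFC.negPart_def, cfcₙ_eq_cfc, h0, ← cfc_comp' _ _ b]
      simp [negPart_def]
    have h2 : cfc φ b * b * cfc φ b = cfc (fun t => φ t * t * φ t) b := by
      rw [cfc_mul _ _ b c1.continuousOn hφ.continuousOn, cfc_mul _ _ b hφ.continuousOn,
        cfc_id' ℝ b]
    rw [h2, h1, ← cfc_smul _ _ b, ← cfc_const_one ℝ b, ← cfc_sub _ _ b]
    refine cfc_congr fun t ht => ?_
    have ht0 : 0 ≤ t := spectrum_nonneg_of_nonneg hb0 ht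
    simp only [φ, smul_eq_mul]
    rw [mul_right_comm, ← mul_inv, Real.mul_self_sqrt (hm t).le]
    rcases le_total t ε with h | h
    · rw [max_eq_right h, max_eq_left (by linarith)]; field_simp; ring
    · rw [max_eq_left h, max_eq_right (by linarith), inv_mul_cancel₀ (by linarith)]; simp
  have hvv : star (a * cfc φ b * e) * (a * cfc φ b * e) = e := by
    rw [star_mul, star_mul, hT.star_eq, he.isSelfAdjoint.star_eq]
    calc _ = e * (cfc φ b * b * cfc φ b) * e := by rw [hb]; noncomm_ring
      _ = e := by rw [hTb, mul_sub, mul_smul_comm, e2]; simp [he.isIdempotentElem.eq]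
  refine ⟨a * cfc φ b * e, fun h => he0 (by rw [← hvv, h, mul_zero]), hvv.symm ▸ he,
    by rw [← mul_assoc, ← mul_assoc, hfa], ?_⟩
  have h1 := e3 g (hbg.sub_left (Algebra.commutes ε g))
  rw [mul_assoc, h1.eq, ← mul_assoc, mul_assoc a, (hbg.cfc_real φ).eq, ← mul_assoc, hag]

omit [TrA A] [Fac A] in
lemma piso_eq {v : A} (hv : IsStarProjection (star v * v)) : v * (star v * v) = v := by
  have h := hv.isIdempotentElem.eq
  have : star (v * (star v * v) - v) * (v * (star v * v) - v) = 0 := by
    simp only [star_sub, star_mul, star_star, sub_mul, mul_sub]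
    have h2 : star v * v * star v * (v * (star v * v)) = star v * v := by
      rw [show star v * v * star v * (v * (star v * v)) =
        star v * v * (star v * v) * (star v * v) by noncomm_ring, h, h]
    have h3 : star v * (v * (star v * v)) = star v * v := by rw [← mul_assoc, h]
    have h4 : star v * v * star v * v = star v * v := by rw [mul_assoc, h]
    rw [h2, h3, h4]; simp
  exact sub_eq_zero.1 ((CStarRing.star_mul_self_eq_zero_iff _).1 this)

omit [TrA A] [Fac A] in
lemma piso_star {v : A} (hv : IsStarProjection (star v * v)) : IsStarProjection (v * star v) :=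
  ⟨by rw [IsIdempotentElem, show v * star v * (v * star v) = v * (star v * v) * star v by
    noncomm_ring, piso_eq hv], IsSelfAdjoint.mul_star_self v⟩

omit [TrA A] [Fac A] in
lemma piso_norm {v : A} (hv : IsStarProjection (star v * v)) : ‖v‖ ≤ 1 := by
  have := hv.norm_le
  rw [CStarRing.norm_star_mul_self] at this
  nlinarith [norm_nonneg v]

lemma exists_half {c : A} (hc : IsStarProjection c) :
    ∃ v : A, IsStarProjection (star v * v) ∧ v * v = 0 ∧ star v * v + v * star v = c := by
  let S := {v : A // IsStarProjection (star v * v) ∧ v * v = 0 ∧ c * v = v ∧ v * c = v}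
  let r : S → S → Prop := fun v w => star v.1 * w.1 = star v.1 * v.1 ∧ w.1 * star v.1 = v.1 * star v.1
  have hr : ∀ v w : S, r v w → n2 (w.1 - v.1) ^ 2 = n2 w.1 ^ 2 - n2 v.1 ^ 2 := fun v w h => by
    rw [n2_sub_comm, n2_sub_sq, h.1, ← n2_sq]; ring
  have hch : ∀ C, IsChain r C → ∃ ub, ∀ a ∈ C, r a ub := fun C hC => by
    rcases C.eq_empty_or_nonempty with rfl | hne
    · exact ⟨⟨0, by simp [IsStarProjection.zero]⟩, by simp⟩
    have hb : BddAbove ((fun v : S => n2 v.1 ^ 2) '' C) := ⟨1, by
      rintro _ ⟨v, -, rfl⟩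
      exact pow_le_one₀ (n2_nonneg _) ((n2_le_norm _).trans (piso_norm v.2.1))⟩
    obtain ⟨t, -, ht, htm⟩ := exists_seq_tendsto_sSup (hne.image _) hb
    choose x hxC hx using htm
    have hcmp : ∀ v ∈ C, ∀ w ∈ C, r v w ∨ r w v := fun v hv w hw => by
      by_cases h : v = w
      · subst h; exact Or.inl ⟨rfl, rfl⟩
      · exact hC hv hw h
    obtain ⟨w, -, hw⟩ := exists_conv (x := fun n => (x n).1) (fun n => piso_norm (x n).2.1)
      (cauchy_of_mono ht fun m n => by
        rw [← hx, ← hx]
        rcases hcmp _ (hxC m) _ (hxC n) with h | h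
        · rw [n2_sub_comm, hr _ _ h, abs_sub_comm]; exact le_abs_self _
        · rw [hr _ _ h]; exact le_abs_self _)
    refine ⟨⟨w, ⟨((hw.star.mul hw).mul (hw.star.mul hw)).eq (hw.star.mul hw)
      fun n => (x n).2.1.isIdempotentElem.eq, IsSelfAdjoint.star_mul_self w⟩,
      (hw.mul hw).eq (Conv.const 0) fun n => (x n).2.2.1,
      ((Conv.const c).mul hw).eq hw fun n => (x n).2.2.2.1,
      (hw.mul (Conv.const c)).eq hw fun n => (x n).2.2.2.2⟩, fun v hv => ?_⟩
    have hlim : Tendsto (fun n => √(sSup ((fun v : S => n2 v.1 ^ 2) '' C) - t n)) atTop (𝓝 0) := by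
      have := (ht.const_sub (sSup ((fun v : S => n2 v.1 ^ 2) '' C))).sqrt
      rwa [sub_self, Real.sqrt_zero] at this
    have hd : ∀ n, r (x n) v → n2 ((x n).1 - v.1) ≤ √(sSup ((fun v : S => n2 v.1 ^ 2) '' C) - t n) :=
      fun n h => Real.le_sqrt_of_sq_le (by
        rw [n2_sub_comm, hr _ _ h, ← hx]; linarith [le_csSup hb ⟨v, hv, rfl⟩])
    have hvn : ‖star v.1‖ ≤ 1 := by simpa using piso_norm v.2.1
    constructor
    · refine ((Conv.const (star v.1)).mul hw).unique ⟨((Conv.const (star v.1)).mul hw).1, ?_⟩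
      refine squeeze_zero (fun _ => n2_nonneg _) (fun n => ?_) hlim
      rcases hcmp _ hv _ (hxC n) with h | h
      · simp [h.1]
      · rw [← mul_sub]; exact (n2_mul_le_of_left hvn _).trans (hd n h)
    · refine (hw.mul (Conv.const (star v.1))).unique ⟨(hw.mul (Conv.const (star v.1))).1, ?_⟩
      refine squeeze_zero (fun _ => n2_nonneg _) (fun n => ?_) hlim
      rcases hcmp _ hv _ (hxC n) with h | h
      · simp [h.2]
      · rw [← sub_mul]; exact (n2_mul_le_of_right hvn _).trans (hd n h)
  have htr : ∀ {u v w}, r u v → r v w → r u w := fun {u v w} h h' => by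
    have hu := piso_eq u.2.1
    have h1 : star u.1 = star u.1 * u.1 * star u.1 := by simpa using (congrArg star hu).symm
    have h2 : star u.1 * u.1 = star v.1 * u.1 := by simpa using congrArg star h.1.symm
    have h3 : u.1 * star u.1 = u.1 * star v.1 := by simpa using congrArg star h.2.symm
    constructor
    · calc star u.1 * w.1 = star u.1 * (u.1 * star u.1) * w.1 := by rw [← mul_assoc, ← h1]
        _ = star u.1 * u.1 * (star v.1 * w.1) := by rw [h3]; noncomm_ring
        _ = star u.1 * (u.1 * star v.1) * v.1 := by rw [h'.1]; noncomm_ring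
        _ = _ := by rw [← h3, ← mul_assoc, ← h1, h.1]
    · calc w.1 * star u.1 = w.1 * (star u.1 * u.1) * star u.1 := by rw [mul_assoc, ← h1]
        _ = (w.1 * star v.1) * u.1 * star u.1 := by rw [h2]; noncomm_ring
        _ = v.1 * (star v.1 * u.1) * star u.1 := by rw [h'.2]; noncomm_ring
        _ = _ := by rw [← h2, mul_assoc, ← h1, h.2]
  obtain ⟨m, hm⟩ := exists_maximal_of_chains_bounded hch htr
  · obtain ⟨v, hv, hvv, hcv, hvc⟩ := m
    refine ⟨v, hv, hvv, ?_⟩
    by_contra hne
    have hcs := hc.isSelfAdjoint.star_eq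
    have hcv' : c * star v = star v := by simpa [hcs] using congrArg star hvc
    have hvv' : star v * star v = 0 := by simpa using congrArg star hvv
    have hv1 := piso_eq hv
    have hv2 : star v * (v * star v) = star v := by simpa [mul_assoc] using congrArg star hv1
    have hq : IsStarProjection (star v * v + v * star v) := hv.add (piso_star hv) (by
      rw [mul_assoc, ← mul_assoc v, hvv]; simp)
    have hcq : c * (star v * v + v * star v) = star v * v + v * star v := by
      rw [mul_add, ← mul_assoc, ← mul_assoc, hcv, hcv']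
    set q := c - (star v * v + v * star v) with hqd
    have hqp : IsStarProjection q := hq.sub_of_mul_eq_right hc hcq
    have hvq : v * q = 0 := by rw [hqd, mul_sub, mul_add, hv1, ← mul_assoc, hvv, hvc]; simp
    have hvc' : star v * c = star v := by simpa [hcs] using congrArg star hcv
    have hvq' : star v * q = 0 := by rw [hqd, mul_sub, mul_add, hv2, ← mul_assoc, hvv', hvc']; simp
    have hqv : q * v = 0 := by simpa [hqp.isSelfAdjoint.star_eq] using congrArg star hvq'
    have hqv' : q * star v = 0 := by simpa [hqp.isSelfAdjoint.star_eq] using congrArg star hvq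
    have hcq' : c * q = q := by rw [hqd, mul_sub, hcq, hc.isIdempotentElem.eq]
    have hqc : q * c = q := by simpa [hcs, hqp.isSelfAdjoint.star_eq] using congrArg star hcq'
    obtain ⟨e, he, hqe, he0, heq⟩ := exists_subproj hqp fun h => hne (sub_eq_zero.1 h).symm
    have he' := he.sub_of_mul_eq_right hqp hqe
    obtain ⟨w, hw0, hw, hw1, hw2⟩ := exists_piso he he' he0 (sub_ne_zero.2 heq.symm)
    have hqw : q * w = w := by rw [← hw1, ← mul_assoc, hqe]
    have hwq : w * q = w := by
      have : e * q = e := by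
        simpa [he.isSelfAdjoint.star_eq, hqp.isSelfAdjoint.star_eq] using congrArg star hqe
      rw [← hw2, mul_assoc, sub_mul, this, hqp.isIdempotentElem.eq]
    have hww : w * w = 0 := by
      rw [← hw2, mul_assoc, ← hw1, ← mul_assoc (q - e), ← mul_assoc (q - e), sub_mul, hqe,
        he.isIdempotentElem.eq]; simp
    have a1 : star v * w = 0 := by rw [← hqw, ← mul_assoc, hvq', zero_mul]
    have a2 : w * star v = 0 := by rw [← hwq, mul_assoc, hqv', mul_zero]
    have a3 : v * w = 0 := by rw [← hqw, ← mul_assoc, hvq, zero_mul]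
    have a4 : w * v = 0 := by rw [← hwq, mul_assoc, hqv, mul_zero]
    have a5 : star w * v = 0 := by simpa using congrArg star a1
    have a6 : v * star w = 0 := by simpa using congrArg star a2
    have := hm ⟨v + w, by
      rw [star_add, add_mul, mul_add, mul_add, a1, a5, add_zero, zero_add]
      exact hv.add hw (by rw [mul_assoc, ← mul_assoc v, a6]; simp),
      by simp [add_mul, mul_add, hvv, hww, a3, a4],
      by rw [mul_add, hcv, ← hqw, ← mul_assoc, hcq'],
      by rw [add_mul, hvc, ← hwq, mul_assoc, hqc]⟩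
      ⟨by simp [mul_add, a1], by simp [add_mul, a2]⟩
    have h1 := this.1
    simp only [star_add, add_mul, mul_add, a1, a5, add_zero, zero_add, left_eq_add] at h1
    exact hw0 ((CStarRing.star_mul_self_eq_zero_iff _).1 h1)

end Vale.Agent.P085
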