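import Mathlib

/-! C*-algebras with a faithful tracial state and the associated 2-norm. -/

namespace Vale.Agent.P085

open scoped ComplexConjugate InnerProductSpace
open Filter Topology

/-- a faithful tracial state -/
class TrA (A : Type*) [CStarAlgebra A] where
  tr : A →ₗ[ℂ] ℂ
  tr_one : tr 1 = 1
  tr_comm : ∀ x y, tr (x * y) = tr (y * x)
  tr_star : ∀ x, tr (star x) = conj (tr x)
  tr_pos : ∀ x, 0 ≤ (tr (star x * x)).re
  tr_faith : ∀ x, tr (star x * x) = 0 → x = 0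

export TrA (tr tr_one tr_comm tr_star tr_pos tr_faith)

/-- the algebra with its 2-norm -/
def L2 (A : Type*) := A

variable {A : Type*} [CStarAlgebra A] [TrA A]

instance : AddCommGroup (L2 A) := inferInstanceAs (AddCommGroup A)
noncomputable instance : Module ℂ (L2 A) := inferInstanceAs (Module ℂ A)

/-- identity map -/
noncomputable def toL2 : A ≃ₗ[ℂ] L2 A := LinearEquiv.refl ℂ A

@[instance_reducible] noncomputable def L2.core : InnerProductSpace.Core ℂ (L2 A) where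
  inner x y := tr (star (toL2.symm x) * toL2.symm y : A)
  conj_inner_symm x y := by rw [← tr_star]; simp
  re_inner_nonneg x := tr_pos _
  add_left x y z := by simp [add_mul]
  smul_left x y r := by simp
  definite x h := by simpa using tr_faith _ h

noncomputable instance : NormedAddCommGroup (L2 A) :=
  @InnerProductSpace.Core.toNormedAddCommGroup ℂ (L2 A) _ _ _ L2.core

noncomputable instance : InnerProductSpace ℂ (L2 A) := InnerProductSpace.ofCore L2.core.toCore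

lemma inner_toL2 (x y : A) : ⟪toL2 x, toL2 y⟫_ℂ = tr (star x * y) := rfl

/-- the 2-norm -/
noncomputable def n2 (x : A) : ℝ := ‖toL2 x‖

lemma n2_nonneg (x : A) : 0 ≤ n2 x := norm_nonneg _

lemma n2_sq (x : A) : n2 x ^ 2 = (tr (star x * x)).re := by
  rw [n2, ← inner_self_eq_norm_sq (𝕜 := ℂ), inner_toL2]; rfl

lemma tr_star_mul_self (x : A) : tr (star x * x) = (n2 x ^ 2 : ℝ) := by
  rw [n2, ← inner_toL2, inner_self_eq_norm_sq_to_K]; simp

lemma n2_eq_zero {x : A} : n2 x = 0 ↔ x = 0 := by simp [n2]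

@[simp] lemma n2_zero : n2 (0 : A) = 0 := n2_eq_zero.2 rfl

lemma n2_pos {x : A} (hx : x ≠ 0) : 0 < n2 x :=
  (n2_nonneg x).lt_of_ne' fun h => hx (n2_eq_zero.1 h)

lemma n2_add_le (x y : A) : n2 (x + y) ≤ n2 x + n2 y := by
  simp only [n2, map_add]; exact norm_add_le _ _

lemma n2_sub_le (x y : A) : n2 (x - y) ≤ n2 x + n2 y := by
  simp only [n2, map_sub]; exact norm_sub_le _ _

@[simp] lemma n2_neg (x : A) : n2 (-x) = n2 x := by simp [n2]

lemma n2_sub_comm (x y : A) : n2 (x - y) = n2 (y - x) := by rw [← n2_neg, neg_sub]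

lemma n2_triangle (x y z : A) : n2 (x - z) ≤ n2 (x - y) + n2 (y - z) := by
  simpa using n2_add_le (x - y) (y - z)

lemma n2_smul (c : ℂ) (x : A) : n2 (c • x) = ‖c‖ * n2 x := by simp [n2, norm_smul]

lemma n2_rsmul (c : ℝ) (x : A) : n2 (c • x) = |c| * n2 x := by
  rw [← Complex.coe_smul, n2_smul]; simp

lemma n2_sum_le {ι : Type*} (s : Finset ι) (f : ι → A) : n2 (∑ i ∈ s, f i) ≤ ∑ i ∈ s, n2 (f i) := by
  simp only [n2, map_sum]; exact norm_sum_le _ _

@[simp] lemma n2_star (x : A) : n2 (star x) = n2 x := by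
  rw [← sq_eq_sq₀ (n2_nonneg _) (n2_nonneg _), n2_sq, n2_sq, star_star, tr_comm]

lemma cs_star (x y : A) : ‖tr (star x * y)‖ ≤ n2 x * n2 y := by
  rw [← inner_toL2]; exact norm_inner_le_norm _ _

lemma cs (x y : A) : ‖tr (x * y)‖ ≤ n2 x * n2 y := by
  simpa using cs_star (star x) y

@[simp] lemma n2_one : n2 (1 : A) = 1 := by
  rw [← sq_eq_sq₀ (n2_nonneg _) zero_le_one, n2_sq]; simp [tr_one]

lemma norm_tr_le_n2 (x : A) : ‖tr x‖ ≤ n2 x := by simpa using cs 1 x

lemma n2_add_sq (x y : A) : n2 (x + y) ^ 2 = n2 x ^ 2 + 2 * (tr (star x * y)).re + n2 y ^ 2 := by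
  simp only [n2, map_add]
  rw [@norm_add_sq ℂ, inner_toL2]; rfl

lemma n2_sub_sq (x y : A) : n2 (x - y) ^ 2 = n2 x ^ 2 - 2 * (tr (star x * y)).re + n2 y ^ 2 := by
  simp only [n2, map_sub]
  rw [@norm_sub_sq ℂ, inner_toL2]; rfl

lemma n2_parallelogram (x y : A) :
    n2 (x + y) ^ 2 + n2 (x - y) ^ 2 = 2 * (n2 x ^ 2 + n2 y ^ 2) := by
  rw [n2_add_sq, n2_sub_sq]; ring

lemma n2_add_sq_le (x y : A) : n2 (x + y) ^ 2 ≤ 2 * n2 x ^ 2 + 2 * n2 y ^ 2 := by
  nlinarith [n2_parallelogram x y, sq_nonneg (n2 (x - y))]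

lemma tr_rsmul (c : ℝ) (x : A) : tr (c • x) = c * tr x := by
  rw [← Complex.coe_smul, map_smul, smul_eq_mul]

lemma tr_im_of_sa {x : A} (hx : IsSelfAdjoint x) : (tr x).im = 0 := by
  have := tr_star x
  rw [hx.star_eq] at this
  exact Complex.conj_eq_iff_im.1 this.symm

lemma tr_eq_re_of_sa {x : A} (hx : IsSelfAdjoint x) : tr x = ((tr x).re : ℂ) :=
  Complex.ext rfl (by simp [tr_im_of_sa hx])

lemma tr_mul_im_of_sa {x y : A} (hx : IsSelfAdjoint x) (hy : IsSelfAdjoint y) :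
    (tr (x * y)).im = 0 := by
  have := tr_star (x * y)
  rw [star_mul, hx.star_eq, hy.star_eq, tr_comm] at this
  exact Complex.conj_eq_iff_im.1 this.symm

lemma tr_cyc (x y z : A) : tr (x * y * z) = tr (z * x * y) := by
  rw [tr_comm, mul_assoc]

lemma nontrivial_of_tr : Nontrivial A := by
  refine nontrivial_of_ne 1 0 fun h => ?_
  have := tr_one (A := A)
  rw [h, map_zero] at this
  exact zero_ne_one this

lemma n2_proj {p : A} (hp : IsStarProjection p) : n2 p ^ 2 = (tr p).re := by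
  rw [n2_sq, hp.isSelfAdjoint.star_eq, hp.isIdempotentElem.eq]

lemma tr_proj_nonneg {p : A} (hp : IsStarProjection p) : 0 ≤ (tr p).re := by
  rw [← n2_proj hp]; positivity

lemma tr_proj_pos {p : A} (hp : IsStarProjection p) (h : p ≠ 0) : 0 < (tr p).re := by
  rw [← n2_proj hp]; exact pow_pos (n2_pos h) 2

lemma tr_proj_le_one {p : A} (hp : IsStarProjection p) : (tr p).re ≤ 1 := by
  have := tr_proj_nonneg hp.one_sub
  rw [map_sub, tr_one] at this
  simpa using this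

section Order
variable [PartialOrder A] [StarOrderedRing A]

lemma tr_nonneg {a : A} (ha : 0 ≤ a) : 0 ≤ (tr a).re := by
  have := tr_pos (CFC.sqrt a)
  rwa [(CFC.sqrt_nonneg a).isSelfAdjoint.star_eq, CFC.sqrt_mul_sqrt_self a] at this

lemma tr_mono {a b : A} (h : a ≤ b) : (tr a).re ≤ (tr b).re := by
  have := tr_nonneg (sub_nonneg.2 h)
  rw [map_sub, Complex.sub_re] at this
  linarith

lemma tr_mul_nonneg {a b : A} (ha : 0 ≤ a) (hb : 0 ≤ b) : 0 ≤ (tr (a * b)).re := by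
  have h := tr_nonneg ((CFC.sqrt_nonneg a).isSelfAdjoint.conjugate_nonneg hb)
  rwa [tr_cyc, CFC.sqrt_mul_sqrt_self a] at h

end Order

lemma n2_mul_le (a x : A) : n2 (a * x) ≤ ‖a‖ * n2 x := by
  let _ := CStarAlgebra.spectralOrder A
  have _ := CStarAlgebra.spectralOrderedRing A
  rw [← sq_le_sq₀ (n2_nonneg _) (mul_nonneg (norm_nonneg _) (n2_nonneg _)), mul_pow, n2_sq, n2_sq]
  have h := tr_mono (CStarAlgebra.star_left_conjugate_le_norm_smul (a := x) (b := star a * a))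
  rw [tr_rsmul, CStarRing.norm_star_mul_self] at h
  simpa [mul_assoc, sq] using h

lemma n2_mul_le' (x a : A) : n2 (x * a) ≤ n2 x * ‖a‖ := by
  rw [← n2_star, star_mul, mul_comm]
  simpa using n2_mul_le (star a) (star x)

lemma n2_le_norm (x : A) : n2 x ≤ ‖x‖ := by simpa using n2_mul_le x 1

lemma norm_tr_le (x : A) : ‖tr x‖ ≤ ‖x‖ := (norm_tr_le_n2 x).trans (n2_le_norm x)

lemma n2_mul_le_of_left {a : A} (ha : ‖a‖ ≤ 1) (x : A) : n2 (a * x) ≤ n2 x :=
  (n2_mul_le a x).trans (mul_le_of_le_one_left (n2_nonneg _) ha)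

lemma n2_mul_le_of_right {a : A} (ha : ‖a‖ ≤ 1) (x : A) : n2 (x * a) ≤ n2 x :=
  (n2_mul_le' x a).trans (mul_le_of_le_one_right (n2_nonneg _) ha)

lemma norm_unitary_le {u : A} (hu : u ∈ unitary A) : ‖u‖ ≤ 1 := by
  have := nontrivial_of_tr (A := A)
  exact (CStarRing.norm_of_mem_unitary hu).le

lemma norm_one_le' : ‖(1 : A)‖ ≤ 1 := norm_unitary_le (one_mem _)

lemma n2_unitary_mul {u : A} (hu : u ∈ unitary A) (x : A) : n2 (u * x) = n2 x := by
  rw [← sq_eq_sq₀ (n2_nonneg _) (n2_nonneg _), n2_sq, n2_sq, star_mul, mul_assoc,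
    ← mul_assoc (star u), hu.1, one_mul]

lemma n2_mul_unitary {u : A} (hu : u ∈ unitary A) (x : A) : n2 (x * u) = n2 x := by
  rw [← n2_star, star_mul, n2_unitary_mul (Unitary.star_mem hu), n2_star]

lemma n2_conj {u : A} (hu : u ∈ unitary A) (x : A) : n2 (u * x * star u) = n2 x := by
  rw [n2_mul_unitary (Unitary.star_mem hu), n2_unitary_mul hu]

lemma tr_conj {u : A} (hu : u ∈ unitary A) (x : A) : tr (u * x * star u) = tr x := by
  rw [tr_cyc, hu.1, one_mul]

lemma norm_tr_proj_mul_le {q : A} (hq : IsStarProjection q) (y : A) :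
    ‖tr (q * y)‖ ≤ ‖y‖ * (tr q).re := by
  have h : tr (q * y) = tr (q * (y * q)) := by
    rw [← mul_assoc, tr_cyc, hq.isIdempotentElem.eq]
  rw [h, ← n2_proj hq]
  refine (cs _ _).trans ?_
  nlinarith [n2_mul_le y q, n2_nonneg q]

end Vale.Agent.P085
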