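import Vale.Agent.P085.L2

/-! Bounded 2-norm limits, nearest points, Dixmier averaging, spectral projections. -/

namespace Vale.Agent.P085

open scoped ComplexConjugate InnerProductSpace
open Filter Topology

/-- abstract type II_1 factor -/
class Fac (A : Type*) [CStarAlgebra A] [TrA A] : Prop where
  complete : ∀ x : ℕ → A, (∀ n, ‖x n‖ ≤ 1) →
    (∀ ε > 0, ∃ N, ∀ m ≥ N, ∀ n ≥ N, n2 (x m - x n) < ε) →
    ∃ y, ‖y‖ ≤ 1 ∧ Tendsto (fun n => n2 (x n - y)) atTop (𝓝 0)
  center : ∀ z : A, (∀ x, z * x = x * z) → ∃ c : ℂ, z = c • 1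
  infdim : ¬ FiniteDimensional ℂ A

variable {A : Type*} [CStarAlgebra A] [TrA A]

/-- bounded convergence in 2-norm -/
def Conv (x : ℕ → A) (y : A) : Prop :=
  (∃ C, ∀ n, ‖x n‖ ≤ C) ∧ Tendsto (fun n => n2 (x n - y)) atTop (𝓝 0)

namespace Conv
variable {x x' : ℕ → A} {y y' : A}

lemma const (y : A) : Conv (fun _ => y) y := ⟨⟨‖y‖, fun _ => le_rfl⟩, by simp⟩

lemma add (h : Conv x y) (h' : Conv x' y') : Conv (fun n => x n + x' n) (y + y') := by
  obtain ⟨⟨C, hC⟩, h⟩ := h
  obtain ⟨⟨C', hC'⟩, h'⟩ := h'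
  refine ⟨⟨C + C', fun n => (norm_add_le _ _).trans (add_le_add (hC n) (hC' n))⟩, ?_⟩
  refine squeeze_zero (fun _ => n2_nonneg _) (fun n => ?_) (by simpa using h.add h')
  rw [add_sub_add_comm]
  exact n2_add_le _ _

lemma smul (c : ℂ) (h : Conv x y) : Conv (fun n => c • x n) (c • y) := by
  obtain ⟨⟨C, hC⟩, h⟩ := h
  refine ⟨⟨‖c‖ * C, fun n => by rw [norm_smul]; gcongr; exact hC n⟩, ?_⟩
  simpa only [← smul_sub, n2_smul, mul_zero] using h.const_mul ‖c‖

lemma sub (h : Conv x y) (h' : Conv x' y') : Conv (fun n => x n - x' n) (y - y') := by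
  simpa [sub_eq_add_neg] using h.add (h'.smul (-1))

lemma star (h : Conv x y) : Conv (fun n => star (x n)) (star y) := by
  obtain ⟨⟨C, hC⟩, h⟩ := h
  exact ⟨⟨C, by simpa using hC⟩, by simpa only [← star_sub, n2_star] using h⟩

lemma mul (h : Conv x y) (h' : Conv x' y') : Conv (fun n => x n * x' n) (y * y') := by
  obtain ⟨⟨C, hC⟩, h⟩ := h
  obtain ⟨⟨C', hC'⟩, h'⟩ := h'
  refine ⟨⟨C * C', fun n => (norm_mul_le _ _).trans
    (mul_le_mul (hC n) (hC' n) (norm_nonneg _) ((norm_nonneg _).trans (hC n)))⟩, ?_⟩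
  refine squeeze_zero (fun _ => n2_nonneg _) (fun n => ?_)
    (by simpa using (h'.const_mul C).add (h.mul_const ‖y'‖))
  have : x n * x' n - y * y' = x n * (x' n - y') + (x n - y) * y' := by noncomm_ring
  rw [this]
  refine (n2_add_le _ _).trans (add_le_add ((n2_mul_le _ _).trans ?_) (n2_mul_le' _ _))
  exact mul_le_mul_of_nonneg_right (hC n) (n2_nonneg _)

lemma tendsto (h : Conv x y) : Tendsto (fun n => toL2 (x n)) atTop (𝓝 (toL2 y)) :=
  tendsto_iff_norm_sub_tendsto_zero.2 h.2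

lemma unique (h : Conv x y) (h' : Conv x y') : y = y' :=
  toL2.injective (tendsto_nhds_unique h.tendsto h'.tendsto)

lemma eq (h : Conv x y) (h' : Conv x' y') (e : ∀ n, x n = x' n) : y = y' := by
  obtain rfl : x = x' := funext e
  exact h.unique h'

lemma n2 (h : Conv x y) : Tendsto (fun n => n2 (x n)) atTop (𝓝 (n2 y)) := h.tendsto.norm

lemma tr (h : Conv x y) : Tendsto (fun n => tr (x n)) atTop (𝓝 (tr y)) := by
  rw [tendsto_iff_norm_sub_tendsto_zero]
  refine squeeze_zero (fun _ => norm_nonneg _) (fun n => ?_) h.2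
  rw [← map_sub]; exact norm_tr_le_n2 _

lemma of_norm (h : Tendsto x atTop (𝓝 y)) : Conv x y := by
  obtain ⟨C, hC⟩ := h.norm.bddAbove_range
  exact ⟨⟨C, fun n => hC ⟨n, rfl⟩⟩, squeeze_zero (fun _ => n2_nonneg _) (fun _ => n2_le_norm _)
    (tendsto_iff_norm_sub_tendsto_zero.1 h)⟩

end Conv

/-- closed under bounded 2-norm limits -/
def CClosed (K : Set A) : Prop := ∀ (x : ℕ → A) (y : A), (∀ n, x n ∈ K) → Conv x y → y ∈ K

lemma CClosed.isClosed {K : Set A} (h : CClosed K) : IsClosed K :=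
  IsSeqClosed.isClosed fun x y hx hy => h x y hx (Conv.of_norm hy)

variable [Fac A]

lemma exists_conv {x : ℕ → A} {r : ℝ} (hx : ∀ n, ‖x n‖ ≤ r)
    (hc : ∀ ε > 0, ∃ N, ∀ m ≥ N, ∀ n ≥ N, n2 (x m - x n) < ε) : ∃ y, ‖y‖ ≤ r ∧ Conv x y := by
  rcases ((norm_nonneg _).trans (hx 0)).eq_or_lt with rfl | hr
  · obtain rfl : x = fun _ => 0 := funext fun n => norm_le_zero_iff.1 (hx n)
    exact ⟨0, by simp, Conv.const 0⟩
  obtain ⟨y, hy, h⟩ := Fac.complete (fun n => r⁻¹ • x n) (fun n => by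
    rw [norm_smul, Real.norm_of_nonneg (by positivity)]
    exact inv_mul_le_one_of_le₀ (hx n) hr.le) (fun ε hε => by
    obtain ⟨N, hN⟩ := hc (r * ε) (by positivity)
    refine ⟨N, fun m hm n hn => ?_⟩
    rw [← smul_sub, n2_rsmul, abs_of_pos (by positivity), inv_mul_lt_iff₀ hr]
    exact hN m hm n hn)
  refine ⟨r • y, ?_, ⟨r, hx⟩, ?_⟩
  · rw [norm_smul, Real.norm_of_nonneg hr.le]; exact mul_le_of_le_one_right hr.le hy
  · have := h.const_mul r
    rw [mul_zero] at this
    refine this.congr fun n => ?_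
    rw [← abs_of_pos hr, ← n2_rsmul, abs_of_pos hr, smul_sub, smul_inv_smul₀ hr.ne']

lemma Conv.norm_le {x : ℕ → A} {y : A} {r : ℝ} (h : Conv x y) (hx : ∀ n, ‖x n‖ ≤ r) :
    ‖y‖ ≤ r := by
  obtain ⟨y', hy', h'⟩ := exists_conv hx (Metric.cauchySeq_iff.1 h.tendsto.cauchySeq ·
    · |>.imp fun N hN m hm n hn => by simpa [dist_eq_norm, P085.n2] using hN m hm n hn)
  exact h.unique h' ▸ hy'

lemma exists_nearest {K : Set A} (hne : K.Nonempty) (hK : Convex ℝ K) (hc : CClosed K) {r : ℝ}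
    (hr : ∀ x ∈ K, ‖x‖ ≤ r) (y : A) : ∃ p ∈ K, ∀ q ∈ K, n2 (y - p) ≤ n2 (y - q) := by
  let _ := InnerProductSpace.rclikeToReal ℂ (L2 A)
  let K' : Set (L2 A) := K
  have hcomp : IsComplete K' := by
    rw [← completeSpace_coe_iff_isComplete]
    refine Metric.complete_of_cauchySeq_tendsto fun u hu => ?_
    obtain ⟨z, -, hz⟩ := exists_conv (x := fun n => toL2.symm (u n).1) (fun n => hr _ (u n).2)
      (Metric.cauchySeq_iff.1 hu · · |>.imp fun N hN m hm n hn => by
        simpa [Subtype.dist_eq, dist_eq_norm, n2] using hN m hm n hn)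
    exact ⟨⟨z, hc _ _ (fun n => (u n).2) hz⟩, tendsto_subtype_rng.2 hz.tendsto⟩
  obtain ⟨p, hp, h⟩ := exists_norm_eq_iInf_of_complete_convex (K := K') hne hcomp hK (toL2 y)
  refine ⟨p, hp, fun q hq => h.trans_le ?_⟩
  exact ciInf_le (f := fun w : K' => ‖toL2 y - w‖) ⟨0, by rintro _ ⟨w, rfl⟩; positivity⟩ ⟨q, hq⟩

omit [Fac A] in
lemma nearest_unique {K : Set A} (hK : Convex ℝ K) {y p p' : A} (hp : p ∈ K) (hp' : p' ∈ K)
    (h : ∀ q ∈ K, n2 (y - p) ≤ n2 (y - q)) (h' : n2 (y - p') ≤ n2 (y - p)) : p' = p := by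
  have h1 := h _ (hK hp hp' (a := 1 / 2) (b := 1 / 2) (by norm_num) (by norm_num) (by norm_num))
  have h2 := n2_parallelogram (y - p) (y - p')
  have h3 : y - p + (y - p') = (2 : ℝ) • (y - ((1 / 2 : ℝ) • p + (1 / 2 : ℝ) • p')) := by module
  rw [h3, n2_rsmul, show y - p - (y - p') = p' - p by abel, abs_two] at h2
  have h4 : n2 (p' - p) ^ 2 ≤ 0 := by
    nlinarith [n2_nonneg (y - p), n2_nonneg (y - p')]
  exact sub_eq_zero.1 (n2_eq_zero.1 (pow_eq_zero_iff two_ne_zero |>.1 (h4.antisymm (sq_nonneg _))))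

lemma dixmier {U : Set A} (hU : ∀ u ∈ U, u ∈ unitary A) (h1 : (1 : A) ∈ U)
    (hm : ∀ u ∈ U, ∀ v ∈ U, u * v ∈ U) (y : A) :
    ∃ y₀, (∀ u ∈ U, u * y₀ = y₀ * u) ∧
      ∀ C : Set A, Convex ℝ C → CClosed C → (∀ u ∈ U, u * y * star u ∈ C) → y₀ ∈ C := by
  let K : Set A := ⋂₀ {C | Convex ℝ C ∧ CClosed C ∧ ∀ u ∈ U, u * y * star u ∈ C}
  have hKo : ∀ u ∈ U, u * y * star u ∈ K := fun u hu C hC => hC.2.2 u hu
  have hK : Convex ℝ K := convex_sInter fun C hC => hC.1
  have hKc : CClosed K := fun x z hx hz C hC => hC.2.1 x z (fun n => hx n C hC) hz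
  obtain ⟨p, hp, h⟩ := exists_nearest ⟨_, hKo 1 h1⟩ hK hKc (r := ‖y‖) (fun x hx =>
    mem_closedBall_zero_iff.1 (hx (Metric.closedBall 0 ‖y‖) ⟨convex_closedBall _ _,
      fun x z hx hz => mem_closedBall_zero_iff.2
        (hz.norm_le fun n => mem_closedBall_zero_iff.1 (hx n)), fun u hu => by
      rw [mem_closedBall_zero_iff, CStarRing.norm_mul_mem_unitary _ (Unitary.star_mem (hU u hu)),
        CStarRing.norm_mem_unitary_mul _ (hU u hu)]⟩)) 0
  refine ⟨p, fun u hu => ?_, fun C h1 h2 h3 => hp C ⟨h1, h2, h3⟩⟩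
  have hup : u * p * star u ∈ K := by
    refine hp {w | u * w * star u ∈ K} ⟨?_, ?_, fun v hv => ?_⟩
    · intro a ha b hb s t hs ht hst
      simpa [mul_add, add_mul] using hK ha hb hs ht hst
    · exact fun x z hx hz => hKc _ _ hx (((Conv.const u).mul hz).mul (Conv.const _))
    · simpa [mul_assoc] using hKo _ (hm u hu v hv)
  have := nearest_unique hK hp hup h (by simp [n2_conj (hU u hu)])
  calc u * p = u * p * star u * u := by rw [mul_assoc _ (star u), (hU u hu).1, mul_one]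
    _ = p * u := by rw [this]

omit [Fac A] in
lemma convex_re_tr (a : A) (t : ℝ) : Convex ℝ {w : A | (tr (a * w)).re = t} := by
  intro x hx y hy r s _ _ hrs
  simp only [Set.mem_ofPred_eq, mul_add, mul_smul_comm, map_add, tr_rsmul, Complex.add_re,
    Complex.re_ofReal_mul] at *
  rw [hx, hy, ← add_mul, hrs, one_mul]

omit [Fac A] in
lemma cclosed_re_tr (a : A) (t : ℝ) : CClosed {w : A | (tr (a * w)).re = t} := fun _ _ hx hy =>
  tendsto_nhds_unique ((Complex.continuous_re.tendsto _).comp ((Conv.const a).mul hy).tr)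
    (tendsto_const_nhds.congr fun n => (hx n).symm)

omit [Fac A] in
lemma tr_eq_of_re {w y : A} (h1 : (tr (1 * w)).re = (tr y).re)
    (h2 : (tr ((Complex.I • 1) * w)).re = -(tr y).im) : tr w = tr y := by
  apply Complex.ext
  · simpa using h1
  · simpa using h2

lemma dix_tr (a y : A) (h : ∀ u ∈ unitary A, (tr (a * (u * y * star u))).re = 0) :
    (tr a * tr y).re = 0 := by
  obtain ⟨y₀, h1, h2⟩ := dixmier (U := unitary A) (fun _ h => h) (one_mem _)
    (fun _ hu _ hv => mul_mem hu hv) y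
  obtain ⟨c, rfl⟩ := Fac.center y₀ fun x => by
    obtain ⟨u, c, rfl, -⟩ := CStarAlgebra.exists_sum_four_unitary x
    simp [Finset.mul_sum, Finset.sum_mul, h1 _ (u _).2]
  have h3 := h2 _ (convex_re_tr a 0) (cclosed_re_tr a 0) h
  have h4 := tr_eq_of_re
    (h2 _ (convex_re_tr 1 _) (cclosed_re_tr 1 (tr y).re) fun u hu => by simp [tr_conj hu])
    (h2 _ (convex_re_tr _ _) (cclosed_re_tr (Complex.I • 1) (-(tr y).im)) fun u hu => by
      simp [tr_conj hu])
  simp only [map_smul, tr_one, smul_eq_mul, mul_one] at h4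
  simpa [h4, mul_comm] using h3

lemma prime {a b : A} (h : ∀ x, a * x * b = 0) : a = 0 ∨ b = 0 := by
  have := dix_tr (star a * a) (b * star b) fun u _ => by
    rw [show star a * a * (u * (b * star b) * star u) = star a * (a * u * b) * (star b * star u) by
      noncomm_ring, h]
    simp
  rw [tr_comm b, tr_star_mul_self, tr_star_mul_self, ← Complex.ofReal_mul, Complex.ofReal_re] at this
  simpa [n2_eq_zero] using this

lemma corner_center_sa {c k : A} (hc : IsStarProjection c) (hk : IsSelfAdjoint k) (h1 : c * k = k)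
    (h : ∀ x, k * (c * x * c) = c * x * c * k) (ht : tr k = 0) : k = 0 := by
  have hcs := hc.isSelfAdjoint
  have h2 : k * c = k := by simpa [hk.star_eq, hcs.star_eq] using congrArg star h1
  have hkk : IsSelfAdjoint (k * k) := by simp [IsSelfAdjoint, hk.star_eq]
  have := dix_tr (k + Complex.I • (k * k)) (k + Complex.I • c) fun u hu => by
    have e1 : tr (k * (u * k * star u)) = tr (k * k * (u * c * star u)) := by
      calc tr (k * (u * k * star u)) = tr ((k * c) * (u * (c * k) * star u)) := by rw [h1, h2]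
        _ = tr (k * (c * u * c * k) * star u) := by congr 1; noncomm_ring
        _ = tr (k * (k * (c * u * c)) * star u) := by rw [h]
        _ = tr (k * (k * c) * (u * c * star u)) := by congr 1; noncomm_ring
        _ = _ := by rw [h2]
    have s1 : IsSelfAdjoint (u * k * star u) := hk.conjugate u
    have s2 : IsSelfAdjoint (u * c * star u) := hcs.conjugate u
    have i1 := tr_mul_im_of_sa hk s2
    have i2 := tr_mul_im_of_sa hkk s1
    simp only [mul_add, add_mul, smul_mul_assoc, mul_smul_comm, map_add, map_smul, smul_eq_mul,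
      Complex.add_re, Complex.mul_re, Complex.I_re, Complex.I_im, Complex.mul_im, i1, i2, e1]
    ring
  have hk2 : tr (k * k) = (n2 k ^ 2 : ℝ) := by rw [← tr_star_mul_self, hk.star_eq]
  rw [map_add, map_add, map_smul, map_smul, ht, hk2, tr_eq_re_of_sa hcs] at this
  by_contra hk0
  have hc0 : c ≠ 0 := by rintro rfl; exact hk0 (by simpa using h1.symm)
  have h3 := mul_pos (pow_pos (n2_pos hk0) 2) (tr_proj_pos hc hc0)
  simp only [zero_add, smul_eq_mul, Complex.mul_re, Complex.I_re, Complex.ofReal_re, Complex.I_im,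
    Complex.ofReal_im, Complex.mul_im] at this
  linarith

lemma corner_center {c k : A} (hc : IsStarProjection c) (h1 : c * k = k) (h2 : k * c = k)
    (h : ∀ x, k * (c * x * c) = c * x * c * k) (ht : tr k = 0) : k = 0 := by
  have hcs := hc.isSelfAdjoint.star_eq
  have h1' : c * star k = star k := by simpa [hcs] using congrArg star h2
  have h' : ∀ x, star k * (c * x * c) = c * x * c * star k := fun x => by
    simpa [hcs, mul_assoc] using (congrArg star (h (star x))).symm
  have ht' : tr (star k) = 0 := by rw [tr_star, ht, map_zero]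
  have e1 := corner_center_sa (k := k + star k) hc (by simp [IsSelfAdjoint, add_comm])
    (by rw [mul_add, h1, h1']) (fun x => by rw [add_mul, mul_add, h, h']) (by simp [ht, ht'])
  have e2 := corner_center_sa (k := Complex.I • (k - star k)) hc
    (by simp [IsSelfAdjoint, ← smul_neg]) (by rw [mul_smul_comm, mul_sub, h1, h1'])
    (fun x => by rw [smul_mul_assoc, mul_smul_comm, sub_mul, mul_sub, h, h']) (by simp [ht, ht'])
  have e3 : k - star k = 0 := by simpa using e2
  have : (2 : ℂ) • k = 0 := by rw [two_smul]; linear_combination (norm := abel_nf) e1 + e3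
  simpa using this

end Vale.Agent.P085
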