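import Vale.Agent.P085.One
import Vale.Agent.P085.Defs

/-! The concrete theorem. -/

namespace Vale.Agent.P085

open scoped ComplexConjugate InnerProductSpace BigOperators
open Filter Topology ContinuousLinearMapWOT

variable {H : Type*} [NormedAddCommGroup H] [InnerProductSpace ℂ H] [CompleteSpace H]

lemma exists_wot_lim {α : Type*} (U : Ultrafilter α) {x : α → H →L[ℂ] H} {C : ℝ} (hC : 0 ≤ C)
    (hx : ∀ n, ‖x n‖ ≤ C) :
    ∃ y : H →L[ℂ] H, ‖y‖ ≤ C ∧ Tendsto (fun n => ofCLM (x n)) U (𝓝 (ofCLM y)) := by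
  have key : ∀ ξ : H, ∃ ζ : H, ‖ζ‖ ≤ C * ‖ξ‖ ∧
      ∀ η, Tendsto (fun n => ⟪x n ξ, η⟫_ℂ) U (𝓝 ⟪ζ, η⟫_ℂ) := fun ξ => by
    obtain ⟨_, ⟨g, hg, rfl⟩, h⟩ := (ContinuousLinearMap.isCompact_image_coe_closedBall
      (0 : StrongDual ℂ H) (C * ‖ξ‖)).ultrafilter_le_nhds' (U.map fun n => innerSL ℂ (x n ξ))
      (Ultrafilter.mem_map.2 (univ_mem' fun n => ⟨_, by
        simpa using (x n).le_of_opNorm_le (hx n) ξ, rfl⟩))
    exact ⟨(InnerProductSpace.toDual ℂ H).symm g, by simpa using hg, fun η => by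
      simpa using tendsto_pi_nhds.1 (show Tendsto (fun n => ⇑(innerSL ℂ (x n ξ))) U _ from h) η⟩
  choose y h1 h2 using key
  refine ⟨LinearMap.mkContinuous ⟨⟨y, fun a b => ext_inner_right ℂ fun η => ?_⟩,
    fun c a => ext_inner_right ℂ fun η => ?_⟩ C h1, LinearMap.mkContinuous_norm_le _ hC _,
    tendsto_iff_forall_inner_apply_tendsto.2 fun ξ η => ?_⟩
  · exact tendsto_nhds_unique (h2 _ η) (by simpa [inner_add_left] using (h2 a η).add (h2 b η))
  · exact tendsto_nhds_unique (h2 _ η) (by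
      simpa only [map_smul, inner_smul_left, RingHom.id_apply] using (h2 a η).const_mul _)
  · simpa [Function.comp_def] using (Complex.continuous_conj.tendsto _).comp (h2 ξ η)

omit [CompleteSpace H] in
lemma WOTClosed.mem {S : Set (H →L[ℂ] H)} (hS : WOTClosed S) {α : Type*} {l : Filter α} [l.NeBot]
    {x : α → H →L[ℂ] H} {y : H →L[ℂ] H} (hx : ∀ n, x n ∈ S)
    (h : Tendsto (fun n => ofCLM (x n)) l (𝓝 (ofCLM y))) : y ∈ S := by
  obtain ⟨z, hz, e⟩ := IsClosed.mem_of_tendsto hS h (.of_forall fun n => ⟨_, hx n, rfl⟩)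
  exact ofCLM_injective e ▸ hz

lemma wotClosed_vn (M : VonNeumannAlgebra H) : WOTClosed (M : Set (H →L[ℂ] H)) := by
  rw [WOTClosed]
  convert Set.isClosed_centralizer (ofCLM '' Set.centralizer (M : Set (H →L[ℂ] H))) using 1
  ext z
  obtain ⟨z, rfl⟩ := ofCLM_surjective z
  rw [ofCLM_injective.mem_set_image, Set.mem_centralizer_iff, Set.forall_mem_image]
  nth_rw 1 [← M.centralizer_centralizer]
  simp only [Set.mem_centralizer_iff (S := Set.centralizer _), ← ofCLM_mul, ofCLM_injective.eq_iff]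

instance (M : VonNeumannAlgebra H) : IsClosed (M.toStarSubalgebra : Set (H →L[ℂ] H)) :=
  M.centralizer_centralizer ▸ Set.isClosed_centralizer _

variable {M : VonNeumannAlgebra H} {τ : M.toStarSubalgebra →ₗ[ℂ] ℂ}

/-- the trace as an abstract trace -/
@[reducible] noncomputable def IsFaithfulNormalTrace.trA (h : IsFaithfulNormalTrace M τ) :
    TrA M.toStarSubalgebra where
  tr := τ
  tr_one := h.unital
  tr_comm := h.tracial
  tr_star x := by
    have h1 := (h.positive (1 + x)).2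
    have h2 := (h.positive (1 + Complex.I • x)).2
    have h3 := (h.positive x).2
    simp [add_mul, mul_add, h.unital, h3] at h1 h2
    apply Complex.ext <;> simp <;> linarith
  tr_pos x := (h.positive x).1
  tr_faith := h.faithful

lemma IsFaithfulNormalTrace.tendsto (h : IsFaithfulNormalTrace M τ) {α : Type*} {l : Filter α}
    {x : α → M.toStarSubalgebra} {y : M.toStarSubalgebra} {C : ℝ} (hx : ∀ n, ‖x n‖ ≤ C)
    (hy : ‖y‖ ≤ C) (hl : Tendsto (fun n => ofCLM (x n).1) l (𝓝 (ofCLM y.1))) :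
    Tendsto (fun n => τ (x n)) l (𝓝 (τ y)) := by
  have hC : 0 < C + 1 := by linarith [norm_nonneg y]
  have h1 : ∀ z : M.toStarSubalgebra, ‖z‖ ≤ C → ‖(((C + 1)⁻¹ : ℝ) : ℂ) • z‖ ≤ 1 := fun z hz => by
    rw [norm_smul, Complex.norm_real, Real.norm_of_nonneg (by positivity)]
    exact inv_mul_le_one_of_le₀ (by linarith) hC.le
  have := (h.normal (l.map fun n => (((C + 1)⁻¹ : ℝ) : ℂ) • x n) _
    (eventually_map.2 (.of_forall fun n => h1 _ (hx n))) (h1 y hy)
    (tendsto_map'_iff.2 (hl.const_smul (((C + 1)⁻¹ : ℝ) : ℂ)))).const_mul ((C + 1 : ℝ) : ℂ)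
  have e : ((C + 1 : ℝ) : ℂ) * (((C + 1)⁻¹ : ℝ) : ℂ) = 1 := by
    rw [← Complex.ofReal_mul, mul_inv_cancel₀ hC.ne', Complex.ofReal_one]
  simpa only [tendsto_map'_iff, Function.comp_def, map_smul, smul_eq_mul, ← mul_assoc, e,
    one_mul] using this

lemma IsFaithfulNormalTrace.lim (h : IsFaithfulNormalTrace M τ) {x : ℕ → M.toStarSubalgebra}
    {C : ℝ} (hx : ∀ n, ‖x n‖ ≤ C) :
    letI := h.trA
    (∀ ε > 0, ∃ N, ∀ m ≥ N, ∀ n ≥ N, n2 (x m - x n) < ε) → ∃ y : M.toStarSubalgebra, ‖y‖ ≤ C ∧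
      Tendsto (fun n => n2 (x n - y)) atTop (𝓝 0) ∧
        ∀ S, WOTClosed S → (∀ n, (x n).1 ∈ S) → y.1 ∈ S := by
  let := h.trA
  intro hc
  obtain ⟨y, hy, hl⟩ := exists_wot_lim (Ultrafilter.of atTop) (x := fun n => (x n).1)
    ((norm_nonneg _).trans (hx 0)) hx
  let y' : M.toStarSubalgebra := ⟨y, (wotClosed_vn M).mem (fun n => (x n).2) hl⟩
  refine ⟨y', hy, Metric.tendsto_atTop.2 fun ε hε => ?_, fun S hS hx => hS.mem hx hl⟩
  obtain ⟨N, hN⟩ := hc _ (half_pos hε)
  refine ⟨N, fun m hm => ?_⟩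
  have h1 : ∀ z : M.toStarSubalgebra, ‖z‖ ≤ C →
      ‖star (x m - y') * (x m - z)‖ ≤ ‖star (x m - y')‖ * (C + C) := fun z hz =>
    (norm_mul_le _ _).trans (mul_le_mul_of_nonneg_left (norm_sub_le_of_le (hx m) hz)
      (norm_nonneg _))
  have h2 := h.tendsto (fun n => h1 _ (hx n)) (h1 y' hy)
    ((hl.const_sub (ofCLM (x m).1)).const_mul (ofCLM (star (x m - y')).1))
  have h3 := le_of_tendsto h2.norm (b := n2 (x m - y') * (ε / 2))
    (((eventually_ge_atTop N).filter_mono (Ultrafilter.of_le _)).mono fun n hn => (cs_star _ _).trans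
      (mul_le_mul_of_nonneg_left (hN m hm n hn).le (n2_nonneg _)))
  have h4 := (n2_sq (x m - y')).trans_le ((Complex.re_le_norm _).trans h3)
  rw [Real.dist_0_eq_abs, abs_of_nonneg (n2_nonneg _)]
  by_contra h5
  nlinarith

lemma IsFaithfulNormalTrace.sep [TopologicalSpace.SeparableSpace H]
    (h : IsFaithfulNormalTrace M τ) :
    letI := h.trA
    TopologicalSpace.SeparableSpace (L2 M.toStarSubalgebra) := by
  let := h.trA
  have : Nonempty H := ⟨0⟩
  have := UniformSpace.secondCountable_of_separable H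
  have key : ∀ C : ℕ, TopologicalSpace.IsSeparable
      (Set.range fun x : {x : M.toStarSubalgebra // ‖x‖ ≤ C} => toL2 x.1) := fun C => by
    let φ := fun (x : {x : M.toStarSubalgebra // ‖x‖ ≤ C}) (k : ℕ) =>
      x.1.1 (TopologicalSpace.denseSeq H k)
    let : TopologicalSpace {x : M.toStarSubalgebra // ‖x‖ ≤ C} := .induced φ inferInstance
    have := TopologicalSpace.secondCountableTopology_induced _ _ φ
    refine TopologicalSpace.isSeparable_range (continuous_iff_continuousAt.2 fun y => ?_)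
    have h1 : ∀ x : {x : M.toStarSubalgebra // ‖x‖ ≤ C}, ‖x.1 - y.1‖ ≤ C + C := fun x =>
      norm_sub_le_of_le x.2 y.2
    have h2 : ∀ ξ, Tendsto (fun x => (x.1 - y.1).1 ξ) (𝓝 y) (𝓝 0) := fun ξ => by
      refine NormedAddGroup.tendsto_nhds_zero.2 fun ε hε => ?_
      obtain ⟨k, hk⟩ := (TopologicalSpace.denseRange_denseSeq H).exists_dist_lt ξ
        (show 0 < ε / 2 / (C + C + 1) by positivity)
      filter_upwards [Metric.tendsto_nhds.1 (tendsto_pi_nhds.1
        ((continuous_induced_dom (f := φ)).tendsto y) k) _ (half_pos hε)] with x hx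
      rw [dist_eq_norm] at hk hx
      rw [lt_div_iff₀ (by positivity)] at hk
      have h3 := (x.1 - y.1).1.le_of_opNorm_le (h1 x) (ξ - TopologicalSpace.denseSeq H k)
      have h4 := norm_le_norm_add_norm_sub' ((x.1 - y.1).1 ξ)
        ((x.1 - y.1).1 (TopologicalSpace.denseSeq H k))
      rw [← map_sub] at h4
      change ‖(x.1 - y.1).1 (TopologicalSpace.denseSeq H k)‖ < _ at hx
      nlinarith [norm_nonneg (ξ - TopologicalSpace.denseSeq H k)]
    have h3 := h.tendsto (l := 𝓝 y) (x := fun x => star (x.1 - y.1) * (x.1 - y.1)) (y := 0)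
      (C := (C + C) * (C + C)) (fun x => (norm_mul_le _ _).trans (mul_le_mul
        (by simpa only [norm_star] using h1 x) (h1 x) (norm_nonneg _) (by positivity)))
      (by simp only [norm_zero]; positivity) (tendsto_iff_forall_inner_apply_tendsto.2 fun ξ η => by
        have := (h2 η).inner (𝕜 := ℂ) (h2 ξ)
        simp only [← ContinuousLinearMap.adjoint_inner_right, inner_zero_right] at this
        change Tendsto _ _ (𝓝 ⟪η, 0⟫_ℂ)
        exact (inner_zero_right (𝕜 := ℂ) η).symm ▸ this)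
    refine tendsto_iff_norm_sub_tendsto_zero.2 ?_
    have h4 := ((Complex.continuous_re.tendsto _).comp h3).sqrt
    simp only [map_zero, Complex.zero_re, Real.sqrt_zero] at h4
    exact h4.congr fun x => (congrArg _ (n2_sq (x.1 - y.1)).symm).trans
      (Real.sqrt_sq (n2_nonneg _))
  refine TopologicalSpace.isSeparable_univ_iff.1 ((TopologicalSpace.IsSeparable.iUnion key).mono
    fun x _ => Set.mem_iUnion.2 ⟨⌈‖toL2.symm x‖⌉₊, ⟨_, Nat.le_ceil _⟩, rfl⟩)

theorem main [TopologicalSpace.SeparableSpace H] (hM : IsII1Factor M) : ∃ x : H →L[ℂ] H,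
    IsLeast {P : StarSubalgebra ℂ (H →L[ℂ] H) | WOTClosed (P : Set (H →L[ℂ] H)) ∧ x ∈ P}
      M.toStarSubalgebra := by
  obtain ⟨τ, h⟩ := hM.trace
  let := h.trA
  have := h.sep
  have : Fac M.toStarSubalgebra := ⟨fun x hx hc => (h.lim hx hc).imp fun y hy => ⟨hy.1, hy.2.1⟩,
    fun z hz => (hM.factor z.1 z.2 fun x hx => congrArg Subtype.val (hz ⟨x, hx⟩)).imp
      fun c hc => Subtype.ext hc, hM.infinite⟩
  obtain ⟨x, hx⟩ := gen_one (A := M.toStarSubalgebra)
  refine ⟨x, ⟨wotClosed_vn M, x.2⟩, fun P hP y hy =>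
    hx (P.comap M.toStarSubalgebra.subtype) (fun z w hz hw => ?_) hP.2 ⟨y, hy⟩⟩
  obtain ⟨C, hC⟩ := hw.1
  obtain ⟨w', -, h1, h2⟩ := h.lim hC (Metric.cauchySeq_iff.1 hw.tendsto.cauchySeq ·
    · |>.imp fun N hN m hm n hn => by simpa [dist_eq_norm, n2] using hN m hm n hn)
  exact hw.unique ⟨hw.1, h1⟩ ▸ h2 P hP.1 hz

end Vale.Agent.P085
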