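import Vale.Agent.P085.Gen

/-! One generator. -/

namespace Vale.Agent.P085

open scoped ComplexConjugate InnerProductSpace BigOperators
open Filter Topology Finset Function

variable {A : Type*} [CStarAlgebra A]

/-- relative commutant of `v` and its adjoint -/
def cm (v : A) : StarSubalgebra ℂ A := StarSubalgebra.centralizer ℂ {v}

lemma mem_cm {v n : A} : n ∈ cm v ↔ v * n = n * v ∧ star v * n = n * star v := by
  simp [cm, StarSubalgebra.mem_centralizer_iff]

instance (v : A) : IsClosed (cm v : Set A) := Set.isClosed_centralizer _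

lemma m2_rules {v : A} (h0 : v * v = 0) (h1 : star v * v + v * star v = 1) :
    star v * star v = 0 ∧ v * (star v * v) = v ∧ star v * (v * star v) = star v ∧
    (∀ y, v * (v * y) = 0) ∧ (∀ y, star v * (star v * y) = 0) ∧
    (∀ y, v * (star v * (v * y)) = v * y) ∧ ∀ y, star v * (v * (star v * y)) = star v * y := by
  have a1 : star v * star v = 0 := by simpa using congrArg star h0
  have a2 : v * (star v * v) = v := by
    simpa [mul_add, ← mul_assoc, h0] using congrArg (v * ·) h1
  have a3 : star v * (v * star v) = star v := by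
    simpa [mul_add, ← mul_assoc, a1] using congrArg (star v * ·) h1
  refine ⟨a1, a2, a3, fun y => by rw [← mul_assoc, h0, zero_mul],
    fun y => by rw [← mul_assoc, a1, zero_mul], fun y => ?_, fun y => ?_⟩
  · rw [← mul_assoc (star v), ← mul_assoc, a2]
  · rw [← mul_assoc v, ← mul_assoc, a3]

lemma m2_decomp {v : A} (h0 : v * v = 0) (h1 : star v * v + v * star v = 1) (y : A) :
    ∃ a b c d : cm v, y = a * (star v * v) + b * star v + v * c + v * d * star v := by
  obtain ⟨a1, a2, a3, a4, a5, a6, a7⟩ := m2_rules h0 h1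
  have : ∀ y, star v * v * y * (star v * v) + v * y * star v ∈ cm v := fun y => by
    simp [mem_cm, mul_add, add_mul, mul_assoc, *]
  refine ⟨⟨_, this y⟩, ⟨_, this (y * v)⟩, ⟨_, this (star v * y)⟩, ⟨_, this (star v * y * v)⟩, ?_⟩
  calc y = (star v * v + v * star v) * y * (star v * v + v * star v) := by simp [h1]
    _ = _ := by
      clear h1
      simp [mul_add, add_mul, mul_assoc, *]
      abel

lemma m2_top {v : A} (h0 : v * v = 0) (h1 : star v * v + v * star v = 1) {P : Subalgebra ℂ A}
    (h : ∀ n : cm v, n.1 ∈ P) (hv : v ∈ P) (hv' : star v ∈ P) (y : A) : y ∈ P := by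
  obtain ⟨a, b, c, d, rfl⟩ := m2_decomp h0 h1 y
  exact add_mem (add_mem (add_mem (mul_mem (h a) (mul_mem hv' hv)) (mul_mem (h b) hv'))
    (mul_mem hv (h c))) (mul_mem (mul_mem hv (h d)) hv')

lemma m2_split {v : A} (h0 : v * v = 0) (h1 : star v * v + v * star v = 1)
    {P : StarSubalgebra ℂ A} (hv : v ∈ P) {a b : cm v}
    (h : a * (star v * v) + b * (v * star v) ∈ P) : a.1 ∈ P ∧ b.1 ∈ P := by
  obtain ⟨a1, a2, a3, a4, a5, a6, a7⟩ := m2_rules h0 h1
  have hv' := star_mem hv
  have e : ∀ (n : cm v) (y), v * (n * y) = n * (v * y) ∧ star v * (n * y) = n * (star v * y) :=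
    fun n y => by simp only [← mul_assoc, (mem_cm.1 n.2).1, (mem_cm.1 n.2).2, and_self]
  constructor
  · convert add_mem (mul_mem h (mul_mem hv' hv)) (mul_mem hv (mul_mem h hv')) using 1
    simp only [add_mul, mul_assoc, *, mul_zero, add_zero]
    rw [← mul_add, h1, mul_one]
  · convert add_mem (mul_mem hv' (mul_mem h hv)) (mul_mem h (mul_mem hv hv')) using 1
    simp only [add_mul, mul_assoc, *, mul_zero, zero_add]
    rw [← mul_add, h1, mul_one]

variable [TrA A]

noncomputable instance (v : A) : TrA (cm v) where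
  tr := tr ∘ₗ (cm v).subtype.toLinearMap
  tr_one := tr_one
  tr_comm x y := tr_comm x.1 y.1
  tr_star x := tr_star x.1
  tr_pos x := tr_pos x.1
  tr_faith x h := Subtype.ext (tr_faith x.1 h)

lemma n2_cm {v : A} (x : cm v) : n2 x = n2 x.1 := by
  rw [← sq_eq_sq₀ (n2_nonneg _) (n2_nonneg _), n2_sq, n2_sq]; rfl

lemma sep_cm [TopologicalSpace.SeparableSpace (L2 A)] (v : A) :
    TopologicalSpace.SeparableSpace (L2 (cm v)) := by
  have := UniformSpace.secondCountable_of_separable (L2 A)
  have := (Isometry.of_dist_eq (f := fun x : L2 (cm v) => toL2 (toL2.symm x).1) fun x y => by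
    rw [dist_eq_norm, dist_eq_norm]
    exact (n2_cm (toL2.symm x - toL2.symm y)).symm).isEmbedding.secondCountableTopology
  infer_instance

lemma fac_cm [Fac A] {v : A} (h0 : v * v = 0) (h1 : star v * v + v * star v = 1) : Fac (cm v) where
  complete x hx hc := by
    obtain ⟨y, hy, h⟩ := exists_conv (x := fun n => (x n).1) hx (by simp only [n2_cm] at hc; exact hc)
    refine ⟨⟨y, mem_cm.2 ⟨((Conv.const _).mul h).eq (h.mul (.const _)) fun n => (mem_cm.1 (x n).2).1,
      ((Conv.const _).mul h).eq (h.mul (.const _)) fun n => (mem_cm.1 (x n).2).2⟩⟩, hy, ?_⟩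
    simp only [n2_cm]
    exact h.2
  center z hz := by
    obtain ⟨c, hc⟩ := Fac.center z.1 fun x => ((Subalgebra.mem_centralizer_iff ℂ).1
      (m2_top h0 h1 (P := Subalgebra.centralizer ℂ {z.1}) (fun n => by
        simpa [Subalgebra.mem_centralizer_iff] using congrArg Subtype.val (hz n))
        (by simpa [Subalgebra.mem_centralizer_iff] using (mem_cm.1 z.2).1.symm)
        (by simpa [Subalgebra.mem_centralizer_iff] using (mem_cm.1 z.2).2.symm) x) _ rfl)
    exact ⟨c, Subtype.ext hc⟩
  infdim h := by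
    let j := (cm v).subtype.toLinearMap
    refine Fac.infdim (A := A) (Module.Finite.of_surjective
      ((((LinearMap.mulRight ℂ (star v * v) ∘ₗ j).coprod (LinearMap.mulRight ℂ (star v) ∘ₗ j)).coprod
        (LinearMap.mulLeft ℂ v ∘ₗ j)).coprod
        (LinearMap.mulRight ℂ (star v) ∘ₗ LinearMap.mulLeft ℂ v ∘ₗ j)) fun y => ?_)
    obtain ⟨a, b, c, d, rfl⟩ := m2_decomp h0 h1 y
    exact ⟨(((a, b), c), d), rfl⟩

theorem gen_one [Fac A] [TopologicalSpace.SeparableSpace (L2 A)] :
    ∃ x : A, ∀ P : StarSubalgebra ℂ A, CClosed (P : Set A) → x ∈ P → ∀ y, y ∈ P := by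
  obtain ⟨v, hv, h0, h1⟩ := exists_half (.one A)
  have := fac_cm h0 h1
  have := sep_cm v
  obtain ⟨a, a', u, b1, b2, b3, b4, h⟩ := gen_three (A := cm v)
  obtain ⟨a1, a2, a3, a4, a5, a6, a7⟩ := m2_rules h0 h1
  have e : ∀ (n : cm v) (y), v * (n * y) = n * (v * y) ∧ star v * (n * y) = n * (star v * y) :=
    fun n y => by simp only [← mul_assoc, (mem_cm.1 n.2).1, (mem_cm.1 n.2).2, and_self]
  have e' : ∀ n : cm v, v * n = n * v ∧ star v * n = n * star v := fun n => mem_cm.1 n.2
  have sa : ∀ c d : cm v, IsSelfAdjoint c → IsSelfAdjoint d →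
      IsSelfAdjoint (c * (star v * v) + d * (v * star v)) := fun c d hc hd => by
    have hc' : star c.1 = c := congrArg Subtype.val hc
    have hd' : star d.1 = d := congrArg Subtype.val hd
    simp only [IsSelfAdjoint, star_add, star_mul, star_star, hc', hd', mul_assoc, e, e']
  set s := star v * v - v * star v with hs
  set r := (1 / 8 : ℝ) • (a * (star v * v) + a' * (v * star v)) with hr
  set b := v + star v + ((realPart u).1 * (star v * v) + (imaginaryPart u).1 * (v * star v)) with hb
  have s1 : IsSelfAdjoint s := by simp [hs, IsSelfAdjoint]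
  have s2 : s * s = 1 := by
    simp only [mul_sub, sub_mul, mul_assoc, *, mul_zero]
    rw [← h1]; abel
  have r1 : IsSelfAdjoint r := (IsSelfAdjoint.all _).smul (sa _ _ b1 b3)
  have r2 : IsSelfAdjoint b := (IsSelfAdjoint.add_star_self v).add
    (sa _ _ (realPart u).2 (imaginaryPart u).2)
  refine ⟨s + r + Complex.I • b, fun P hP hx => ?_⟩
  have hx' := star_mem hx
  rw [star_add, star_smul, (s1.add r1).star_eq, r2.star_eq] at hx'
  have c1 : s + r ∈ P := by
    convert P.smul_mem (add_mem hx hx') (1 / 2) using 1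
    simp only [RCLike.star_def, Complex.conj_I]
    module
  have c2 : b ∈ P := by
    simpa [smul_smul] using P.smul_mem (sub_mem hx c1) (-Complex.I)
  have c3 : s ∈ P := sign_mem (P := P.toSubalgebra) hP.isClosed s2
    (norm_unitary_le ⟨by rw [s1.star_eq, s2], by rw [s1.star_eq, s2]⟩)
    (Commute.smul_right (by
      simp only [Commute, SemiconjBy, mul_sub, sub_mul, mul_add, add_mul, mul_assoc, *, mul_zero]
      abel) _) (by
      have t1 := mul_le_mul b2 hv.norm_le (norm_nonneg _) zero_le_two
      have t2 := mul_le_mul b4 (piso_star hv).norm_le (norm_nonneg _) zero_le_two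
      have t3 := norm_add_le_of_le ((norm_mul_le a.1 _).trans t1) ((norm_mul_le a'.1 _).trans t2)
      rw [norm_smul]; norm_num; linarith) c1
  have c4 : star v * v ∈ P := by
    convert P.smul_mem (add_mem (h1 ▸ one_mem P) c3) (1 / 2) using 1
    rw [hs]; module
  have c5 : v * star v ∈ P := by simpa [hs] using sub_mem c4 c3
  have c6 : v ∈ P := by
    convert mul_mem c5 (mul_mem c2 c4) using 1
    simp only [mul_add, add_mul, mul_assoc, *, mul_zero, add_zero]
  have c7 := m2_split h0 h1 c6 (a := a) (b := a') (by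
    simpa [hr, smul_smul] using rsmul_mem (P := P.toSubalgebra) (sub_mem c1 c3) 8)
  have c8 := m2_split h0 h1 c6 (by simpa [hb] using sub_mem c2 (add_mem c6 (star_mem c6)))
  refine m2_top h0 h1 (P := P.toSubalgebra) (h (P.comap (cm v).subtype) (fun x y hx hy =>
    hP (fun n => (x n).1) y.1 hx ⟨hy.1, by
      have := hy.2; simp only [n2_cm] at this; exact this⟩) c7.1 c7.2 ?_) c6 (star_mem (s := P) c6)
  rw [← realPart_add_I_smul_imaginaryPart u]
  exact add_mem c8.1 (SMulMemClass.smul_mem _ c8.2)

end Vale.Agent.P085
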