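import Vale.Agent.P085.Fam

/-! Random signs and partitions in general position. -/

namespace Vale.Agent.P085

open scoped ComplexConjugate InnerProductSpace BigOperators
open Filter Topology Finset

/-- sign -/
def sg (b : Bool) : ℝ := if b then 1 else -1

@[simp] lemma sg_not (b : Bool) : sg (!b) = -sg b := by cases b <;> simp [sg]
@[simp] lemma sg_mul_self (b : Bool) : sg b * sg b = 1 := by cases b <;> simp [sg]
@[simp] lemma abs_sg (b : Bool) : |sg b| = 1 := by cases b <;> simp [sg]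

/-- flip one coordinate -/
def flp {ι : Type*} [DecidableEq ι] (i : ι) (ω : ι → Bool) : ι → Bool :=
  Function.update ω i (!ω i)

lemma expect_flp {ι : Type*} [Fintype ι] [DecidableEq ι] (i : ι) (F : (ι → Bool) → ℝ) :
    𝔼 ω, F (flp i ω) = 𝔼 ω, F ω :=
  Fintype.expect_equiv (Function.Involutive.toPerm (flp i) fun ω => by simp [flp]) _ _
    fun _ => rfl

lemma expect_sg_mul {ι : Type*} [Fintype ι] [DecidableEq ι] (i j : ι) :
    𝔼 ω : ι → Bool, sg (ω i) * sg (ω j) = if i = j then 1 else 0 := by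
  split_ifs with h
  · simp [h]
  · have := expect_flp i fun ω => sg (ω i) * sg (ω j)
    simp only [flp, Function.update_self, sg_not, Function.update_of_ne (Ne.symm h), neg_mul,
      expect_neg_distrib] at this
    linarith

lemma expect_sign_norm_sq {ι : Type*} [Fintype ι] [DecidableEq ι] {E : Type*}
    [NormedAddCommGroup E] [InnerProductSpace ℂ E] (v : ι → E) :
    𝔼 ω : ι → Bool, ‖∑ i, (sg (ω i) : ℂ) • v i‖ ^ 2 = ∑ i, ‖v i‖ ^ 2 := by
  have : ∀ ω : ι → Bool, ‖∑ i, (sg (ω i) : ℂ) • v i‖ ^ 2 =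
      ∑ i, ∑ j, sg (ω i) * sg (ω j) * (⟪v i, v j⟫_ℂ).re := fun ω => by
    rw [← inner_self_eq_norm_sq (𝕜 := ℂ), sum_inner]
    simp only [inner_sum, inner_smul_left, inner_smul_right, Complex.conj_ofReal, map_sum,
      RCLike.re_to_complex, Complex.re_ofReal_mul, mul_assoc, mul_left_comm]
  simp only [this, expect_sum_comm, ← expect_mul, expect_sg_mul]
  simp [← inner_self_eq_norm_sq (𝕜 := ℂ)]

variable {A : Type*} [CStarAlgebra A]

/-- random symmetry -/
noncomputable def Fam.sym (P : Fam A) (ω : P.ι → Bool) : A := P.comb fun i => sg (ω i)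

lemma Fam.star_sym (P : Fam A) (ω) : star (P.sym ω) = P.sym ω := by simp [sym, star_comb]

lemma Fam.sym_sym (P : Fam A) (ω) : P.sym ω * P.sym ω = P.tot := by
  simp [sym, comb_mul, ← Complex.ofReal_mul, comb_one]

lemma Fam.norm_sym (P : Fam A) (ω) : ‖P.sym ω‖ ≤ 1 := P.norm_comb_le fun _ => by simp

lemma Fam.tot_sym (P : Fam A) (ω) : P.tot * P.sym ω = P.sym ω := by
  simp [sym, comb, mul_sum, tot_mul]

variable [TrA A]

lemma Fam.expect_tr_sym (P : Fam A) {μ : ℝ} (h : P.Mesh μ) (hμ : 0 ≤ μ) (y : A) :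
    𝔼 ω, ‖tr (P.sym ω * y)‖ ^ 2 ≤ ‖y‖ ^ 2 * μ := by
  have := expect_sign_norm_sq fun i => tr (P.q i * y)
  simp only [sym, comb, sum_mul, map_sum, smul_mul_assoc, map_smul]
  rw [this]
  calc _ ≤ ∑ i, ‖y‖ ^ 2 * μ * (tr (P.q i)).re := sum_le_sum fun i _ => by
        refine (pow_le_pow_left₀ (norm_nonneg _) (norm_tr_proj_mul_le (P.proj i) y) 2).trans ?_
        rw [mul_pow, mul_assoc, sq (tr _).re]
        gcongr
        exacts [tr_proj_nonneg (P.proj i), h i]
    _ ≤ _ := by rw [← mul_sum]; exact mul_le_of_le_one_right (by positivity) P.sum_tr_le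

lemma n2_comm_proj {p : A} (hp : IsStarProjection p) (y : A) :
    n2 (p * y - y * p) ^ 2 = n2 (p * y) ^ 2 + n2 (y * p) ^ 2 - 2 * n2 (p * y * p) ^ 2 := by
  have h := hp.isIdempotentElem.eq
  rw [n2_sub_sq, n2_sq (p * y * p)]
  simp only [star_mul, hp.isSelfAdjoint.star_eq]
  rw [show p * (star y * p) * (p * y * p) = p * (star y * (p * p) * (y * p)) by noncomm_ring, h,
    tr_comm p, show star y * p * (y * p) * p = star y * p * (y * (p * p)) by noncomm_ring, h]
  ring

lemma Fam.expect_comm_sym (P : Fam A) {y : A} (h1 : P.tot * y = y) (h2 : y * P.tot = y) :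
    𝔼 ω, n2 (P.sym ω * y - y * P.sym ω) ^ 2 = 2 * n2 y ^ 2 - 2 * P.pin y := by
  have := expect_sign_norm_sq fun i => toL2 (P.q i * y - y * P.q i)
  have e : ∀ ω, P.sym ω * y - y * P.sym ω = ∑ i, (sg (ω i) : ℂ) • (P.q i * y - y * P.q i) :=
    fun ω => by simp [sym, comb, sum_mul, mul_sum, smul_sub]
  simp only [e, n2, map_sum, map_smul]
  rw [this]
  simp only [← n2.eq_def, n2_comm_proj (P.proj _), sum_sub_distrib, sum_add_distrib, sum_left,
    sum_right, h1, h2, ← mul_sum, pin]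
  ring

/-- the two-cell family -/
def Fam.two {c e : A} (hc : IsStarProjection c) (he : IsStarProjection e) (h : c * e = e) :
    Fam A :=
  (Fam.single he).join (Fam.single (he.sub_of_mul_eq_right hc h)) (by
    have : e * c = e := by
      simpa [hc.isSelfAdjoint.star_eq, he.isSelfAdjoint.star_eq] using congrArg star h
    simp [mul_sub, this, he.isIdempotentElem.eq])

lemma pin_two {c e y : A} (hc : IsStarProjection c) (he : IsStarProjection e) (h : c * e = e)
    (h1 : c * y = y) (h2 : y * c = y) :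
    n2 (e * y * e) ^ 2 + n2 ((c - e) * y * (c - e)) ^ 2 = n2 y ^ 2 - n2 (e * y - y * e) ^ 2 := by
  have a1 := (Fam.two hc he h).expect_comm_sym (y := y) (by simpa [Fam.two]) (by simpa [Fam.two])
  have a2 := n2_comm_proj he y
  have a3 := n2_comm_proj (he.sub_of_mul_eq_right hc h) y
  have a4 := (Fam.two hc he h).sum_left y
  have a5 := (Fam.two hc he h).sum_right y
  rw [Fam.two, Fam.sum_join _ fun q => n2 (q * y) ^ 2, Fam.sum_single _ fun q => n2 (q * y) ^ 2,
    Fam.sum_single _ fun q => n2 (q * y) ^ 2] at a4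
  rw [Fam.two, Fam.sum_join _ fun q => n2 (y * q) ^ 2, Fam.sum_single _ fun q => n2 (y * q) ^ 2,
    Fam.sum_single _ fun q => n2 (y * q) ^ 2] at a5
  simp only [Fam.tot_join, Fam.tot_single, add_sub_cancel, h1, h2] at a4 a5
  rw [show (c - e) * y - y * (c - e) = -(e * y - y * e) by
    rw [sub_mul, mul_sub, h1, h2]; abel, n2_neg] at a3
  linarith

variable [Fac A]

lemma split_step {J : Type*} [Fintype J] [Nonempty J] {c : A} (hc : IsStarProjection c)
    {y : J → A} (h1 : ∀ j, c * y j = y j) (h2 : ∀ j, y j * c = y j) (h3 : ∀ j, tr (y j) = 0)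
    {ε : ℝ} (hε : 0 < ε) : ∃ e, IsStarProjection e ∧ c * e = e ∧
      ∑ j, (n2 (e * y j * e) ^ 2 + n2 ((c - e) * y j * (c - e)) ^ 2) ≤
        (1 - 1 / (50 * Fintype.card J)) * ∑ j, n2 (y j) ^ 2 + ε ∧
      (∀ j, ‖tr (e * y j)‖ ≤ ε) ∧ |(tr e).re - (tr c).re / 2| ≤ ε := by
  obtain ⟨j₀, -, hj₀⟩ := exists_max_image univ (fun j => n2 (y j) ^ 2) univ_nonempty
  obtain ⟨f, hf, hcf, hfy⟩ : ∃ f, IsStarProjection f ∧ c * f = f ∧
      n2 (y j₀) ≤ 5 * n2 (f * y j₀ - y j₀ * f) := by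
    by_contra h
    push Not at h
    have a1 := rho_lemma hc (h1 j₀) (h2 j₀) (h3 j₀) (ρ := n2 (y j₀) / 5)
      fun e he hce => by linarith [h e he hce]
    have a2 := h 0 (IsStarProjection.zero A) (by simp)
    simp only [zero_mul, mul_zero, sub_self, n2_zero] at a2
    linarith
  set N := n2 (y j₀) ^ 2 with hN
  have hN0 : 0 ≤ N := sq_nonneg _
  set C := ∑ j, ‖y j‖ ^ 2 + 1 with hC
  have hC0 : 0 < C := by positivity
  set Λ := (4 * N + ε) / ε ^ 2 with hΛ
  have hΛ0 : 0 < Λ := by positivity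
  obtain ⟨P, hP, -, hm, hp⟩ := exists_fine (Fam.two hc hf hcf) (μ := ε / (Λ * C)) (by positivity)
  have hPc : P.tot = c := by simpa [Fam.two] using hP
  have hpin : P.pin (y j₀) ≤ N - n2 (f * y j₀ - y j₀ * f) ^ 2 := by
    simpa [Fam.two, Fam.pin_join, pin_two hc hf hcf (h1 j₀) (h2 j₀)] using hp (y j₀)
  obtain ⟨ω, -, hω⟩ := exists_le_of_expect_le (s := univ) univ_nonempty
    (f := fun ω => Λ * (∑ j, ‖tr (P.sym ω * y j)‖ ^ 2 + ‖tr (P.sym ω * 1)‖ ^ 2) -
      n2 (P.sym ω * y j₀ - y j₀ * P.sym ω) ^ 2) (a := ε - 2 * N / 25) (by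
    rw [expect_sub_distrib, ← mul_expect, expect_add_distrib, expect_sum_comm,
      P.expect_comm_sym (hPc ▸ h1 j₀) (hPc ▸ h2 j₀)]
    have a1 : ∑ j, 𝔼 ω, ‖tr (P.sym ω * y j)‖ ^ 2 + 𝔼 ω, ‖tr (P.sym ω * 1)‖ ^ 2 ≤
        C * (ε / (Λ * C)) := by
      rw [hC, add_mul, sum_mul]
      refine add_le_add (sum_le_sum fun j _ => P.expect_tr_sym hm (by positivity) _)
        ((P.expect_tr_sym hm (by positivity) _).trans ?_)
      gcongr
      exact pow_le_one₀ (norm_nonneg _) norm_one_le'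
    have a2 : Λ * (C * (ε / (Λ * C))) = ε := by field_simp
    have a3 : N ≤ 25 * n2 (f * y j₀ - y j₀ * f) ^ 2 := by nlinarith [n2_nonneg (y j₀)]
    nlinarith [mul_le_mul_of_nonneg_left a1 hΛ0.le])
  set s := P.sym ω with hs
  have hss : s * s = c := hPc ▸ P.sym_sym ω
  have hcs : c * s = s := hPc ▸ P.tot_sym ω
  have hsc : s * c = s := by rw [← hss, ← mul_assoc, hss, hcs]
  have hcc := hc.isIdempotentElem.eq
  have hsy : n2 (s * y j₀ - y j₀ * s) ^ 2 ≤ 4 * N := by
    nlinarith [n2_sub_le (s * y j₀) (y j₀ * s), n2_mul_le_of_left (P.norm_sym ω) (y j₀),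
      n2_mul_le_of_right (P.norm_sym ω) (y j₀), n2_nonneg (s * y j₀ - y j₀ * s)]
  have hX0 : 0 ≤ ∑ j, ‖tr (s * y j)‖ ^ 2 := by positivity
  have hX : ∑ j, ‖tr (s * y j)‖ ^ 2 + ‖tr (s * 1)‖ ^ 2 ≤ ε ^ 2 := by
    rw [← mul_le_mul_iff_right₀ hΛ0, hΛ, div_mul_cancel₀ _ (by positivity), ← hΛ]
    linarith
  have he : IsStarProjection ((1 / 2 : ℝ) • (c + s)) := ⟨by
    rw [IsIdempotentElem, smul_mul_smul_comm, add_mul, mul_add, mul_add, hcc, hcs, hsc, hss]
    module, by simp [IsSelfAdjoint, hc.isSelfAdjoint.star_eq, hs, P.star_sym]⟩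
  have hce : c * (1 / 2 : ℝ) • (c + s) = (1 / 2 : ℝ) • (c + s) := by
    rw [mul_smul_comm, mul_add, hcc, hcs]
  refine ⟨_, he, hce, ?_, fun j => ?_, ?_⟩
  · simp only [pin_two hc he hce (h1 _) (h2 _), sum_sub_distrib]
    have a1 := single_le_sum (f := fun j => n2 ((1 / 2 : ℝ) • (c + s) * y j -
      y j * (1 / 2 : ℝ) • (c + s)) ^ 2) (fun j _ => sq_nonneg _) (mem_univ j₀)
    have a2 : (1 / 2 : ℝ) • (c + s) * y j₀ - y j₀ * (1 / 2 : ℝ) • (c + s) =
        (1 / 2 : ℝ) • (s * y j₀ - y j₀ * s) := by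
      rw [smul_mul_assoc, mul_smul_comm, add_mul, mul_add, h1, h2]; module
    simp only [a2, n2_rsmul] at a1
    have a3 : ∑ j, n2 (y j) ^ 2 ≤ Fintype.card J * N := by
      simpa using sum_le_card_nsmul univ _ _ hj₀
    have a4 : (0 : ℝ) < Fintype.card J := by exact_mod_cast Fintype.card_pos
    have a5 : 1 / (50 * Fintype.card J) * ∑ j, n2 (y j) ^ 2 ≤ N / 50 := by
      rw [one_div_mul_eq_div, div_le_div_iff₀ (by positivity) (by norm_num)]; nlinarith
    rw [abs_of_pos (by norm_num)] at a1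
    nlinarith [mul_nonneg hΛ0.le (add_nonneg hX0 (sq_nonneg ‖tr (s * 1)‖))]
  · have a1 := single_le_sum (f := fun j => ‖tr (s * y j)‖ ^ 2) (fun j _ => sq_nonneg _)
      (mem_univ j)
    have a2 : ‖tr (s * y j)‖ ≤ ε :=
      (sq_le_sq₀ (norm_nonneg _) hε.le).1 (by nlinarith [sq_nonneg ‖tr (s * 1)‖])
    rw [smul_mul_assoc, tr_rsmul, add_mul, map_add, h1, h3, zero_add, norm_mul]
    simp only [one_div, Complex.ofReal_inv, Complex.ofReal_ofNat, norm_inv, Complex.norm_ofNat]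
    linarith
  · have a2 : ‖tr s‖ ≤ ε := (sq_le_sq₀ (norm_nonneg _) hε.le).1 (by rw [mul_one] at hX; linarith)
    rw [tr_rsmul, map_add, Complex.re_ofReal_mul, Complex.add_re]
    have := abs_le.1 ((Complex.abs_re_le_norm _).trans a2)
    rw [abs_le]; constructor <;> linarith

omit [Fac A] in
lemma pin_center (P : Fam A) {g : A} (h : P.tot = g) (hg : 0 < (tr g).re) (y : A) :
    P.pin y = P.pin (y - (tr (g * y) / tr g) • 1) + ‖tr (g * y)‖ ^ 2 / (tr g).re := by
  have hg0' : tr g ≠ 0 := fun h => by simp [h] at hg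
  have := P.pin_pyth (y - (tr (g * y) / tr g) • 1) (tr (g * y) / tr g)
    (by simp [h, mul_sub, div_mul_cancel₀ _ hg0'])
  have e : ‖tr g‖ = (tr g).re := by
    rw [tr_eq_re_of_sa (h ▸ P.tot_proj.isSelfAdjoint), Complex.norm_real, Complex.ofReal_re,
      Real.norm_of_nonneg hg.le]
  rw [sub_add_cancel, h, norm_div, e] at this
  rw [this, div_pow, sq (tr g).re, div_mul_eq_mul_div, mul_div_mul_right _ _ hg.ne']

lemma pave_aux {J : Type*} [Fintype J] [Nonempty J] (n : ℕ) : ∀ {c : A}, IsStarProjection c →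
    ∀ y : J → A, (∀ j, tr (c * y j) = 0) → ∀ η : ℝ, 0 < η → ∃ P : Fam A, P.tot = c ∧
      ∑ j, P.pin (y j) ≤ (1 - 1 / (50 * Fintype.card J)) ^ n * ∑ j, n2 (c * y j * c) ^ 2 + η := by
  have hJ : (1 : ℝ) ≤ Fintype.card J := by exact_mod_cast Fintype.card_pos
  set θ : ℝ := 1 - 1 / (50 * Fintype.card J) with hθ
  have hθ0 : 0 ≤ θ := by
    rw [hθ, sub_nonneg, div_le_one (by positivity)]; linarith
  have hθ1 : θ ≤ 1 := sub_le_self _ (by positivity)
  induction n with
  | zero => exact fun hc y _ η hη => ⟨.single hc, by simp, by simp [hη.le]⟩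
  | succ n ih =>
    intro c hc y hy η hη
    by_cases h0 : c = 0
    · exact ⟨.single hc, by simp, by simp [h0, hη.le]⟩
    have ht := tr_proj_pos hc h0
    set t := (tr c).re with htd
    have hcc := hc.isIdempotentElem.eq
    obtain ⟨ε, hε, hε1, hε2, hε3⟩ : ∃ ε : ℝ, 0 < ε ∧ ε ≤ t / 4 ∧ ε ≤ η / 4 ∧
        ε ≤ η / (8 * Fintype.card J) :=
      ⟨min (t / 4) (min (η / 4) (η / (8 * Fintype.card J))), by positivity, min_le_left _ _,
        (min_le_right _ _).trans (min_le_left _ _), (min_le_right _ _).trans (min_le_right _ _)⟩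
    obtain ⟨e, he, hce, a1, a2, a3⟩ := split_step hc (y := fun j => c * y j * c)
      (fun j => by simp [← mul_assoc, hcc]) (fun j => by simp [mul_assoc, hcc])
      (fun j => by rw [tr_cyc, hcc, hy]) hε
    have hec : e * c = e := by
      simpa [hc.isSelfAdjoint.star_eq, he.isSelfAdjoint.star_eq] using congrArg star hce
    have key : ∀ g, IsStarProjection g → c * g = g → g * c = g → t / 4 ≤ (tr g).re →
        (∀ j, ‖tr (g * y j)‖ ≤ ε) → ∃ R : Fam A, R.tot = g ∧ ∑ j, R.pin (y j) ≤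
          θ ^ n * ∑ j, n2 (g * (c * y j * c) * g) ^ 2 + η / 8 + η / 8 := by
      intro g hg hcg hgc htg hgy
      have hg0 : 0 < (tr g).re := by linarith
      have hg0' : tr g ≠ 0 := fun h => by simp [h] at hg0
      have hcen : ∀ j, tr (g * (y j - (tr (g * y j) / tr g) • 1)) = 0 := fun j => by
        simp [mul_sub, div_mul_cancel₀ _ hg0']
      obtain ⟨R, hR, hR'⟩ := ih hg _ hcen (η / 8) (by positivity)
      refine ⟨R, hR, ?_⟩
      have b1 : ∀ j, R.pin (y j) ≤ R.pin (y j - (tr (g * y j) / tr g) • 1) + ε := fun j => by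
        rw [pin_center R hR hg0 (y j)]
        gcongr
        rw [div_le_iff₀ hg0]
        nlinarith [hgy j, norm_nonneg (tr (g * y j))]
      have b2 : ∀ j, n2 (g * (y j - (tr (g * y j) / tr g) • 1) * g) ^ 2 ≤
          n2 (g * (c * y j * c) * g) ^ 2 := fun j => by
        have := pin_center (Fam.single hg) (by simp) hg0 (y j)
        simp only [Fam.pin_single] at this
        rw [← mul_assoc, ← mul_assoc, hgc, mul_assoc _ c, hcg, this]
        exact le_add_of_nonneg_right (by positivity)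
      have b3 : ∑ _j : J, ε ≤ η / 8 := by
        rw [le_div_iff₀ (by positivity)] at hε3
        simp only [sum_const, card_univ, nsmul_eq_mul]; linarith
      have b4 := mul_le_mul_of_nonneg_left (sum_le_sum fun j (_ : j ∈ univ) => b2 j)
        (pow_nonneg hθ0 n)
      have b5 := sum_le_sum fun j (_ : j ∈ univ) => b1 j
      rw [sum_add_distrib] at b5
      linarith
    have hey : ∀ j, tr (e * (c * y j * c)) = tr (e * y j) := fun j => by
      rw [← mul_assoc, ← mul_assoc, hec, tr_cyc, hce]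
    simp only [hey] at a2
    obtain ⟨R, hR, hR'⟩ := key e he hce hec (by linarith [(abs_le.1 a3).1]) a2
    obtain ⟨S, hS, hS'⟩ := key (c - e) (he.sub_of_mul_eq_right hc hce) (by rw [mul_sub, hcc, hce])
      (by rw [sub_mul, hcc, hec]) (by rw [map_sub, Complex.sub_re]; linarith [(abs_le.1 a3).2])
      fun j => by simpa [sub_mul, hy] using a2 j
    refine ⟨R.join S (by simp [hR, hS, mul_sub, hec, he.isIdempotentElem.eq]),
      by simp [hR, hS], ?_⟩
    simp only [Fam.pin_join, sum_add_distrib] at a1 ⊢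
    have b1 := mul_le_mul_of_nonneg_left a1 (pow_nonneg hθ0 n)
    have b2 : θ ^ n * ε ≤ ε := mul_le_of_le_one_left hε.le (pow_le_one₀ hθ0 hθ1)
    rw [pow_succ]
    nlinarith

lemma pave_one {J : Type*} [Fintype J] {c : A} (hc : IsStarProjection c) (y : J → A) {η : ℝ}
    (hη : 0 < η) : ∃ P : Fam A, P.tot = c ∧ P.Mesh η ∧
      ∀ j, P.pin (y j) ≤ ‖tr (c * y j)‖ ^ 2 / (tr c).re + η := by
  rcases isEmpty_or_nonempty J with hJ | hJ
  · obtain ⟨P, h1, h2⟩ := exists_mesh hc hη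
    exact ⟨P, h1, h2, fun j => isEmptyElim j⟩
  by_cases h0 : c = 0
  · exact ⟨.single hc, by simp, fun _ => by simp [Fam.single, h0, hη.le],
      fun _ => by simp [h0, hη.le]⟩
  have ht := tr_proj_pos hc h0
  have ht' : tr c ≠ 0 := fun h => by simp [h] at ht
  have hcen : ∀ j, tr (c * (y j - (tr (c * y j) / tr c) • 1)) = 0 := fun j => by
    simp [mul_sub, div_mul_cancel₀ _ ht']
  have hJ : (1 : ℝ) ≤ Fintype.card J := by exact_mod_cast Fintype.card_pos
  have hlim := (tendsto_pow_atTop_nhds_zero_of_lt_one (r := (1 - 1 / (50 * Fintype.card J) : ℝ))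
    (by rw [sub_nonneg, div_le_one (by positivity)]; linarith)
    (sub_lt_self _ (by positivity))).mul_const
    (∑ j, n2 (c * (y j - (tr (c * y j) / tr c) • 1) * c) ^ 2)
  rw [zero_mul] at hlim
  obtain ⟨n, hn⟩ := (hlim.eventually (gt_mem_nhds (half_pos hη))).exists
  obtain ⟨P, hP, h⟩ := pave_aux n hc _ hcen (η / 2) (half_pos hη)
  obtain ⟨Q, hQ, -, hm, hp⟩ := exists_fine P hη
  refine ⟨Q, hQ.trans hP, hm, fun j => (hp _).trans ?_⟩
  rw [pin_center P hP ht (y j)]
  have := single_le_sum (f := fun j => P.pin (y j - (tr (c * y j) / tr c) • 1))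
    (fun j _ => P.pin_nonneg _) (mem_univ j)
  linarith

/-- fourth-order energy of `a` between two families -/
noncomputable def phi (P Q : Fam A) (a : A) : ℝ := ∑ i, Q.pin (star a * P.q i * a)

omit [Fac A] in
lemma phi_swap (P Q : Fam A) (a : A) : phi P Q a = phi Q P (star a) := by
  rw [phi, phi]
  simp only [Fam.pin, star_star]
  rw [sum_comm]
  refine sum_congr rfl fun j _ => sum_congr rfl fun i _ => ?_
  have : ∀ x : A, n2 (star x * x) ^ 2 = n2 (x * star x) ^ 2 := fun x => by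
    rw [n2_sq, n2_sq]
    simp only [star_mul, star_star]
    rw [mul_assoc, tr_comm (star x)]
    simp only [mul_assoc]
  have h := this (P.q i * a * Q.q j)
  simp only [star_mul, Fam.star_q] at h
  rw [show Q.q j * (star a * P.q i) * (P.q i * a * Q.q j) =
    Q.q j * (star a * (P.q i * P.q i) * a) * Q.q j by noncomm_ring,
    show P.q i * a * Q.q j * (Q.q j * (star a * P.q i)) =
    P.q i * (a * (Q.q j * Q.q j) * star a) * P.q i by noncomm_ring, Fam.q_q, Fam.q_q] at h
  exact h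

omit [Fac A] in
lemma phi_self_le (P : Fam A) {a : A} (ha : ‖a‖ ≤ 1) :
    phi P P a ≤ n2 (P.tot * a * P.tot) ^ 2 := by
  have h1 : ∀ i j, n2 (P.q j * (star a * P.q i * a) * P.q j) ^ 2 ≤
      n2 (P.q i * (P.tot * a * P.tot * P.q j)) ^ 2 := fun i j => by
    refine pow_le_pow_left₀ (n2_nonneg _) ?_ 2
    rw [show P.q j * (star a * P.q i * a) * P.q j = P.q j * (star a * (P.q i * a * P.q j)) by
      noncomm_ring, mul_assoc _ P.tot, P.tot_mul, ← mul_assoc (P.q i), ← mul_assoc (P.q i),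
      P.mul_tot]
    exact (n2_mul_le_of_left (P.norm_q j) _).trans (n2_mul_le_of_left (by simpa using ha) _)
  refine (sum_le_sum fun i _ => sum_le_sum fun j _ => h1 i j).trans ?_
  rw [sum_comm]
  exact (sum_le_sum fun j _ => P.sum_left_le _).trans (P.sum_right_le _)

omit [Fac A] in
lemma sum_mean_le (Q : Fam A) {μ : ℝ} (hμ : 0 ≤ μ) (hm : Q.Mesh μ) {c a : A}
    (hc : IsStarProjection c) (ha : ‖a‖ ≤ 1) :
    ∑ i, ‖tr (c * (star a * Q.q i * a))‖ ^ 2 / (tr c).re ≤ μ := by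
  have h1 : ∀ i, ‖tr (c * (star a * Q.q i * a))‖ = n2 (Q.q i * (a * c)) ^ 2 := fun i => by
    have : tr (c * (star a * Q.q i * a)) = tr (star (Q.q i * (a * c)) * (Q.q i * (a * c))) := by
      simp only [star_mul, Fam.star_q, hc.isSelfAdjoint.star_eq]
      rw [show c * star a * Q.q i * (Q.q i * (a * c)) = c * (star a * (Q.q i * Q.q i) * a) * c by
        noncomm_ring, tr_cyc, hc.isIdempotentElem.eq, Fam.q_q]
    rw [this, tr_star_mul_self, Complex.norm_real, Real.norm_of_nonneg (sq_nonneg _)]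
  have h2 : ∀ i, n2 (Q.q i * (a * c)) ^ 2 ≤ μ := fun i => by
    refine le_trans (pow_le_pow_left₀ (n2_nonneg _) (n2_mul_le_of_right ((norm_mul_le _ _).trans
      (mul_le_one₀ ha (norm_nonneg _) hc.norm_le)) _) 2) ?_
    rw [n2_proj (Q.proj i)]; exact hm i
  have h3 : ∑ i, n2 (Q.q i * (a * c)) ^ 2 ≤ (tr c).re := (Q.sum_left_le _).trans (by
    rw [← n2_proj hc]; exact pow_le_pow_left₀ (n2_nonneg _) (n2_mul_le_of_left ha _) 2)
  rw [← sum_div]
  refine div_le_of_le_mul₀ (tr_proj_nonneg hc) hμ ?_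
  calc _ ≤ ∑ i, μ * n2 (Q.q i * (a * c)) ^ 2 := sum_le_sum fun i _ => by
        rw [h1, sq]; exact mul_le_mul_of_nonneg_right (h2 i) (sq_nonneg _)
    _ ≤ _ := by rw [← mul_sum]; gcongr

lemma sweep {J : Type*} [Fintype J] (P : Fam A) (a : J → A) (ha : ∀ j, ‖a j‖ ≤ 1) {μ : ℝ}
    (hμ : 0 < μ) (S : Finset P.ι) : ∃ Q : Fam A, Q.tot = ∑ k ∈ S, P.q k ∧ Q.Sub P ∧ Q.Mesh μ ∧
      ∀ j, phi Q Q (a j) ≤ ∑ k ∈ S, (n2 (P.q k * a j * P.q k) ^ 2 + 4 * μ) := by
  induction S using Finset.induction_on with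
  | empty => exact ⟨⟨Empty, fun _ => 0, by simp, by simp⟩, by simp [Fam.tot], fun i => i.elim,
      fun i => i.elim, fun j => by simp [phi]⟩
  | insert k S hk ih =>
    obtain ⟨Q, h1, h2, h3, h4⟩ := ih
    have hη : 0 < μ / (Fintype.card Q.ι + 1) := by positivity
    obtain ⟨a', ha1, ha2⟩ : ∃ a' : J → Bool → A, (∀ j, a' j true = a j) ∧
      ∀ j, a' j false = star (a j) := ⟨fun j b => if b then a j else star (a j), by simp, by simp⟩
    obtain ⟨R, r1, r2, r3⟩ := pave_one (P.proj k) (J := J × Q.ι × Bool)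
      (fun x => star (a' x.1 x.2.2) * Q.q x.2.1 * a' x.1 x.2.2) hη
    have hcard : ∑ _i : Q.ι, μ / (Fintype.card Q.ι + 1) ≤ μ := by
      simp only [sum_const, card_univ, nsmul_eq_mul]
      rw [mul_div_assoc', div_le_iff₀ (by positivity)]; nlinarith
    have key : ∀ (j : J) (b : Bool), phi Q R (a' j b) ≤ 2 * μ := fun j b => by
      have r4 : ∀ i, R.pin (star (a' j b) * Q.q i * a' j b) ≤
          ‖tr (P.q k * (star (a' j b) * Q.q i * a' j b))‖ ^ 2 / (tr (P.q k)).re +
            μ / (Fintype.card Q.ι + 1) := fun i => r3 (j, i, b)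
      refine (sum_le_sum fun i _ => r4 i).trans ?_
      rw [sum_add_distrib, two_mul]
      have : ‖a' j b‖ ≤ 1 := by cases b <;> simpa [ha1, ha2] using ha j
      exact add_le_add (sum_mean_le Q hμ.le h3 (P.proj k) this) hcard
    have horth : Q.tot * R.tot = 0 := by
      rw [h1, r1, sum_mul]
      exact sum_eq_zero fun i hi => P.orth _ _ (by rintro rfl; exact hk hi)
    refine ⟨Q.join R horth, by simp [h1, r1, sum_insert hk, add_comm], ?_, ?_, fun j => ?_⟩
    · rintro (i | i)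
      · exact h2 i
      · exact ⟨k, r1 ▸ R.tot_mul i⟩
    · rintro (i | i)
      · exact h3 i
      · exact (r2 i).trans (div_le_self hμ.le (by simp))
    · have e : phi (Q.join R horth) (Q.join R horth) (a j) =
          phi Q Q (a j) + phi Q R (a j) + (phi R Q (a j) + phi R R (a j)) := by
        rw [phi, Fam.sum_join _ fun q => (Q.join R horth).pin (star (a j) * q * a j)]
        simp only [Fam.pin_join, sum_add_distrib, phi]
      have k1 := key j true
      have k2 := key j false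
      have k3 := phi_self_le R (ha j)
      rw [r1] at k3
      rw [ha1] at k1
      rw [ha2] at k2
      rw [e, sum_insert hk, phi_swap R Q]
      linarith [h4 j]

lemma pave_two {J : Type*} [Fintype J] (D : Fam A) (a : J → A) (ha : ∀ j, ‖a j‖ ≤ 1) {η : ℝ}
    (hη : 0 < η) : ∃ Q : Fam A, Q.tot = D.tot ∧ Q.Sub D ∧
      ∀ j, phi Q Q (a j) ≤ ∑ i, ‖tr (D.q i * a j)‖ ^ 2 / (tr (D.q i)).re + η := by
  have h1 : 0 < η / 2 / (Fintype.card D.ι + 1) := by positivity
  choose R r1 r2 r3 using fun i => pave_one (D.proj i) a h1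
  have h2 : 0 < η / 8 / (Fintype.card (D.bind R r1).ι + 1) := by positivity
  obtain ⟨Q, q1, q2, -, q4⟩ := sweep (D.bind R r1) a ha h2 univ
  refine ⟨Q, q1.trans (Fam.tot_bind r1), q2.trans (Fam.sub_bind r1), fun j => (q4 j).trans ?_⟩
  rw [sum_add_distrib, ← Fam.pin, Fam.pin_bind]
  have b1 := sum_le_sum fun i (_ : i ∈ univ) => r3 i j
  rw [sum_add_distrib] at b1
  have b2 : ∀ (n : ℕ) (t : ℝ), 0 < t → n * (t / (n + 1)) ≤ t := fun n t ht => by
    rw [mul_div_assoc', div_le_iff₀ (by positivity)]; nlinarith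
  have b3 := b2 (Fintype.card D.ι) (η / 2) (by positivity)
  have b4 := b2 (Fintype.card (D.bind R r1).ι) (η / 8) (by positivity)
  simp only [sum_const, card_univ, nsmul_eq_mul] at b1 ⊢
  linarith

end Vale.Agent.P085
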