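import Vale.Agent.P085.Lim

/-! Spectral projections, commutator estimate, partial isometries, halving. -/

namespace Vale.Agent.P085

open scoped ComplexConjugate InnerProductSpace ComplexStarModule
open Filter Topology

variable {A : Type*} [CStarAlgebra A] [TrA A] [Fac A]

omit [Fac A] in
lemma cauchy_of_mono {x : ℕ → A} {t : ℕ → ℝ} {s : ℝ} (ht : Tendsto t atTop (𝓝 s))
    (h : ∀ m n, n2 (x m - x n) ^ 2 ≤ |t m - t n|) :
    ∀ ε > 0, ∃ N, ∀ m ≥ N, ∀ n ≥ N, n2 (x m - x n) < ε := fun ε hε => by
  obtain ⟨N, hN⟩ := Metric.cauchySeq_iff.1 ht.cauchySeq (ε ^ 2) (by positivity)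
  exact ⟨N, fun m hm n hn => lt_of_pow_lt_pow_left₀ 2 hε.le ((h m n).trans_lt (hN m hm n hn))⟩

section Order
variable [PartialOrder A] [StarOrderedRing A]

lemma exists_spec {k : A} (hk : IsSelfAdjoint k) :
    ∃ e, IsStarProjection e ∧ e * k = k⁺ ∧ e * k⁻ = 0 ∧ ∀ g, Commute k g → Commute e g := by
  let g : ℕ → ℝ → ℝ := fun n t => n / (1 + n * max t 0)
  let f : ℕ → ℝ → ℝ := fun n t => max t 0 * g n t
  have hd : ∀ (n : ℕ) (t : ℝ), 0 < 1 + n * max t 0 := fun n t => by positivity
  have hg : ∀ n, Continuous (g n) := fun n =>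
    continuous_const.div (by fun_prop) fun t => (hd n t).ne'
  have hf : ∀ n, Continuous (f n) := fun n => Continuous.mul (by fun_prop) (hg n)
  have hf' : ∀ n t, f n t = 1 - 1 / (1 + n * max t 0) := fun n t => by
    have := hd n t; simp only [f, g]; field_simp; ring
  have hf0 : ∀ n t, 0 ≤ f n t := fun n t => by simp only [f, g]; positivity
  have hf1 : ∀ n t, f n t ≤ 1 := fun n t => by
    rw [hf']; have := hd n t; simp only [sub_le_self_iff]; positivity
  have hfm : ∀ m n t, m ≤ n → f m t ≤ f n t := fun m n t h => by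
    rw [hf', hf']; have := hd m t; gcongr
  have hp : k⁺ = cfc (fun t : ℝ => max t 0) k := by
    rw [CFC.posPart_def, cfcₙ_eq_cfc]; rfl
  let e : ℕ → A := fun n => cfc (f n) k
  have he1 : ∀ n, ‖e n‖ ≤ 1 := fun n => norm_cfc_le zero_le_one fun t _ => by
    rw [Real.norm_of_nonneg (hf0 n t)]; exact hf1 n t
  have hsa : ∀ n, IsSelfAdjoint (e n) := fun n => cfc_predicate _ _
  have hmono : ∀ m n, m ≤ n → n2 (e n - e m) ^ 2 ≤ (tr (e n)).re - (tr (e m)).re := fun m n h => by
    rw [n2_sq, ((hsa n).sub (hsa m)).star_eq, ← Complex.sub_re, ← map_sub]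
    refine tr_mono ?_
    simp only [e]
    have c1 : Continuous fun t => f n t - f m t := (hf n).sub (hf m)
    have c2 : Continuous fun t => (f n t - f m t) * (f n t - f m t) := c1.mul c1
    rw [← cfc_sub _ _ _ (hf n).continuousOn (hf m).continuousOn, ← cfc_mul _ _ _
      c1.continuousOn c1.continuousOn]
    refine cfc_mono (fun t _ => ?_) c2.continuousOn c1.continuousOn
    nlinarith [hfm m n t h, hf0 m t, hf1 n t]
  have hm : Monotone fun n => (tr (e n)).re := fun m n h => by
    nlinarith [hmono m n h, sq_nonneg (n2 (e n - e m))]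
  have hb : BddAbove (Set.range fun n => (tr (e n)).re) := ⟨1, by
    rintro _ ⟨n, rfl⟩
    exact (Complex.re_le_norm _).trans ((norm_tr_le _).trans (he1 n))⟩
  obtain ⟨p, -, hp'⟩ := exists_conv he1 (cauchy_of_mono (tendsto_atTop_ciSup hm hb) fun m n => by
    rcases le_total m n with h | h
    · rw [n2_sub_comm, abs_sub_comm]; exact (hmono m n h).trans (le_abs_self _)
    · exact (hmono n m h).trans (le_abs_self _))
  have h1 : p * k = k⁺ := by
    refine (hp'.mul (Conv.const k)).unique (Conv.of_norm ?_)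
    rw [tendsto_iff_norm_sub_tendsto_zero]
    refine squeeze_zero' (Eventually.of_forall fun _ => norm_nonneg _) ?_
      tendsto_one_div_atTop_nhds_zero_nat
    filter_upwards [eventually_gt_atTop 0] with n hn
    have hn' : (0 : ℝ) < n := by exact_mod_cast hn
    have : e n * k - k⁺ = cfc (fun t => f n t * t - max t 0) k := by
      have c1 : Continuous fun t => f n t * t := (hf n).mul continuous_id
      rw [cfc_sub _ _ _ c1.continuousOn, cfc_mul _ _ _ (hf n).continuousOn,
        cfc_id' ℝ k, hp]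
    rw [this]
    refine norm_cfc_le (by positivity) fun t _ => ?_
    rcases le_total t 0 with h | h
    · simp [f, max_eq_right h]
    · rw [hf', max_eq_left h, show (1 - 1 / (1 + n * t)) * t - t = -(t / (1 + n * t)) by ring,
        norm_neg, Real.norm_of_nonneg (by positivity), div_le_div_iff₀ (by positivity) hn']
      nlinarith
  have hcomm : ∀ g, Commute k g → Commute p g := fun g hg =>
    (hp'.mul (Conv.const g)).eq ((Conv.const g).mul hp') fun n => hg.cfc_real (f n)
  have hen : ∀ n, e n = k⁺ * cfc (g n) k := fun n => by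
    rw [hp, ← cfc_mul _ _ _ (by fun_prop) (hg n).continuousOn]
  have h2 : p * k⁻ = 0 := by
    refine (hp'.mul (Conv.const _)).eq (Conv.const 0) fun n => ?_
    have : Commute (cfc (g n) k) k⁻ := by
      rw [CFC.negPart_def]
      exact ((Commute.refl k).cfc_real (g n)).symm.cfcₙ_real _ |>.symm
    rw [hen, mul_assoc, this.eq, ← mul_assoc, CFC.posPart_mul_negPart, zero_mul]
  have h3 : p * k⁺ = k⁺ := by
    have := congrArg (p * ·) (CFC.posPart_sub_negPart k hk)
    simp only [mul_sub, h1, h2, sub_zero] at this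
    exact this
  refine ⟨p, ⟨?_, hp'.star.eq hp' fun n => (hsa n).star_eq⟩, h1, h2, hcomm⟩
  exact ((Conv.const p).mul hp').eq hp' fun n => by rw [hen, ← mul_assoc, h3]

end Order

/-- a self-adjoint contraction of a corner is the midpoint of a symmetry and a contraction -/
lemma exists_mid {c h : A} (hc : IsStarProjection c) (hh : IsSelfAdjoint h) (h1 : c * h = h)
    (hn : ‖h‖ ≤ 1) : ∃ e h', IsStarProjection e ∧ c * e = e ∧ IsSelfAdjoint h' ∧ c * h' = h' ∧
      ‖h'‖ ≤ 1 ∧ h + h = h' + (e + e - c) := by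
  let _ := CStarAlgebra.spectralOrder A
  have _ := CStarAlgebra.spectralOrderedRing A
  have hcs := hc.isSelfAdjoint
  have hcc := hc.isIdempotentElem.eq
  have h2 : h * c = h := by simpa [hh.star_eq, hcs.star_eq] using congrArg star h1
  obtain ⟨e, he, e1, -, e3⟩ := exists_spec hh
  have hec := (e3 c (h2.trans h1.symm)).eq
  have heh := (e3 h rfl).eq
  have hee := he.isIdempotentElem.eq
  set s := e * c + e * c - c with hs
  have hp : IsStarProjection (e * c) := he.mul hc hec
  have hss : IsSelfAdjoint s := (hp.isSelfAdjoint.add hp.isSelfAdjoint).sub hcs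
  have hsh : s * h = h⁺ + h⁻ := by
    rw [hs, sub_mul, add_mul, mul_assoc, h1, e1]
    linear_combination (norm := abel_nf) CFC.posPart_sub_negPart h hh
  have hT0 : 0 ≤ s * h := hsh ▸ add_nonneg (CFC.posPart_nonneg h) (CFC.negPart_nonneg h)
  have hhs : h * s = s * h := by
    simpa [hh.star_eq, hss.star_eq] using hT0.isSelfAdjoint.star_eq
  have hs2 : s * s = c := by
    have h3 := hp.isIdempotentElem.eq
    have h4 : e * c * c = e * c := by rw [mul_assoc, hcc]
    have h5 : c * (e * c) = e * c := by rw [← mul_assoc, ← hec, h4]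
    simp only [hs, sub_mul, mul_sub, add_mul, mul_add, h3, h4, h5, hcc]
    abel
  have hsn : ‖s‖ ≤ 1 := by
    have := hss.norm_mul_self
    rw [hs2] at this
    nlinarith [hc.norm_le, norm_nonneg s]
  have hT1 : s * h ≤ 1 := (CStarAlgebra.norm_le_one_iff_of_nonneg _).1
    ((norm_mul_le _ _).trans (mul_le_one₀ hsn (norm_nonneg _) hn))
  have hT2 : s * h * (s * h) ≤ s * h := by
    simpa [sq] using CStarAlgebra.pow_antitone hT0 hT1 one_le_two
  have hTT : s * h * (s * h) = h * h := by
    rw [← hhs, mul_assoc, hhs, ← mul_assoc s, hs2, h1]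
  have hsa : IsSelfAdjoint (h + h - s) := (hh.add hh).sub hss
  have h5 : c * (e * c) = e * c := by rw [← mul_assoc, ← hec, mul_assoc, hcc]
  refine ⟨e * c, h + h - s, hp, h5, hsa, ?_, ?_, by rw [← hs]; abel⟩
  · simp only [hs, mul_sub, mul_add, h1, h5, hcc]
  · have h3 : (h + h - s) * (h + h - s) ≤ 1 := by
      have : (h + h - s) * (h + h - s) = c - (4 : ℝ) • (s * h - s * h * (s * h)) := by
        rw [hTT]
        simp only [sub_mul, mul_sub, add_mul, mul_add, hhs, hs2]
        module
      rw [this]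
      exact (sub_le_self _ (smul_nonneg (by norm_num) (sub_nonneg.2 hT2))).trans hc.le_one
    have h4 := (CStarAlgebra.norm_le_one_iff_of_nonneg _ hsa.mul_self_nonneg).2 h3
    rw [hsa.norm_mul_self] at h4
    nlinarith [norm_nonneg (h + h - s)]

lemma comm_sa_le {c y : A} (hc : IsStarProjection c) (hy : c * y = y * c) {ρ : ℝ}
    (hρ : ∀ e, IsStarProjection e → c * e = e → n2 (e * y - y * e) ≤ ρ) {h : A}
    (hh : IsSelfAdjoint h) (h1 : c * h = h) (hn : ‖h‖ ≤ 1) : n2 (h * y - y * h) ≤ 2 * ρ := by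
  have key : ∀ n : ℕ, ∀ h, IsSelfAdjoint h → c * h = h → ‖h‖ ≤ 1 →
      n2 (h * y - y * h) ≤ 2 * ρ + 2 * n2 y * (1 / 2) ^ n := by
    intro n
    induction n with
    | zero =>
      intro h _ _ hn
      have := hρ 0 (IsStarProjection.zero A) (by simp)
      simp only [zero_mul, mul_zero, sub_self, n2_zero] at this
      linarith [n2_sub_le (h * y) (y * h), n2_mul_le_of_left hn y, n2_mul_le_of_right hn y]
    | succ n ih =>
      intro h hh h1 hn
      obtain ⟨e, h', he, e1, hh', h1', hn', hs⟩ := exists_mid hc hh h1 hn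
      have e2 : (2 : ℝ) • (h * y - y * h) = h' * y - y * h' + (2 : ℝ) • (e * y - y * e) := by
        have : h' = h + h - (e + e - c) := by rw [hs]; abel
        rw [this]
        simp only [sub_mul, mul_sub, add_mul, mul_add, hy]
        module
      have e3 := n2_add_le (h' * y - y * h') ((2 : ℝ) • (e * y - y * e))
      rw [← e2, n2_rsmul, n2_rsmul, abs_two] at e3
      have := ih h' hh' h1' hn'
      have := hρ e he e1
      rw [pow_succ]
      linarith
  refine ge_of_tendsto' (x := atTop) (f := fun n : ℕ => 2 * ρ + 2 * n2 y * (1 / 2) ^ n) ?_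
    fun n => key n h hh h1 hn
  simpa using ((tendsto_pow_atTop_nhds_zero_of_lt_one (r := (1 / 2 : ℝ)) (by norm_num)
    (by norm_num)).const_mul (2 * n2 y)).const_add (2 * ρ)

omit [TrA A] [Fac A] in
lemma corner_parts {c x : A} (hc : IsStarProjection c) (h1 : c * x = x) (h2 : x * c = x) :
    c * ℜ x = ℜ x ∧ c * ℑ x = ℑ x := by
  have h3 : c * star x = star x := by simpa [hc.isSelfAdjoint.star_eq] using congrArg star h2
  simp [realPart_apply_coe, imaginaryPart_apply_coe, mul_add, mul_sub, h1, h3]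

lemma rho_lemma {c y : A} (hc : IsStarProjection c) (hy1 : c * y = y) (hy2 : y * c = y)
    (ht : tr y = 0) {ρ : ℝ} (hρ : ∀ e, IsStarProjection e → c * e = e → n2 (e * y - y * e) ≤ ρ) :
    n2 y ≤ 4 * ρ := by
  let _ := CStarAlgebra.spectralOrder A
  have _ := CStarAlgebra.spectralOrderedRing A
  have hcc := hc.isIdempotentElem.eq
  obtain ⟨y₀, h1, h2⟩ := dixmier (U := {u | u ∈ unitary A ∧ u * c = c * u}) (fun _ h => h.1)
    ⟨one_mem _, by simp⟩ (fun u hu v hv => ⟨mul_mem hu.1 hv.1, by
      rw [mul_assoc, hv.2, ← mul_assoc, hu.2, mul_assoc]⟩) y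
  have h3 : n2 (y₀ - y) ≤ 4 * ρ := by
    refine h2 {w | n2 (w - y) ≤ 4 * ρ} ?_ (fun x w hx hw =>
      le_of_tendsto' (hw.sub (Conv.const y)).n2 hx) fun u hu => ?_
    · intro a ha b hb s t hs ht hst
      have : s • a + t • b - y = s • (a - y) + t • (b - y) := by
        rw [smul_sub, smul_sub, ← add_sub_add_comm, ← add_smul, hst, one_smul]
      simp only [Set.mem_ofPred_eq] at *
      rw [this]
      refine (n2_add_le _ _).trans ?_
      rw [n2_rsmul, n2_rsmul, abs_of_nonneg hs, abs_of_nonneg ht]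
      calc _ ≤ s * (4 * ρ) + t * (4 * ρ) := by gcongr
        _ = _ := by rw [← add_mul, hst, one_mul]
    · have hk : ‖c * u‖ ≤ 1 := (norm_mul_le _ _).trans
        (mul_le_one₀ hc.norm_le (norm_nonneg _) (norm_unitary_le hu.1))
      obtain ⟨p1, p2⟩ := corner_parts (x := c * u) hc (by rw [← mul_assoc, hcc])
        (by rw [mul_assoc, hu.2, ← mul_assoc, hcc])
      have q1 := comm_sa_le hc (hy1.trans hy2.symm) hρ (ℜ (c * u)).2 p1
        ((realPart.norm_le _).trans hk)
      have q2 := comm_sa_le hc (hy1.trans hy2.symm) hρ (ℑ (c * u)).2 p2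
        ((imaginaryPart.norm_le _).trans hk)
      have e1 : u * y * star u - y = (c * u * y - y * (c * u)) * star u := by
        rw [← hu.2, mul_assoc u c, hy1, hu.2, ← mul_assoc y, hy2, sub_mul, mul_assoc y, hu.1.2,
          mul_one]
      have e2 : c * u * y - y * (c * u) = (ℜ (c * u) * y - y * ℜ (c * u)) +
          Complex.I • (ℑ (c * u) * y - y * ℑ (c * u)) := by
        conv_lhs => rw [← realPart_add_I_smul_imaginaryPart (c * u)]
        simp only [add_mul, mul_add, smul_mul_assoc, mul_smul_comm, smul_sub]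
        abel
      simp only [Set.mem_ofPred_eq]
      rw [e1, n2_mul_unitary (Unitary.star_mem hu.1), e2]
      refine (n2_add_le _ _).trans ?_
      rw [n2_smul, Complex.norm_I]
      linarith
  have hsc : ∀ u ∈ unitary A, u * c = c * u → star u * c = c * star u := fun u _ h => by
    simpa [hc.isSelfAdjoint.star_eq] using (congrArg star h).symm
  have h4 : c * y₀ = y₀ ∧ y₀ * c = y₀ := by
    refine h2 {w | c * w = w ∧ w * c = w} ?_ (fun x w hx hw =>
      ⟨((Conv.const c).mul hw).eq hw fun n => (hx n).1,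
        (hw.mul (Conv.const c)).eq hw fun n => (hx n).2⟩) fun u hu => ⟨?_, ?_⟩
    · intro a ha b hb s t _ _ _
      simp [mul_add, add_mul, ha.1, ha.2, hb.1, hb.2]
    · rw [← mul_assoc, ← mul_assoc, ← hu.2, mul_assoc u, hy1]
    · rw [mul_assoc, hsc u hu.1 hu.2, ← mul_assoc, mul_assoc u, hy2]
  have h5 := tr_eq_of_re
    (h2 _ (convex_re_tr 1 _) (cclosed_re_tr 1 (tr y).re) fun u hu => by simp [tr_conj hu.1])
    (h2 _ (convex_re_tr _ _) (cclosed_re_tr (Complex.I • 1) (-(tr y).im)) fun u hu => by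
      simp [tr_conj hu.1])
  have h6 : ∀ h, IsSelfAdjoint h → c * h = h → y₀ * h = h * y₀ := by
    have h7 : ∀ h, IsSelfAdjoint h → c * h = h → ‖h‖ ≤ 1 → y₀ * h = h * y₀ := fun h hh hc1 hn => by
      have hc2 : h * c = h := by
        simpa [hh.star_eq, hc.isSelfAdjoint.star_eq] using congrArg star hc1
      have hu := hh.self_add_I_smul_cfcSqrt_sub_sq_mem_unitary h hn
      have hcm : Commute (CFC.sqrt (1 - h ^ 2)) c := by
        rw [CFC.sqrt_eq_cfc]
        exact Commute.cfc_nnreal ((Commute.one_left c).sub_left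
          (Commute.pow_left (hc2.trans hc1.symm) 2)) _
      have hm : (h + Complex.I • CFC.sqrt (1 - h ^ 2)) * c =
          c * (h + Complex.I • CFC.sqrt (1 - h ^ 2)) := by
        simp [add_mul, mul_add, hc1, hc2, hcm.eq]
      have a1 := h1 _ ⟨hu, hm⟩
      have a2 := h1 _ ⟨Unitary.star_mem hu, hsc _ hu hm⟩
      simp only [star_add, star_smul, hh.star_eq, (CFC.sqrt_nonneg (1 - h ^ 2)).isSelfAdjoint.star_eq,
        RCLike.star_def, Complex.conj_I, add_mul, mul_add, neg_smul, neg_mul, mul_neg] at a1 a2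
      have : (2 : ℂ) • (y₀ * h) = (2 : ℂ) • (h * y₀) := by
        rw [two_smul, two_smul]; linear_combination (norm := abel_nf) - a1 - a2
      exact smul_right_injective _ two_ne_zero this
    intro h hh hc1
    have hp : 0 < ‖h‖ + 1 := by positivity
    have := h7 ((‖h‖ + 1)⁻¹ • h) (IsSelfAdjoint.smul (IsSelfAdjoint.all _) hh) (by simp [hc1]) (by
      rw [norm_smul, Real.norm_of_nonneg (by positivity)]
      exact inv_mul_le_one_of_le₀ (by linarith) hp.le)
    rw [mul_smul_comm, smul_mul_assoc] at this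
    exact smul_right_injective _ (inv_ne_zero hp.ne') this
  have h8 : y₀ = 0 := corner_center hc h4.1 h4.2 (fun x => by
    obtain ⟨p1, p2⟩ := corner_parts (x := c * x * c) hc (by simp [← mul_assoc, hcc])
      (by simp [mul_assoc, hcc])
    rw [← realPart_add_I_smul_imaginaryPart (c * x * c), mul_add, add_mul, mul_smul_comm,
      smul_mul_assoc, h6 _ (ℜ _).2 p1, h6 _ (ℑ _).2 p2]) (h5.trans ht)
  simpa [h8] using h3

end Vale.Agent.P085
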