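import Vale.Agent.P085.Cay

/-! The amplification step. -/

namespace Vale.Agent.P085

open scoped ComplexConjugate InnerProductSpace BigOperators
open Filter Topology Finset Function

variable {A : Type*} [CStarAlgebra A] {I : Type*} {M : ℕ}

/-- uniformly approximable by elements of `P` -/
def Ap (P : Subalgebra ℂ (I → A)) (Z : I → A) : Prop :=
  (∀ i, ‖Z i‖ ≤ 1) ∧ ∀ η : ℝ, 0 < η → ∃ Z' ∈ P, ∀ i, ‖Z i - Z' i‖ ≤ η

lemma Ap.mul {P : Subalgebra ℂ (I → A)} {Z W : I → A} (h : Ap P Z) (h' : Ap P W) :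
    Ap P fun i => Z i * W i := by
  refine ⟨fun i => norm_mul_le_one (h.1 i) (h'.1 i), fun η hη => ?_⟩
  obtain ⟨Z', hZ, h1⟩ := h.2 (min (η / 3) 1) (by positivity)
  obtain ⟨W', hW, h2⟩ := h'.2 (η / 3) (by positivity)
  refine ⟨Z' * W', mul_mem hZ hW, fun i => ?_⟩
  rw [Pi.mul_apply, show Z i * W i - Z' i * W' i = (Z i - Z' i) * W i + Z' i * (W i - W' i) by
    noncomm_ring]
  have a1 := (h1 i).trans (min_le_left _ _)
  have a2 : ‖Z' i‖ ≤ 2 := by
    have := norm_sub_le (Z i) (Z i - Z' i)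
    rw [sub_sub_cancel] at this
    linarith [h.1 i, (h1 i).trans (min_le_right _ _)]
  have a3 := mul_le_mul a1 (h'.1 i) (norm_nonneg _) (by positivity)
  have a4 := mul_le_mul a2 (h2 i) (norm_nonneg _) zero_le_two
  linarith [norm_add_le_of_le (norm_mul_le (Z i - Z' i) (W i)) (norm_mul_le (Z' i) (W i - W' i))]

lemma rsmul_mem {B : Type*} [Ring B] [Algebra ℂ B] [Module ℝ B] [IsScalarTower ℝ ℂ B]
    {P : Subalgebra ℂ B} {a : B} (h : a ∈ P) (c : ℝ) : c • a ∈ P :=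
  P.toSubmodule.smul_of_tower_mem c h

/-- algebra spanned by words in the letters independent of `e` -/
def alg (T : Let M → I → A) (e : Let M) : Subalgebra ℂ (I → A) :=
  Algebra.adjoin ℂ (T '' {a | dv a.1 ≠ dv e.1})

section
variable (x v b : A) (β : ℕ → A) (δ : ℝ)

/-- conjugated drift direction -/
noncomputable def KK (p : Fin (M + 1) × Fin (M + 1)) : A :=
  (δ / 2) • (TT x v b β (p, false) - TT x v b β (p, true))

/-- the perturbation -/
noncomputable def SS (M : ℕ) : A := (1 / (M + 1 : ℕ) : ℝ) •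
  ∑ l : Fin (M + 1), star (GG x β (l + 1)) * KK (M := M) x v b β δ (0, 0) * GG x β (l + 1)

/-- conjugates of the perturbation -/
noncomputable def Sk (M k : ℕ) : A := GG x β (k + 1) * SS x v b β δ M * star (GG x β (k + 1))

/-- noise -/
noncomputable def Nk (M k : ℕ) : A :=
  if h : k < M + 1 then ∑ l ∈ univ.erase (⟨k, h⟩ : Fin (M + 1)), KK x v b β δ (⟨k, h⟩, l) else 0

variable {x v b β δ}

lemma KK_conj (hx : x ∈ unitary A) (hβ : Uni β) (p : Fin (M + 1) × Fin (M + 1)) :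
    KK x v b β δ p = gg x p β * KK (M := M) x v b β δ (0, 0) * star (gg x p β) := by
  simp [KK, TT, al, be, gg_diag hx hβ, mul_assoc, mul_sub, sub_mul]

lemma star_KK (hb : star b = b) (p : Fin (M + 1) × Fin (M + 1)) :
    star (KK x v b β δ p) = -KK x v b β δ p := by
  simp [KK, TT, al, be, hb, mul_assoc, ← smul_neg]

lemma star_SS (hb : star b = b) : star (SS x v b β δ M) = -SS x v b β δ M := by
  simp [SS, star_KK hb, mul_assoc]

lemma star_Sk (hb : star b = b) (k : ℕ) : star (Sk x v b β δ M k) = -Sk x v b β δ M k := by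
  simp [Sk, star_SS hb, mul_assoc]

lemma Sk_sum (hx : x ∈ unitary A) (hβ : Uni β) (k : Fin (M + 1)) :
    Sk x v b β δ M k = (1 / (M + 1 : ℕ) : ℝ) • ∑ l, KK x v b β δ (k, l) := by
  rw [Sk, SS, mul_smul_comm, smul_mul_assoc, mul_sum, sum_mul]
  congr 1
  exact sum_congr rfl fun l _ => by simp [KK_conj hx hβ (k, l), gg, mul_assoc]

lemma Sk_eq (hx : x ∈ unitary A) (hβ : Uni β) {k : ℕ} (hk : k < M + 1) :
    Sk x v b β δ M k = (1 / (M + 1 : ℕ) : ℝ) • (KK (M := M) x v b β δ (0, 0) + Nk x v b β δ M k) := by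
  rw [Sk_sum hx hβ ⟨k, hk⟩, Nk, dif_pos hk, ← add_sum_erase _ _ (mem_univ ⟨k, hk⟩), KK_conj hx hβ,
    gg_diag hx hβ, star_one, mul_one, one_mul]

variable [TrA A]

lemma norm_TT (hx : x ∈ unitary A) (hv : v ∈ unitary A) (hβ : Uni β) (hb : ‖b‖ ≤ 1) (e : Let M) :
    ‖TT x v b β e‖ ≤ 1 :=
  norm_mul_le_one (norm_mul_le_one ((gr_al hx hv e).norm β hβ) hb) ((gr_be hx hv e).norm β hβ)

lemma norm_KK (hx : x ∈ unitary A) (hv : v ∈ unitary A) (hβ : Uni β) (hb : ‖b‖ ≤ 1) (hδ : 0 ≤ δ)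
    (p : Fin (M + 1) × Fin (M + 1)) : ‖KK x v b β δ p‖ ≤ δ := by
  rw [KK, norm_smul, Real.norm_of_nonneg (by positivity)]
  nlinarith [norm_sub_le_of_le (norm_TT hx hv hβ hb (p, false)) (norm_TT hx hv hβ hb (p, true))]

lemma norm_SS (hx : x ∈ unitary A) (hv : v ∈ unitary A) (hβ : Uni β) (hb : ‖b‖ ≤ 1) (hδ : 0 ≤ δ) :
    ‖SS x v b β δ M‖ ≤ δ := by
  rw [← norm_conj_le (GG_unitary hx hβ ((0 : Fin (M + 1)) + 1)), ← Sk, Sk_sum hx hβ, norm_smul,
    Real.norm_of_nonneg (by positivity), one_div, inv_mul_le_iff₀ (by positivity)]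
  simpa using (norm_sum_le _ _).trans
    (sum_le_card_nsmul univ _ δ fun l _ => norm_KK hx hv hβ hb hδ (0, l))

lemma n2_SS (hx : x ∈ unitary A) (hv : v ∈ unitary A) (hβ : Uni β) (hb : ‖b‖ ≤ 1) (hδ : 0 ≤ δ)
    (hb' : star b = b) : n2 (SS x v b β δ M) ^ 2 ≤ (δ ^ 2 + ∑ k ∈ range (M + 1),
      ‖tr (1 * KK (M := M) x v b β δ (0, 0) * Nk x v b β δ M k)‖) / (M + 1 : ℕ) := by
  have hL : (1 : ℝ) ≤ (M + 1 : ℕ) := by exact_mod_cast (by omega : 1 ≤ M + 1)
  have hK := norm_KK (M := M) hx hv hβ hb hδ (0, 0)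
  rw [n2_sq, star_SS hb', neg_mul, map_neg]
  refine (Complex.re_le_norm _).trans ?_
  rw [norm_neg]
  nth_rw 1 [SS]
  rw [smul_mul_assoc, tr_rsmul, norm_mul, Complex.norm_real, Real.norm_of_nonneg (by positivity),
    sum_mul, map_sum, one_div, ← div_eq_inv_mul]
  gcongr
  rw [Finset.sum_range]
  refine (norm_sum_le _ _).trans ((sum_le_sum fun l _ => ?_).trans
    (b := ∑ l : Fin (M + 1), (δ ^ 2 / (M + 1 : ℕ) +
      ‖tr (1 * KK (M := M) x v b β δ (0, 0) * Nk x v b β δ M l)‖)) ?_)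
  · rw [mul_assoc, mul_assoc, tr_comm, mul_assoc, ← Sk, Sk_eq hx hβ l.2, mul_smul_comm, tr_rsmul,
      norm_mul, Complex.norm_real, Real.norm_of_nonneg (by positivity), mul_add, map_add, one_mul,
      one_div, ← div_eq_inv_mul]
    have h1 := (norm_tr_le _).trans ((norm_mul_le _ _).trans (mul_le_mul hK hK (norm_nonneg _) hδ))
    refine (div_le_div_of_nonneg_right (norm_add_le_of_le h1 le_rfl) (by positivity)).trans ?_
    rw [add_div, sq]
    exact add_le_add le_rfl (div_le_self (norm_nonneg _) hL)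
  · rw [sum_add_distrib, sum_const, card_univ, Fintype.card_fin, nsmul_eq_mul,
      mul_div_cancel₀ _ (by positivity)]

end

variable [TrA A] {F : Filter I}

lemma Ap.WW {P : Subalgebra ℂ (I → A)} {S : ℕ → I → A} (h : ∀ k i, ‖S k i‖ ≤ 1)
    (hs : ∀ k i, star (S k i) = -S k i) {k : ℕ} (hP : ∀ j < k, S j ∈ P) :
    Ap P fun i => WW (fun j => S j i) k := by
  induction k with
  | zero => exact ⟨fun _ => norm_one_le', fun η hη => ⟨1, one_mem _, fun i => by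
      simp [P085.WW, hη.le]⟩⟩
  | succ k ih =>
    refine (ih fun j hj => hP j (by omega)).mul
      ⟨fun i => norm_unitary_le (cay_unitary (h k i) (hs k i)), fun η hη => ?_⟩
    obtain ⟨N, hN⟩ := exists_pow_lt_of_lt_one (show 0 < η / 4 by positivity)
      (show (1 / 2 : ℝ) < 1 by norm_num)
    have := rsmul_mem (hP k (by omega)) (1 / 2)
    refine ⟨(1 + (1 / 2 : ℝ) • S k) * ∑ n ∈ range N, ((1 / 2 : ℝ) • S k) ^ n,
      mul_mem (add_mem (one_mem _) this) (sum_mem fun n _ => pow_mem this n), fun i => ?_⟩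
    have := norm_cay_sub (h k i) N
    simp only [Pi.mul_apply, Pi.add_apply, Pi.one_apply, Pi.smul_apply, Finset.sum_apply,
      Pi.pow_apply]
    linarith

lemma Ap.null {P : Subalgebra ℂ (I → A)} {Z Y T : I → A} (h : Ap P Z) (hY : ∀ i, ‖Y i‖ ≤ 1)
    (hT : ∀ i, ‖T i‖ ≤ 1) (hP : ∀ Z' ∈ P, Tendsto (fun i => tr (Y i * Z' i * T i)) F (𝓝 0)) :
    Tendsto (fun i => tr (Y i * Z i * T i)) F (𝓝 0) := by
  rw [NormedAddGroup.tendsto_nhds_zero]
  intro ε hε
  obtain ⟨Z', hZ, h1⟩ := h.2 (ε / 2) (by positivity)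
  filter_upwards [NormedAddGroup.tendsto_nhds_zero.1 (hP Z' hZ) (ε / 2) (by positivity)] with i hi
  rw [show Y i * Z i * T i = Y i * Z' i * T i + Y i * (Z i - Z' i) * T i by noncomm_ring, map_add]
  have := (norm_tr_le (Y i * (Z i - Z' i) * T i)).trans ((norm_mul_le _ _).trans (mul_le_mul
    ((norm_mul_le _ _).trans (mul_le_mul (hY i) (h1 i) (norm_nonneg _) zero_le_one)) (hT i)
    (norm_nonneg _) (by positivity)))
  linarith [norm_add_le (tr (Y i * Z' i * T i)) (tr (Y i * (Z i - Z' i) * T i))]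

lemma null_alg {T : Let M → I → A} {e : Let M} {Y : I → A}
    (h : ∀ l : List (Let M), (∀ a ∈ l, dv a.1 ≠ dv e.1) →
      Tendsto (fun i => tr (Y i * (l.map fun a => T a i).prod * T e i)) F (𝓝 0)) :
    ∀ Z ∈ alg T e, Tendsto (fun i => tr (Y i * Z i * T e i)) F (𝓝 0) := by
  intro Z hZ
  rw [alg, ← Subalgebra.mem_toSubmodule, Algebra.adjoin_eq_span] at hZ
  induction hZ using Submodule.span_induction with
  | mem Z hZ =>
    have : ∃ l : List (Let M), (∀ a ∈ l, dv a.1 ≠ dv e.1) ∧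
        ∀ i, Z i = (l.map fun a => T a i).prod := by
      induction hZ using Submonoid.closure_induction with
      | mem Z hZ =>
        obtain ⟨a, ha, rfl⟩ := hZ
        exact ⟨[a], by simpa using ha, by simp⟩
      | one => exact ⟨[], by simp, by simp⟩
      | mul Z W _ _ h1 h2 =>
        obtain ⟨l, a1, a2⟩ := h1
        obtain ⟨l', a3, a4⟩ := h2
        exact ⟨l ++ l', fun a ha => (List.mem_append.1 ha).elim (a1 a) (a3 a), by simp [a2, a4]⟩
    obtain ⟨l, a1, a2⟩ := this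
    simpa only [a2] using h l a1
  | zero => simpa using tendsto_const_nhds
  | add Z W _ _ h1 h2 => simpa [mul_add, add_mul] using h1.add h2
  | smul c Z _ h1 => simpa using h1.const_mul c

variable {D : Fam A} {b : I → A} {β : I → ℕ → A} {x v : A} {δ : ℝ}

lemma Net.unit (N : Net D M F b β) (i) : b i ∈ unitary A :=
  ⟨by rw [N.sa, N.sq], by rw [N.sa, N.sq]⟩

lemma Net.norm (N : Net D M F b β) (i) : ‖b i‖ ≤ 1 := norm_unitary_le (N.unit i)

omit [TrA A] in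
lemma KK_mem (e : Let M) {p : Fin (M + 1) × Fin (M + 1)} (hp : dv p ≠ dv e.1) :
    (fun i => KK x v (b i) (β i) δ p) ∈ alg (fun a i => TT x v (b i) (β i) a) e :=
  rsmul_mem (sub_mem (Algebra.subset_adjoin (Set.mem_image_of_mem _ (x := (p, false)) hp))
    (Algebra.subset_adjoin (Set.mem_image_of_mem _ (x := (p, true)) hp))) (δ / 2)

lemma dv_ne {k l : Fin (M + 1)} (h : l ≠ k) : dv (M := M) (0, 0) ≠ dv (k, l) := fun e => by
  rcases dv_inj e with e | e
  · obtain ⟨rfl, rfl⟩ := Prod.mk.inj e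
    exact h rfl
  · exact h e.2.symm

lemma Net.sum (N : Net D M F b β) (hx : x ∈ unitary A) (hv : v ∈ unitary A) {Y : I → A}
    {Z : ℕ → I → A} (hY : ∀ i, ‖Y i‖ ≤ 1)
    (h : ∀ e : Let M, dv e.1 ≠ 0 → ∀ l : List (Let M), (∀ a ∈ l, dv a.1 ≠ dv e.1) →
      Tendsto (fun i => tr (Y i * (l.map (TT x v (b i) (β i))).prod * TT x v (b i) (β i) e)) F
        (𝓝 0))
    (hZ : ∀ k l : Fin (M + 1), l ≠ k → ∀ σ,
      Ap (alg (fun a i => TT x v (b i) (β i) a) ((k, l), σ)) (Z k)) :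
    Tendsto (fun i => ∑ k ∈ range (M + 1), ‖tr (Y i * Z k i * Nk x v (b i) (β i) δ M k)‖) F
      (𝓝 0) := by
  rw [← sum_const_zero (s := range (M + 1))]
  refine tendsto_finsetSum _ fun k hk => tendsto_zero_iff_norm_tendsto_zero.1 ?_
  have hk := mem_range.1 hk
  simp only [Nk, dif_pos hk, mul_sum, map_sum]
  rw [← sum_const_zero (s := univ.erase (⟨k, hk⟩ : Fin (M + 1)))]
  refine tendsto_finsetSum _ fun l hl => ?_
  have hl := ne_of_mem_erase hl
  have t := fun σ => (hZ ⟨k, hk⟩ l hl σ).null hY (fun i => norm_TT hx hv (N.uni i) (N.norm i) _)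
    (null_alg (h _ (dv_diag (M := M) 0 ▸ (dv_ne hl).symm)))
  simpa [KK, mul_sub, tr_rsmul] using ((t false).sub (t true)).const_mul ((δ / 2 : ℝ) : ℂ)

lemma Net.step (N : Net D M F b β) (hx : x ∈ unitary A) (hv : v ∈ unitary A) {z : A}
    (hz : ‖z‖ ≤ 1) (hδ : 0 ≤ δ) (hδ1 : δ ≤ 1) {ε : ℝ} (hε : 0 < ε) :
    ∀ᶠ i in F, n2 (SS x v (b i) (β i) δ M) ^ 2 ≤ 2 / (M + 1 : ℕ) ∧
      δ / 2 * (tr (z * v)).re - δ * √(2 * (δ + δ ^ 2)) - δ ^ 2 - ε ≤
        (tr (z * (GG (x * cay (SS x v (b i) (β i) δ M)) (β i) (M + 1) * b i))).re := by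
  have hS : ∀ i, ‖SS x v (b i) (β i) δ M‖ ≤ 1 := fun i =>
    (norm_SS hx hv (N.uni i) (N.norm i) hδ).trans hδ1
  have hSk : ∀ k i, ‖Sk x v (b i) (β i) δ M k‖ ≤ 1 := fun k i =>
    (norm_conj_le (GG_unitary hx (N.uni i) _)).trans_le (hS i)
  have hK := fun i => norm_KK (M := M) hx hv (N.uni i) (N.norm i) hδ (0, 0)
  have hy : ∀ i, ‖GG x (β i) (M + 1) * b i * z‖ ≤ 1 := fun i => norm_mul_le_one
    (norm_mul_le_one (norm_unitary_le (GG_unitary hx (N.uni i) _)) (N.norm i)) hz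
  have hW : ∀ k l : Fin (M + 1), l ≠ k → ∀ σ, Ap (alg (fun a i => TT x v (b i) (β i) a) ((k, l), σ))
      fun i => WW (fun j => Sk x v (b i) (β i) δ M j) k := fun k l hl σ =>
    Ap.WW hSk (fun k i => star_Sk (N.sa i) k) fun j hj => by
      have hj' : j < M + 1 := hj.trans k.2
      rw [show (fun i => Sk x v (b i) (β i) δ M j) = (1 / (M + 1 : ℕ) : ℝ) •
        ∑ l', fun i => KK x v (b i) (β i) δ (⟨j, hj'⟩, l') from funext fun i => by
          simpa using Sk_sum hx (N.uni i) ⟨j, hj'⟩]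
      refine rsmul_mem (sum_mem fun l' _ => KK_mem _ fun e => ?_) _
      rcases dv_inj e with e | e
      · exact hj.ne (congrArg (fun p => p.1.1) e)
      · exact hl e.2.symm
  have n1 := fun (e : Let M) (_ : dv e.1 ≠ 0) l hl =>
    N.noise hx hv (Gr.const norm_one_le') (e := e) (l := l) hl
  have t1 := N.sum (δ := δ) hx hv (Y := fun _ => 1)
    (Z := fun k i => WW (fun j => Sk x v (b i) (β i) δ M j) k) (fun _ => norm_one_le') n1 hW
  have t2 := N.sum (δ := δ) hx hv (Z := fun k i => WW (fun j => Sk x v (b i) (β i) δ M j) k) hy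
    (fun e he l hl => N.noise' hx hv hz he hl) hW
  have t3 := N.sum (δ := δ) hx hv (Y := fun _ => 1)
    (Z := fun _ i => KK (M := M) x v (b i) (β i) δ (0, 0)) (fun _ => norm_one_le') n1
    fun k l hl σ => ⟨fun i => (hK i).trans hδ1, fun η hη =>
      ⟨_, KK_mem (δ := δ) _ (dv_ne hl), fun i => by simp [hη.le]⟩⟩
  have t4 := N.chain hx hv (gr_z hz) (gr_G hx) (l := []) (by simp [NC])
  have t5 := N.chain hx hv (gr_z hz) (gr_G hx) (l := [((0, 0), true)]) (by simp [NC])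
  have r := Complex.continuous_re.tendsto 0
  have t6 := (((r.comp t4).add (((tendsto_const_nhds (x := (tr (z * v)).re)).sub
    (r.comp t5)).const_mul (δ / 2))).sub (((((t1.const_add δ).add (t3.const_add (δ ^ 2))).const_mul
      2).sqrt).const_mul δ)).sub t2 |>.sub (t3.const_add (δ ^ 2))
  simp only [Complex.zero_re, add_zero, sub_zero, zero_add] at t6
  filter_upwards [t6.eventually (lt_mem_nhds (sub_lt_self _ hε)),
    t3.eventually (gt_mem_nhds one_pos)] with i h1 h2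
  have h3 := n2_SS (M := M) hx hv (N.uni i) (N.norm i) hδ (N.sa i)
  refine ⟨h3.trans (by gcongr; nlinarith), h1.le.trans ?_⟩
  have h4 := drift (S := fun j => Sk x v (b i) (β i) δ M j) (L := M + 1) M.succ_pos
    (fun k => hSk k i) (star_Sk (N.sa i))
    (fun k => (congrArg (· ^ 2) (n2_conj (GG_unitary hx (N.uni i) _) _)).trans_le h3)
    (fun k hk => Sk_eq hx (N.uni i) hk) (hy i) (hK i) le_rfl
  rw [mul_div_cancel₀ _ (by positivity)] at h4
  have hG := GG_unitary hx (N.uni i) (M + 1)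
  have e1 : tr (GG x (β i) (M + 1) * b i * z * KK (M := M) x v (b i) (β i) δ (0, 0)) =
      (δ / 2 : ℝ) * (tr (z * v) - tr (b i * (z * TT (M := M) x v (b i) (β i) ((0, 0), true) *
        GG x (β i) (M + 1)))) := by
    rw [KK, mul_smul_comm, tr_rsmul, mul_sub, map_sub, ← mul_assoc (b i), tr_comm _ (GG _ _ _),
      ← tr_conj (mul_mem hG (N.unit i)) (z * v)]
    simp [TT, al, be, gg_diag hx (N.uni i), N.sa, mul_assoc]
  have e2 : tr (GG x (β i) (M + 1) * b i * z) = tr (b i * (z * GG x (β i) (M + 1))) := by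
    rw [← mul_assoc, tr_cyc (b i)]
  have e3 : ∀ W, tr (z * (W * GG x (β i) (M + 1) * b i)) = tr (GG x (β i) (M + 1) * b i * z * W) :=
    fun W => by rw [mul_assoc W, ← mul_assoc z, tr_comm, ← mul_assoc]
  rw [GG_mul hx (N.uni i) (hS i), e3]
  rw [e1, e2] at h4
  simpa [Sk] using h4

omit [TrA A] in
lemma Fam.comb_mem (Q : Fam A) {P : Subalgebra ℂ A} (h : ∀ i, Q.q i ∈ P) (a) : Q.comb a ∈ P :=
  sum_mem fun i _ => P.smul_mem (h i) _

omit [TrA A] in
lemma GG_mem {P : Subalgebra ℂ A} {u : A} {β : ℕ → A} (hu : u ∈ P) (hβ : ∀ s, β s ∈ P) (k : ℕ) :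
    GG u β k ∈ P := by
  induction k with
  | zero => exact one_mem _
  | succ k ih => exact mul_mem (mul_mem ih (hβ k)) hu

lemma num_ineq {t : ℝ} (h0 : 0 ≤ t) (h1 : t ≤ 1) : t ^ 6 / 500 ≤
    t ^ 4 / 100 / 2 * t ^ 2 - t ^ 4 / 100 * √(2 * (t ^ 4 / 100 + (t ^ 4 / 100) ^ 2)) -
      (t ^ 4 / 100) ^ 2 := by
  have h4 : t ^ 4 ≤ 1 := pow_le_one₀ h0 h1
  have h2 : t ^ 2 ≤ 1 := pow_le_one₀ h0 h1
  have a1 : √(2 * (t ^ 4 / 100 + (t ^ 4 / 100) ^ 2)) ≤ t ^ 2 / 5 :=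
    Real.sqrt_le_iff.2 ⟨by positivity, by nlinarith [pow_nonneg h0 4]⟩
  have a2 := mul_le_mul_of_nonneg_left a1 (show 0 ≤ t ^ 4 / 100 by positivity)
  nlinarith [mul_le_mul_of_nonneg_left h2 (pow_nonneg h0 6), pow_nonneg h0 6]

theorem step [Fac A] (hx : x ∈ unitary A) {z : A} (hz : IsSelfAdjoint z) (hz1 : ‖z‖ ≤ 1)
    {D D' : Fam A} (hD : D.tot = 1) (hD' : D'.tot = 1) {ε : ℝ} (hε : 0 < ε) :
    ∃ u ∈ unitary A, ∃ Q Q' : Fam A, Q.tot = 1 ∧ Q.Sub D ∧ Q'.tot = 1 ∧ Q'.Sub D' ∧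
      n2 (u - x) ≤ ε ∧ ∃ r : ℝ, 0 < r ∧ ∀ u' ∈ unitary A, n2 (u' - u) ≤ r →
        ∀ P : Subalgebra ℂ A, (∀ i, Q.q i ∈ P) → (∀ i, Q'.q i ∈ P) → u' ∈ P →
          ∃ w ∈ P, ‖w‖ ≤ 1 ∧ n2 z ^ 6 / 500 - ε ≤ (tr (z * w)).re := by
  classical
  let _ := CStarAlgebra.spectralOrder A
  have _ := CStarAlgebra.spectralOrderedRing A
  have hv := hz.self_add_I_smul_cfcSqrt_sub_sq_mem_unitary z hz1
  set v := z + Complex.I • CFC.sqrt (1 - z ^ 2) with hvd
  have hzv : (tr (z * v)).re = n2 z ^ 2 := by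
    rw [hvd, mul_add, map_add, mul_smul_comm, map_smul, n2_sq, hz.star_eq]
    simp [tr_mul_im_of_sa hz (CFC.sqrt_nonneg _).isSelfAdjoint]
  obtain ⟨M, hM⟩ := exists_nat_ge (8 / ε ^ 2)
  choose Q Q' ω ω' h1 h2 h3 h4 h5 using fun i : Finset ((ℕ → A) → A) × ℕ =>
    exists_cfg D D' hD hD' (M + 1) i.1 i.2 (ε := 1 / ((i.2 : ℝ) + 1)) (by positivity)
  have N : Net D M atTop (fun i => (Q i).sym (ω i)) fun i => phs (M + 1) (Q' i) (ω' i) := by
    refine ⟨fun i => (Q i).star_sym _, fun i => ((Q i).sym_sym _).trans (h1 i),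
      fun i => uni_phs (h3 i) _, fun i j => ?_, fun l hl hg => ?_⟩
    · simp [Fam.sym, Fam.comb, sum_mul, mul_sum, ((h2 i).commute _ j).eq]
    · refine squeeze_zero_norm' ?_ ((tendsto_one_div_add_atTop_nhds_zero_nat (𝕜 := ℝ)).comp
        (prod_atTop_atTop_eq (α := Finset ((ℕ → A) → A)) (β := ℕ) ▸ tendsto_snd))
      filter_upwards [eventually_ge_atTop (l.toFinset, l.length)] with i hi
      exact h5 i l hl hi.2 fun f hf => ⟨hi.1 (List.mem_toFinset.2 hf), hg f hf⟩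
  have hz2 : n2 z ≤ 1 := (n2_le_norm z).trans hz1
  have hδ1 : n2 z ^ 4 / 100 ≤ 1 := by linarith [pow_le_one₀ (n := 4) (n2_nonneg z) hz2]
  have hδ : 0 ≤ n2 z ^ 4 / 100 := by positivity
  obtain ⟨i, a1, a2⟩ := (N.step hx hv hz1 hδ hδ1 (half_pos hε)).exists
  have hS := (norm_SS (M := M) hx hv (N.uni i) (N.norm i) hδ).trans hδ1
  have hu := mul_mem hx (cay_unitary hS (star_SS (N.sa i)))
  have hL : (0 : ℝ) < (M + 1 : ℕ) := by positivity
  refine ⟨_, hu, Q i, Q' i, h1 i, h2 i, h3 i, h4 i, ?_, ε / 2 / (M + 1 : ℕ), by positivity,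
    fun u' hu' hr P b1 b2 b3 => ⟨GG u' (phs (M + 1) (Q' i) (ω' i)) (M + 1) * (Q i).sym (ω i),
      mul_mem (GG_mem b3 (fun s => ?_) _) ((Q i).comb_mem b1 _),
      norm_unitary_le (mul_mem (GG_unitary hu' (N.uni i) _) (N.unit i)), ?_⟩⟩
  · rw [← mul_sub_one, n2_unitary_mul hx, cay_sub_one hS]
    refine ((n2_mul_le' _ _).trans (mul_le_mul_of_nonneg_left (norm_res hS) (n2_nonneg _))).trans
      (le_of_sq_le_sq ?_ hε.le)
    rw [div_le_iff₀ (by positivity)] at hM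
    rw [le_div_iff₀ hL] at a1
    refine le_of_mul_le_mul_right ?_ hL
    push_cast at a1 ⊢
    nlinarith [sq_nonneg ε]
  · unfold phs
    split_ifs
    exacts [(Q' i).comb_mem b2 _, one_mem _]
  · have c1 := GG_lip hu' hu (N.uni i) (M + 1)
    rw [le_div_iff₀' hL] at hr
    rw [← n2_mul_unitary (N.unit i), sub_mul] at c1
    have c2 := (abs_le.1 ((Complex.abs_re_le_norm _).trans ((cs z _).trans
      (mul_le_mul hz2 (c1.trans hr) (n2_nonneg _) zero_le_one)))).1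
    rw [mul_sub, map_sub, Complex.sub_re] at c2
    rw [hzv] at a2
    linarith [num_ineq (n2_nonneg z) hz2]

end Vale.Agent.P085
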