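import Vale.Agent.P085.ES

/-! Word calculus for the amplification step. -/

namespace Vale.Agent.P085

open scoped ComplexConjugate InnerProductSpace BigOperators
open Filter Topology Finset Function

/-- degree of a prefix -/
def dG (k : ℕ) : ℕ → ZMod 3 := fun s => if s < k then 1 else 0

/-- letters -/
abbrev Let (M : ℕ) := (Fin (M + 1) × Fin (M + 1)) × Bool

variable {M : ℕ}

/-- degree of a conjugating element -/
def dv (p : Fin (M + 1) × Fin (M + 1)) : ℕ → ZMod 3 := dG (p.1 + 1) - dG (p.2 + 1)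

/-- degree of the left half of a letter -/
def dal (e : Let M) : ℕ → ZMod 3 := dv e.1 + if e.2 then dG (M + 1) else 0

/-- degree of the right half of a letter -/
def dbe (e : Let M) : ℕ → ZMod 3 := (if e.2 then 0 else -dG (M + 1)) + -dv e.1

/-- no cancellation -/
def NC (e e' : Let M) : Prop := ¬ (dv e.1 = dv e'.1 ∧ e.2 ≠ e'.2)

lemma dv_diag (k : Fin (M + 1)) : dv (k, k) = 0 := sub_self _

lemma dv_inj {p q : Fin (M + 1) × Fin (M + 1)} (h : dv p = dv q) :
    p = q ∨ (p.1 = p.2 ∧ q.1 = q.2) := by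
  obtain ⟨a, b⟩ := p
  obtain ⟨c, d⟩ := q
  have H : ∀ s : ℕ, ((s ≤ a ↔ s ≤ b) ∧ (s ≤ c ↔ s ≤ d)) ∨ ((s ≤ a ↔ s ≤ c) ∧ (s ≤ b ↔ s ≤ d)) := by
    intro s
    have h1 := congrFun h s
    simp only [dv, dG, Pi.sub_apply, Nat.lt_succ_iff] at h1
    split_ifs at h1 <;> first | omega | (exfalso; revert h1; decide)
  have h1 := H a
  have h2 := H b
  have h3 := H c
  have h4 := H d
  simp only [Prod.ext_iff, Fin.ext_iff]
  omega

lemma NC.deg {e e' : Let M} (h : NC e e') : ∃ s < M + 1, (dbe e + dal e') s ≠ 0 := by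
  obtain ⟨p, σ⟩ := e
  obtain ⟨q, τ⟩ := e'
  by_cases hs : σ = τ
  · subst hs
    refine ⟨0, by omega, ?_⟩
    cases σ <;> simp [dbe, dal, dv, dG]
  · have h1 : dv p ≠ dv q := fun e => h ⟨e, hs⟩
    obtain ⟨s, hs'⟩ := Function.ne_iff.1 h1
    refine ⟨s, ?_, ?_⟩
    · by_contra hlt
      have : ∀ k : Fin (M + 1), ¬ s < k + 1 := fun k => by have := k.2; omega
      simp [dv, dG, this] at hs'
    · cases σ <;> cases τ <;> simp at hs <;> simp [dbe, dal] <;>
      exact fun e => hs' (by linear_combination -e)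

variable {A : Type*} [CStarAlgebra A] (x v : A)

/-- prefixes of the long word -/
def GG (β : ℕ → A) : ℕ → A
  | 0 => 1
  | k + 1 => GG β k * β k * x

/-- conjugating elements -/
def gg (p : Fin (M + 1) × Fin (M + 1)) (β : ℕ → A) : A :=
  GG x β (p.1 + 1) * star (GG x β (p.2 + 1))

/-- left half of a letter -/
def al (e : Let M) (β : ℕ → A) : A := gg x e.1 β * if e.2 then GG x β (M + 1) else v

/-- right half of a letter -/
def be (e : Let M) (β : ℕ → A) : A :=
  (if e.2 then star v else star (GG x β (M + 1))) * star (gg x e.1 β)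

/-- a letter -/
def TT (b : A) (β : ℕ → A) (e : Let M) : A := al x v e β * b * be x v e β

/-- junctions -/
def junc : ((ℕ → A) → A) → List (Let M) → ((ℕ → A) → A) → List ((ℕ → A) → A)
  | f, [], g => [fun β => f β * g β]
  | f, e :: l, g => (fun β => f β * al x v e β) :: junc (be x v e) l g

lemma junc_ne_nil (f g : (ℕ → A) → A) (l : List (Let M)) : junc x v f l g ≠ [] := by
  cases l <;> simp [junc]

lemma wd_junc (b : A) (β : ℕ → A) (f g : (ℕ → A) → A) (l : List (Let M)) :
    wd b ((junc x v f l g).map fun f => f β) = b * (f β * (l.map (TT x v b β)).prod * g β) := by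
  induction l generalizing f with
  | nil => simp [junc]
  | cons e l ih => simp [junc, ih, TT, mul_assoc]

variable {x v}

lemma GG_unitary (hx : x ∈ unitary A) {β : ℕ → A} (hβ : Uni β) (k : ℕ) : GG x β k ∈ unitary A := by
  induction k with
  | zero => exact one_mem _
  | succ k ih => exact mul_mem (mul_mem ih (hβ k)) hx

lemma gg_unitary (hx : x ∈ unitary A) {β : ℕ → A} (hβ : Uni β) (p : Fin (M + 1) × Fin (M + 1)) :
    gg x p β ∈ unitary A :=
  mul_mem (GG_unitary hx hβ _) (Unitary.star_mem (GG_unitary hx hβ _))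

lemma gg_diag (hx : x ∈ unitary A) {β : ℕ → A} (hβ : Uni β) (k : Fin (M + 1)) :
    gg x (k, k) β = 1 := (GG_unitary hx hβ _).2

lemma gg_congr (hx : x ∈ unitary A) {β : ℕ → A} (hβ : Uni β) {p q : Fin (M + 1) × Fin (M + 1)}
    (h : dv p = dv q) : gg x p β = gg x q β := by
  obtain ⟨a, b⟩ := p
  obtain ⟨c, d⟩ := q
  rcases dv_inj h with h | ⟨h1, h2⟩
  · rw [h]
  · simp only at h1 h2
    subst h1 h2
    rw [gg_diag hx hβ, gg_diag hx hβ]

lemma TT_cancel (hx : x ∈ unitary A) (hv : v ∈ unitary A) {β : ℕ → A} (hβ : Uni β) {b : A}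
    (hb : b * b = 1) {e e' : Let M} (h : ¬ NC e e') : TT x v b β e * TT x v b β e' = 1 := by
  obtain ⟨p, σ⟩ := e
  obtain ⟨q, τ⟩ := e'
  obtain ⟨h1, h2⟩ := not_not.1 h
  have hg := gg_unitary hx hβ p
  have hG := GG_unitary hx hβ (M + 1)
  have c : ∀ {u : A}, u ∈ unitary A → ∀ y, star u * (u * y) = y := fun hu y => by
    rw [← mul_assoc, hu.1, one_mul]
  have c' : ∀ {u : A}, u ∈ unitary A → ∀ y, u * (star u * y) = y := fun hu y => by
    rw [← mul_assoc, hu.2, one_mul]
  have c'' : ∀ y, b * (b * y) = y := fun y => by rw [← mul_assoc, hb, one_mul]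
  simp only [TT, al, be, ← gg_congr hx hβ h1]
  cases σ <;> cases τ <;> simp at h2 <;>
    simp [mul_assoc, c hg, c hG, c hv, c' hG, c' hv, c'', hg.2]

lemma exists_reduced (l : List (Let M)) : ∃ l' : List (Let M), l'.IsChain NC ∧ (∀ e ∈ l', e ∈ l) ∧
    ∀ (x v b : A) (β : ℕ → A), x ∈ unitary A → v ∈ unitary A → Uni β → b * b = 1 →
      (l.map (TT x v b β)).prod = (l'.map (TT x v b β)).prod := by
  induction l with
  | nil => exact ⟨[], by simp, by simp, by simp⟩
  | cons e l ih =>
    obtain ⟨l', h1, h2, h3⟩ := ih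
    rcases l' with _ | ⟨e', l'⟩
    · exact ⟨[e], by simp, by simp, fun x v b β hx hv hβ hb => by simp [h3 x v b β hx hv hβ hb]⟩
    · by_cases h : NC e e'
      · exact ⟨e :: e' :: l', List.isChain_cons_cons.2 ⟨h, h1⟩, by
          intro a ha
          rcases List.mem_cons.1 ha with rfl | ha
          · simp
          · exact List.mem_cons_of_mem _ (h2 a ha), fun x v b β hx hv hβ hb => by
          simp [h3 x v b β hx hv hβ hb]⟩
      · exact ⟨l', h1.tail, fun a ha => List.mem_cons_of_mem _ (h2 a (List.mem_cons_of_mem _ ha)),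
          fun x v b β hx hv hβ hb => by
            simp [h3 x v b β hx hv hβ hb, ← mul_assoc, TT_cancel hx hv hβ hb h]⟩

variable [TrA A]

lemma gr_GG (hx : x ∈ unitary A) (k : ℕ) : Gr (dG k) fun β => GG x β k := by
  induction k with
  | zero => exact (Gr.const norm_one_le').congr (by funext s; simp [dG])
  | succ k ih =>
    refine ((ih.mul (Gr.coord k)).mul (Gr.const (norm_unitary_le hx))).congr ?_
    funext s
    simp only [dG, Pi.add_apply, Pi.single_apply, Pi.zero_apply]
    split_ifs <;> first | omega | simp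

lemma gr_gg (hx : x ∈ unitary A) (p : Fin (M + 1) × Fin (M + 1)) : Gr (dv p) (gg x p) :=
  ((gr_GG hx _).mul (gr_GG hx _).star).congr (sub_eq_add_neg _ _).symm

lemma gr_al (hx : x ∈ unitary A) (hv : v ∈ unitary A) (e : Let M) : Gr (dal e) (al x v e) := by
  obtain ⟨p, σ⟩ := e
  cases σ
  · exact (gr_gg hx p).mul (Gr.const (norm_unitary_le hv))
  · exact (gr_gg hx p).mul (gr_GG hx _)

lemma gr_be (hx : x ∈ unitary A) (hv : v ∈ unitary A) (e : Let M) : Gr (dbe e) (be x v e) := by
  obtain ⟨p, σ⟩ := e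
  cases σ
  · exact (gr_GG hx _).star.mul (gr_gg hx p).star
  · exact (Gr.const (norm_unitary_le (Unitary.star_mem hv))).mul (gr_gg hx p).star

lemma good_junc (hx : x ∈ unitary A) (hv : v ∈ unitary A) (D : Fam A) {g : (ℕ → A) → A}
    {e₁ : Let M} (hg : Gr (dal e₁) g) (l : List (Let M)) : ∀ {f : (ℕ → A) → A} {e₀ : Let M},
    Gr (dbe e₀) f → (e₀ :: (l ++ [e₁])).IsChain NC → ∀ h ∈ junc x v f l g, Good D (M + 1) h := by
  induction l with
  | nil =>
    intro f e₀ hf hc h hh
    obtain ⟨s, hs, hd⟩ := (show NC e₀ e₁ by simpa using hc).deg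
    obtain rfl := List.mem_singleton.1 hh
    exact (hf.mul hg).good hs hd
  | cons e l ih =>
    intro f e₀ hf hc h hh
    obtain ⟨h1, h2⟩ := List.isChain_cons_cons.1 hc
    rcases List.mem_cons.1 hh with rfl | hh
    · obtain ⟨s, hs, hd⟩ := h1.deg
      exact (hf.mul (gr_al hx hv e)).good hs hd
    · exact ih (gr_be hx hv e) h2 h hh

/-- a net of configurations which is asymptotically free -/
structure Net (D : Fam A) (M : ℕ) {I : Type*} (F : Filter I) (b : I → A) (β : I → ℕ → A) :
    Prop where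
  sa : ∀ i, star (b i) = b i
  sq : ∀ i, b i * b i = 1
  uni : ∀ i, Uni (β i)
  comm : ∀ i j, b i * D.q j = D.q j * b i
  free : ∀ l : List ((ℕ → A) → A), l ≠ [] → (∀ f ∈ l, Good D (M + 1) f) →
    Tendsto (fun i => tr (wd (b i) (l.map fun f => f (β i)))) F (𝓝 0)

variable {D : Fam A} {I : Type*} {F : Filter I} {b : I → A} {β : I → ℕ → A}

lemma Net.chain (N : Net D M F b β) (hx : x ∈ unitary A) (hv : v ∈ unitary A)
    {f g : (ℕ → A) → A} {e₀ e₁ : Let M} (hf : Gr (dbe e₀) f) (hg : Gr (dal e₁) g)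
    {l : List (Let M)} (hc : (e₀ :: (l ++ [e₁])).IsChain NC) :
    Tendsto (fun i => tr (b i * (f (β i) * (l.map (TT x v (b i) (β i))).prod * g (β i)))) F
      (𝓝 0) := by
  simpa only [wd_junc] using N.free _ (junc_ne_nil x v f g l) (good_junc hx hv D hg l hf hc)

lemma isChain_snoc {l : List (Let M)} {e : Let M} (h : l.IsChain NC) (he : ∀ a ∈ l, NC a e) :
    (l ++ [e]).IsChain NC :=
  h.append (List.isChain_singleton _) fun a ha y hy => by
    obtain rfl : e = y := by simpa using hy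
    exact he a (List.mem_of_mem_getLast? ha)

lemma Net.noise (N : Net D M F b β) (hx : x ∈ unitary A) (hv : v ∈ unitary A)
    {m : (ℕ → A) → A} (hm : Gr 0 m) {e : Let M} {l : List (Let M)}
    (hl : ∀ a ∈ l, dv a.1 ≠ dv e.1) :
    Tendsto (fun i => tr (m (β i) * (l.map (TT x v (b i) (β i))).prod * TT x v (b i) (β i) e)) F
      (𝓝 0) := by
  obtain ⟨l', h1, h2, h3⟩ := exists_reduced (A := A) l
  have hc : (e :: (l' ++ [e])).IsChain NC := by
    refine (isChain_snoc h1 fun a ha h => hl a (h2 a ha) h.1).cons fun y hy => ?_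
    rcases List.mem_append.1 (List.mem_of_mem_head? hy) with h | h
    · exact fun h' => hl y (h2 y h) h'.1.symm
    · obtain rfl := List.mem_singleton.1 h
      exact fun h' => h'.2 rfl
  refine (N.chain hx hv (((gr_be hx hv e).mul hm).congr (add_zero _)) (gr_al hx hv e) hc).congr
    fun i => ?_
  rw [h3 x v _ _ hx hv (N.uni i) (N.sq i), TT, tr_comm, ← mul_assoc _ _ (be x v e _),
    tr_comm _ (be x v e _)]
  simp only [mul_assoc]

lemma gr_z {z : A} (hz : ‖z‖ ≤ 1) : Gr (dbe (M := M) ((0, 0), true)) fun _ => z :=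
  (Gr.const hz).congr (by simp [dbe, dv_diag])

lemma gr_G (hx : x ∈ unitary A) : Gr (dal (M := M) ((0, 0), true)) fun β => GG x β (M + 1) :=
  (gr_GG hx _).congr (by simp [dal, dv_diag])

lemma Net.noise' (N : Net D M F b β) (hx : x ∈ unitary A) (hv : v ∈ unitary A) {z : A}
    (hz : ‖z‖ ≤ 1) {e : Let M} (he : dv e.1 ≠ 0) {l : List (Let M)}
    (hl : ∀ a ∈ l, dv a.1 ≠ dv e.1) :
    Tendsto (fun i => tr (GG x (β i) (M + 1) * b i * z * (l.map (TT x v (b i) (β i))).prod *
      TT x v (b i) (β i) e)) F (𝓝 0) := by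
  obtain ⟨l', h1, h2, h3⟩ := exists_reduced (A := A) l
  have hl' : ∀ a ∈ l', dv a.1 ≠ dv e.1 := fun a ha => hl a (h2 a ha)
  have hc : (l' ++ [e] ++ [((0, 0), true)]).IsChain NC := by
    rw [List.append_assoc]
    refine h1.append (by simpa [NC, dv_diag] using fun h => absurd h he) fun a ha y hy => ?_
    obtain rfl : e = y := by simpa using hy
    exact fun h => hl' a (List.mem_of_mem_getLast? ha) h.1
  simp only [fun i => h3 x v _ _ hx hv (N.uni i) (N.sq i)]
  by_cases hh : ∀ y ∈ (l' ++ [e] ++ [((0, 0), true)]).head?, NC ((0, 0), true) y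
  · refine (N.chain hx hv (gr_z hz) (gr_G hx) (hc.cons hh)).congr fun i => ?_
    rw [← mul_assoc, tr_comm]
    simp [mul_assoc]
  push Not at hh
  obtain ⟨y, hy, hy'⟩ := hh
  obtain ⟨a1, a2⟩ := not_not.1 hy'
  rcases l' with _ | ⟨y', l'⟩
  · obtain rfl : e = y := by simpa using hy
    exact absurd (a1.symm.trans (dv_diag _)) he
  obtain rfl : y' = y := by simpa using hy
  obtain ⟨p, σ⟩ := y'
  obtain rfl : σ = false := by simpa using a2
  set d := D.comb fun j => tr (D.q j * (z * v)) / tr (D.q j) with hd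
  have hzv : ‖z * v‖ ≤ 1 := norm_mul_le_one hz (norm_unitary_le hv)
  have hdn : ‖d‖ ≤ 1 := D.norm_comb_le fun j => by
    rw [norm_div]
    refine div_le_one_of_le₀ ((norm_tr_proj_mul_le (D.proj j) _).trans ?_) (norm_nonneg _)
    exact (mul_le_of_le_one_left (tr_proj_nonneg (D.proj j)) hzv).trans (Complex.re_le_norm _)
  have hgood : Good D (M + 1) fun _ => (1 / 2 : ℝ) • (z * v - d) := by
    refine Good.const ?_ fun j => ?_
    · rw [norm_smul]; norm_num; linarith [norm_sub_le (z * v) d]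
    · rw [mul_smul_comm, tr_rsmul, mul_sub, map_sub, hd, D.q_comb, map_smul, smul_eq_mul]
      by_cases h : tr (D.q j) = 0
      · have := norm_tr_proj_mul_le (D.proj j) (z * v)
        simp only [h, Complex.zero_re, mul_zero, norm_le_zero_iff] at this
        simp [h, this]
      · simp [div_mul_cancel₀ _ h]
  have t1 := N.noise hx hv ((((gr_GG hx (M + 1)).mul (Gr.const hdn)).mul
    (gr_GG hx (M + 1)).star).congr (by simp)) (e := e) (l := l')
    fun a ha => hl' a (List.mem_cons_of_mem _ ha)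
  have t2 := N.free ((fun _ => (1 / 2 : ℝ) • (z * v - d)) ::
    junc x v (be x v (p, false)) (l' ++ [e]) fun β => GG x β (M + 1)) (by simp) (by
      intro f hf
      rcases List.mem_cons.1 hf with rfl | hf
      · exact hgood
      · exact good_junc hx hv D (gr_G hx) _ (gr_be hx hv _) hc f hf)
  have := t1.add (t2.const_mul 2)
  rw [mul_zero, add_zero] at this
  refine this.congr fun i => ?_
  have hg : gg x p (β i) = 1 := (gg_congr hx (N.uni i) a1).symm.trans (gg_diag hx (N.uni i) 0)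
  have hbd : b i * d = d * b i := by simp [hd, Fam.comb, mul_sum, sum_mul, N.comm]
  have hbd' : ∀ y, b i * (d * (b i * y)) = d * y := fun y => by
    rw [← mul_assoc, hbd, mul_assoc, ← mul_assoc (b i), N.sq, one_mul]
  rw [List.map_cons, wd_cons, wd_junc, ← mul_assoc (b i), ← mul_assoc, tr_comm _ (GG _ _ _)]
  simp only [List.map_cons, List.prod_cons, List.map_append, List.prod_append, List.map_nil,
    List.prod_nil, mul_one, mul_smul_comm, smul_mul_assoc, tr_rsmul, mul_sub, sub_mul, map_sub,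
    mul_assoc, hbd']
  rw [show TT x v (b i) (β i) (p, false) = v * (b i * star (GG x (β i) (M + 1))) by
    simp [TT, al, be, hg, mul_assoc], show be x v (p, false) (β i) = star (GG x (β i) (M + 1)) by
    simp [be, hg]]
  simp only [mul_assoc]
  push_cast
  ring

end Vale.Agent.P085
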